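import Vale.Agent.Lib.P084T.E3
import Vale.Agent.Lib.P084T.C2
import Vale.Agent.Lib.P084T.D2
import Vale.Agent.Lib.P084T.H4
import Vale.Agent.Lib.P084T.H5
import Vale.Agent.Lib.P084T.J1

set_option linter.unusedSectionVars false

/-! # P084G part G0: general finite dimensional Tingley. See `notes/P084G_blueprint.md`. -/

open MeasureTheory Set Filter Topology
open scoped RealInnerProductSpace ENNReal NNReal

namespace Vale.Agent.Lib.P084T

variable {E : Type*} [NormedAddCommGroup E] [InnerProductSpace ℝ E] [FiniteDimensional ℝ E]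
  [CompleteSpace E] [MeasurableSpace E] [BorelSpace E]
variable {N N' : NF E}

/-- Second order data of the dual norm at `ξ`, in norming vector form (valid without strict
convexity): `Q` is the Hessian of the dual norm at `ξ`. -/
def AlexData (N : NF E) (ξ : E) (Q : E →L[ℝ] E) : Prop :=
  DifferentiableAt ℝ (N.dual : E → ℝ) ξ ∧ (∀ v w, ⟪Q v, w⟫ = ⟪v, Q w⟫) ∧ (∀ v, 0 ≤ ⟪Q v, v⟫) ∧
    ∀ ε > 0, ∃ δ > 0, ∀ ξ' x', ‖ξ' - ξ‖ < δ → N x' = 1 → ⟪ξ', x'⟫ = N.dual ξ' →
      ‖x' - uhat N ξ - Q (ξ' - ξ)‖ ≤ ε * ‖ξ' - ξ‖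

/-- Existence of second order data. -/
def AlexG (N : NF E) (ξ : E) : Prop := ∃ Q, AlexData N ξ Q

/-- A typical chord with nondegeneracy data, without strict convexity. -/
structure ChordG (R : RadIso N N') (a b ξ ζ : E) : Prop extends Chord R a b ξ ζ where
  h1 : ⟪grad N a, b⟫ < 1
  h2 : ⟪grad N b, a⟫ < 1
  h3 : ⟪grad N' (R.F a), R.F b⟫ < 1
  h4 : ⟪grad N' (R.F b), R.F a⟫ < 1

/-- Rademacher for the dual norm. -/
theorem ae_diff_dual (N : NF E) :
    ∀ᵐ ξ ∂(volume : Measure E), DifferentiableAt ℝ (N.dual : E → ℝ) ξ := by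
  obtain ⟨K, hK⟩ := N.dual.lipschitz
  exact hK.ae_differentiableAt (μ := volume)

/-- At a differentiability point of the dual norm, `uhat` is the unique norming vector. -/
theorem uhat_G_spec (N : NF E) {ξ : E} (hξ : ξ ≠ 0) (hd : DifferentiableAt ℝ (N.dual : E → ℝ) ξ) :
    N (uhat N ξ) = 1 ∧ ⟪ξ, uhat N ξ⟫ = N.dual ξ := by
  obtain ⟨_, h1, h2⟩ := NF.grad_spec N.dual hξ hd
  rw [NF.dual_dual] at h1
  refine ⟨h1, ?_⟩
  rw [real_inner_comm]
  exact h2

theorem uhat_G_unique (N : NF E) {ξ x : E} (hξ : ξ ≠ 0) (hd : DifferentiableAt ℝ (N.dual : E → ℝ) ξ)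
    (hx : N x = 1) (hξx : ⟪ξ, x⟫ = N.dual ξ) : x = uhat N ξ := by
  have h1 : N.dual.dual x ≤ 1 := by rw [NF.dual_dual, hx]
  have h2 : ⟪x, ξ⟫ = N.dual ξ := by rw [real_inner_comm]; exact hξx
  exact NF.grad_unique N.dual hξ hd h1 h2

theorem uhat_neg (N : NF E) (ξ : E) : uhat N (-ξ) = - uhat N ξ := by
  have heven : (fun x => (N.dual : E → ℝ) (-x)) = (N.dual : E → ℝ) := by
    funext x
    exact N.dual.map_neg' x
  have h1 : fderiv ℝ (N.dual : E → ℝ) ξ =
      (fderiv ℝ (N.dual : E → ℝ) (-ξ)).comp ((ContinuousLinearEquiv.neg ℝ : E ≃L[ℝ] E) : E →L[ℝ] E) := by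
    have h2 := (ContinuousLinearEquiv.neg ℝ : E ≃L[ℝ] E).comp_right_fderiv
      (f := (N.dual : E → ℝ)) (x := ξ)
    have h4 : (N.dual : E → ℝ) ∘ (ContinuousLinearEquiv.neg ℝ : E ≃L[ℝ] E) = (N.dual : E → ℝ) := heven
    rw [h4] at h2
    exact h2
  have h3 : fderiv ℝ (N.dual : E → ℝ) (-ξ) = - fderiv ℝ (N.dual : E → ℝ) ξ := by
    rw [h1]
    ext v
    simp
  show gradient (N.dual : E → ℝ) (-ξ) = - gradient (N.dual : E → ℝ) ξ
  unfold gradient
  rw [h3, map_neg]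

/-- Alexandrov for the dual norm, no strict convexity. -/
theorem ae_AlexG (N : NF E) : ∀ᵐ ξ ∂(volume : Measure E), AlexG N ξ := by
  obtain ⟨K, hK⟩ := N.dual.lipschitz
  have hconv : ConvexOn ℝ univ (N.dual : E → ℝ) := by
    refine ⟨convex_univ, fun x _ y _ a b ha hb _ => ?_⟩
    calc N.dual (a • x + b • y) ≤ N.dual (a • x) + N.dual (b • y) := N.dual.add_le _ _
      _ = a • N.dual x + b • N.dual y := by
          rw [N.dual.smul_eq, N.dual.smul_eq, abs_of_nonneg ha, abs_of_nonneg hb]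
          simp [smul_eq_mul]
  filter_upwards [alexandrov hconv hK] with ξ hξ
  obtain ⟨hd, H, hs, hp, hH⟩ := hξ
  refine ⟨H, hd, hs, hp, ?_⟩
  intro ε hε
  obtain ⟨δ, hδ, h⟩ := hH ε hε
  refine ⟨δ, hδ, fun ξ' x' h1 h2 h3 => ?_⟩
  have hsub : ∀ y, N.dual ξ' + ⟪x', y - ξ'⟫ ≤ N.dual y := by
    intro y
    rw [inner_sub_right, real_inner_comm ξ' x', h3, real_inner_comm y x']
    have h4 := N.inner_le y x'
    rw [h2, mul_one] at h4
    linarith
  exact h ξ' x' h1 hsub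

theorem AlexG_smul (N : NF E) {c : ℝ} (hc : 0 < c) {ξ : E} : AlexG N (c • ξ) ↔ AlexG N ξ := by
  have aux : ∀ {c : ℝ}, 0 < c → ∀ {ξ : E}, AlexG N ξ → AlexG N (c • ξ) := by
    intro c hc ξ h
    obtain ⟨Q, hd, hs, hp, hQ⟩ := h
    have hci : 0 < c⁻¹ := inv_pos.mpr hc
    refine ⟨c⁻¹ • Q, (NF.differentiableAt_smul_iff N.dual hc ξ).mpr hd, ?_, ?_, ?_⟩
    · intro v w
      simp only [ContinuousLinearMap.smul_apply, inner_smul_left, inner_smul_right, conj_trivial]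
      rw [hs]
    · intro v
      simp only [ContinuousLinearMap.smul_apply, inner_smul_left, conj_trivial]
      exact mul_nonneg hci.le (hp v)
    · intro ε hε
      obtain ⟨δ, hδ, h⟩ := hQ (ε * c) (mul_pos hε hc)
      refine ⟨δ * c, mul_pos hδ hc, fun ξ'' x' h1 h2 h3 => ?_⟩
      have e1 : c⁻¹ • ξ'' - ξ = c⁻¹ • (ξ'' - c • ξ) := by
        rw [smul_sub, smul_smul, inv_mul_cancel₀ hc.ne', one_smul]
      have hn : ‖c⁻¹ • ξ'' - ξ‖ = c⁻¹ * ‖ξ'' - c • ξ‖ := by
        rw [e1, norm_smul, Real.norm_of_nonneg hci.le]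
      have h4 : ‖c⁻¹ • ξ'' - ξ‖ < δ := by
        rw [hn]
        calc c⁻¹ * ‖ξ'' - c • ξ‖ < c⁻¹ * (δ * c) := mul_lt_mul_of_pos_left h1 hci
          _ = δ := by field_simp
      have h5 : ⟪c⁻¹ • ξ'', x'⟫ = N.dual (c⁻¹ • ξ'') := by
        rw [inner_smul_left, N.dual.smul_eq, abs_of_pos hci, h3]
        simp
      have h6 := h (c⁻¹ • ξ'') x' h4 h2 h5
      have e2 : uhat N (c • ξ) = uhat N ξ := uhat_smul N hc ξ
      rw [e2]
      have e3 : (c⁻¹ • Q) (ξ'' - c • ξ) = Q (c⁻¹ • ξ'' - ξ) := by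
        rw [e1, map_smul]
        simp
      rw [e3]
      refine h6.trans (le_of_eq ?_)
      rw [hn]
      field_simp
  constructor
  · intro h
    have hci : 0 < c⁻¹ := inv_pos.mpr hc
    have := aux hci h
    rwa [smul_smul, inv_mul_cancel₀ hc.ne', one_smul] at this
  · exact aux hc

theorem AlexData_kill {ξ : E} (hξ : ξ ≠ 0) {Q : E →L[ℝ] E} (hQ : AlexData N ξ Q) :
    Q ξ = 0 ∧ ∀ η, ⟪ξ, Q η⟫ = 0 := by
  obtain ⟨hd, hs, _, hQ'⟩ := hQ
  obtain ⟨hu1, hu2⟩ := uhat_G_spec N hξ hd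
  have hξn : 0 ≤ ‖ξ‖ := norm_nonneg _
  have h0 : Q ξ = 0 := by
    rw [← norm_le_zero_iff]
    refine le_of_forall_pos_le_add fun ε hε => ?_
    have hε' : 0 < ε / (‖ξ‖ + 1) := div_pos hε (by linarith)
    obtain ⟨δ, hδ, h⟩ := hQ' _ hε'
    set t : ℝ := δ / (2 * (‖ξ‖ + 1)) with ht
    have htpos : 0 < t := by rw [ht]; positivity
    have e1 : (1 + t) • ξ - ξ = t • ξ := by rw [add_smul, one_smul]; abel
    have h1 : ‖(1 + t) • ξ - ξ‖ < δ := by
      rw [e1, norm_smul, Real.norm_of_nonneg htpos.le, ht]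
      have : δ / (2 * (‖ξ‖ + 1)) * ‖ξ‖ ≤ δ / 2 := by
        rw [div_mul_eq_mul_div, div_le_iff₀ (by positivity)]
        nlinarith
      linarith
    have h2 : ⟪(1 + t) • ξ, uhat N ξ⟫ = N.dual ((1 + t) • ξ) := by
      rw [inner_smul_left, N.dual.smul_eq, abs_of_pos (by linarith), hu2]
      simp
    have h3 := h _ _ h1 hu1 h2
    rw [e1, sub_self, zero_sub, norm_neg, map_smul, norm_smul, norm_smul,
      Real.norm_of_nonneg htpos.le] at h3
    have h4 : ‖Q ξ‖ ≤ ε / (‖ξ‖ + 1) * ‖ξ‖ := by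
      have h5 : t * ‖Q ξ‖ ≤ t * (ε / (‖ξ‖ + 1) * ‖ξ‖) := by
        calc t * ‖Q ξ‖ ≤ ε / (‖ξ‖ + 1) * (t * ‖ξ‖) := h3
          _ = t * (ε / (‖ξ‖ + 1) * ‖ξ‖) := by ring
      exact le_of_mul_le_mul_left h5 htpos
    have h6 : ε / (‖ξ‖ + 1) * ‖ξ‖ ≤ ε := by
      rw [div_mul_eq_mul_div, div_le_iff₀ (by linarith)]
      nlinarith
    linarith
  refine ⟨h0, fun η => ?_⟩
  rw [← hs, h0, inner_zero_left]

/-- A null cone is contained in a Borel null cone (polar coordinates, `Measure.toSphere`). -/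
theorem exists_measurable_null_cone {W : Set E} (hW : volume W = 0)
    (hcone : ∀ x ∈ W, ∀ c : ℝ, 0 < c → c • x ∈ W) :
    ∃ Z, W ⊆ Z ∧ MeasurableSet Z ∧ volume Z = 0 ∧ ∀ x ∈ Z, ∀ c : ℝ, 0 < c → c • x ∈ Z := by
  classical
  let Z₀ : Set E := toMeasurable volume W
  have hZ₀m : MeasurableSet Z₀ := measurableSet_toMeasurable _ _
  have hZ₀ : volume Z₀ = 0 := by rw [measure_toMeasurable]; exact hW
  have hWZ : W ⊆ Z₀ := subset_toMeasurable _ _
  let Z : Set E := {x | volume (Ioi (0 : ℝ) ∩ {c : ℝ | c • x ∉ Z₀}) = 0}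
  have hSm : MeasurableSet {p : E × ℝ | p.2 ∈ Ioi (0 : ℝ) ∧ p.2 • p.1 ∉ Z₀} := by
    have h1 : Measurable (fun p : E × ℝ => p.2 • p.1) := measurable_snd.smul measurable_fst
    exact (measurable_snd measurableSet_Ioi).inter (h1 hZ₀m).compl
  have hTm : MeasurableSet {p : E × ℝ | p.2 ∈ Ioo (1 : ℝ) 2 ∧ p.2 • p.1 ∈ Z₀} := by
    have h1 : Measurable (fun p : E × ℝ => p.2 • p.1) := measurable_snd.smul measurable_fst
    exact (measurable_snd measurableSet_Ioo).inter (h1 hZ₀m)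
  have hZm : MeasurableSet Z := by
    have h1 := measurable_measure_prodMk_left (ν := (volume : Measure ℝ)) hSm
    have h2 := h1 (measurableSet_singleton (0 : ℝ≥0∞))
    have e : Z = (fun x => volume (Prod.mk x ⁻¹' {p : E × ℝ | p.2 ∈ Ioi (0 : ℝ) ∧ p.2 • p.1 ∉ Z₀})) ⁻¹' {0} := by
      ext x
      have e1 : Ioi (0 : ℝ) ∩ {c : ℝ | c • x ∉ Z₀}
          = Prod.mk x ⁻¹' {p : E × ℝ | p.2 ∈ Ioi (0 : ℝ) ∧ p.2 • p.1 ∉ Z₀} := by
        ext c
        simp
      show volume (Ioi (0 : ℝ) ∩ {c : ℝ | c • x ∉ Z₀}) = 0 ↔ _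
      rw [e1]
      simp
    rw [e]
    exact h2
  refine ⟨Z, ?_, hZm, ?_, ?_⟩
  · intro x hx
    show volume (Ioi (0 : ℝ) ∩ {c : ℝ | c • x ∉ Z₀}) = 0
    have : Ioi (0 : ℝ) ∩ {c : ℝ | c • x ∉ Z₀} = ∅ := by
      ext c
      simp only [mem_inter_iff, mem_Ioi, mem_setOf_eq, mem_empty_iff_false, iff_false, not_and,
        not_not]
      intro hc
      exact hWZ (hcone x hx c hc)
    rw [this, measure_empty]
  · have h0 : ((volume : Measure E).prod (volume : Measure ℝ))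
        {p : E × ℝ | p.2 ∈ Ioo (1 : ℝ) 2 ∧ p.2 • p.1 ∈ Z₀} = 0 := by
      rw [Measure.prod_apply_symm hTm, lintegral_eq_zero_iff']
      · refine ae_of_all _ fun c => ?_
        by_cases hc : c ∈ Ioo (1 : ℝ) 2
        · have hc0 : c ≠ 0 := by linarith [hc.1]
          have e : (fun x : E => (x, c)) ⁻¹' {p : E × ℝ | p.2 ∈ Ioo (1 : ℝ) 2 ∧ p.2 • p.1 ∈ Z₀}
              = (fun x : E => c • x) ⁻¹' Z₀ := by
            ext x
            constructor
            · rintro ⟨_, h⟩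
              exact h
            · intro h
              exact ⟨hc, h⟩
          show volume _ = 0
          rw [e, Measure.addHaar_preimage_smul _ hc0, hZ₀, mul_zero]
        · have e : (fun x : E => (x, c)) ⁻¹' {p : E × ℝ | p.2 ∈ Ioo (1 : ℝ) 2 ∧ p.2 • p.1 ∈ Z₀}
              = ∅ := by
            ext x
            constructor
            · rintro ⟨h, _⟩
              exact absurd h hc
            · intro h
              exact absurd h (notMem_empty x)
          show volume _ = 0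
          rw [e, measure_empty]
      · exact (measurable_measure_prodMk_right hTm).aemeasurable
    rw [Measure.prod_apply hTm, lintegral_eq_zero_iff (measurable_measure_prodMk_left hTm)] at h0
    have h1 : ∀ᵐ x ∂(volume : Measure E), x ∉ Z := by
      filter_upwards [h0] with x hx hxZ
      have hxZ' : volume (Ioi (0 : ℝ) ∩ {c : ℝ | c • x ∉ Z₀}) = 0 := hxZ
      have hsub : Ioo (1 : ℝ) 2 ⊆ (Prod.mk x ⁻¹' {p : E × ℝ | p.2 ∈ Ioo (1 : ℝ) 2 ∧ p.2 • p.1 ∈ Z₀})
          ∪ (Ioi (0 : ℝ) ∩ {c : ℝ | c • x ∉ Z₀}) := by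
        intro c hc
        by_cases hcx : c • x ∈ Z₀
        · exact Or.inl ⟨hc, hcx⟩
        · exact Or.inr ⟨mem_Ioi.mpr (by linarith [hc.1]), hcx⟩
      have h2 := measure_mono (μ := (volume : Measure ℝ)) hsub
      have h3 : (volume : Measure ℝ) (Ioo (1 : ℝ) 2) ≤ 0 := by
        refine h2.trans ((measure_union_le _ _).trans ?_)
        have hx' : (volume : Measure ℝ) (Prod.mk x ⁻¹' {p : E × ℝ | p.2 ∈ Ioo (1 : ℝ) 2 ∧ p.2 • p.1 ∈ Z₀}) = 0 := hx
        rw [hx', hxZ']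
        simp
      rw [Real.volume_Ioo] at h3
      norm_num at h3
    exact measure_eq_zero_iff_ae_notMem.mpr h1
  · intro x hx d hd
    show volume (Ioi (0 : ℝ) ∩ {c : ℝ | c • (d • x) ∉ Z₀}) = 0
    have hx' : volume (Ioi (0 : ℝ) ∩ {c : ℝ | c • x ∉ Z₀}) = 0 := hx
    have e : Ioi (0 : ℝ) ∩ {c : ℝ | c • (d • x) ∉ Z₀}
        = (fun c : ℝ => c * d) ⁻¹' (Ioi (0 : ℝ) ∩ {c : ℝ | c • x ∉ Z₀}) := by
      ext c
      simp only [mem_inter_iff, mem_Ioi, mem_setOf_eq, mem_preimage, smul_smul]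
      constructor
      · rintro ⟨h1, h2⟩
        exact ⟨mul_pos h1 hd, h2⟩
      · rintro ⟨h1, h2⟩
        exact ⟨(pos_iff_pos_of_mul_pos h1).mpr hd, h2⟩
    rw [e, Real.volume_preimage_mul_right hd.ne', hx', mul_zero]

/-- A unit vector on a hitting line with an entering norming functional is the entry point. -/
theorem entry_of_norming (N : NF E) {a v η : E} (ha : N a = 1) (h : hits N v a)
    (hη : N.dual η ≤ 1) (hηa : ⟪η, a⟫ = 1) (hv : ⟪η, v⟫ < 0) :
    tm N v a = 0 ∧ entryPt N v a = a := by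
  have hv0 : v ≠ 0 := by
    rintro rfl
    simp at hv
  have hle : ∀ x, ⟪η, x⟫ ≤ N x := by
    intro x
    have h1 := N.inner_le η x
    have h2 := N.nonneg x
    nlinarith
  have htm0 : tm N v a = 0 := by
    apply le_antisymm
    · refine Real.sSup_le (fun t ht => ?_) le_rfl
      have ht' : N (a - t • v) < 1 := ht
      by_contra hneg
      have hpos : 0 < t := not_le.mp hneg
      have h1 := hle (a - t • v)
      rw [inner_sub_right, hηa, inner_smul_right] at h1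
      nlinarith
    · by_contra hneg
      have hlt : tm N v a < 0 := not_le.mp hneg
      have hpos := len_pos N hv0 h
      unfold len at hpos
      obtain ⟨s₀, hs₁, hs₂⟩ := exists_between (show -tm N v a < tp N v a by linarith)
      have h1 : N (a + s₀ • v) < 1 := (line_iff N hv0 h s₀).mpr ⟨hs₁, hs₂⟩
      have h2 := norm_entryPt N hv0 h
      unfold entryPt at h2
      have hs₀ : 0 < s₀ := by linarith
      set lam : ℝ := -tm N v a / s₀ with hlam
      have hlam0 : 0 < lam := div_pos (by linarith) hs₀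
      have hlam1 : lam < 1 := (div_lt_one hs₀).mpr hs₁
      have e : a - tm N v a • v = (1 - lam) • a + lam • (a + s₀ • v) := by
        have : lam * s₀ = -tm N v a := by rw [hlam]; field_simp
        rw [smul_add, smul_smul, this, sub_smul, one_smul, neg_smul]
        abel
      have h3 : N (a - tm N v a • v) ≤ (1 - lam) * N a + lam * N (a + s₀ • v) := by
        rw [e]
        refine (N.add_le _ _).trans (le_of_eq ?_)
        rw [N.smul_eq, N.smul_eq, abs_of_pos (by linarith), abs_of_pos hlam0]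
      rw [h2, ha] at h3
      nlinarith
  refine ⟨htm0, ?_⟩
  unfold entryPt
  rw [htm0, zero_smul, sub_zero]

/-- All norming functionals of an entry point are entering. -/
theorem norming_lt_of_entry (N : NF E) {v w η : E} (hv : v ≠ 0) (h : hits N v w)
    (hη : N.dual η ≤ 1) (hηa : ⟪η, entryPt N v w⟫ = 1) : ⟪η, v⟫ < 0 := by
  have hle : ∀ x, ⟪η, x⟫ ≤ N x := by
    intro x
    have h1 := N.inner_le η x
    have h2 := N.nonneg x
    nlinarith
  have hpos := len_pos N hv h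
  unfold len at hpos
  set t₀ : ℝ := (tm N v w + tp N v w) / 2 with ht₀
  have ht0 : 0 < t₀ := by rw [ht₀]; linarith
  have h1 : N (w + (-tm N v w + t₀) • v) < 1 :=
    (line_iff N hv h _).mpr ⟨by linarith, by rw [ht₀]; linarith⟩
  have e : w + (-tm N v w + t₀) • v = entryPt N v w + t₀ • v := by
    unfold entryPt
    rw [add_smul, neg_smul]
    abel
  rw [e] at h1
  have h2 := hle (entryPt N v w + t₀ • v)
  rw [inner_add_right, hηa, inner_smul_right] at h2
  by_contra hneg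
  have h3 : 0 ≤ ⟪η, v⟫ := not_lt.mp hneg
  nlinarith

/-- Differentiability of the dual norm at `ξ` with an entering gradient gives a hitting line. -/
theorem hits_of_grad_neg (N : NF E) {ξ φ : E} (hξ : N.dual ξ = 1)
    (hd : DifferentiableAt ℝ (N.dual : E → ℝ) ξ) (hφ : ⟪φ, uhat N ξ⟫ < 0) :
    hits N.dual φ ξ := by
  have h1 : ⟪grad N.dual ξ, φ⟫ < 0 := by
    rw [real_inner_comm]
    exact hφ
  exact (entry_of_grad_neg N.dual hξ hd h1).1

end Vale.Agent.Lib.P084T
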