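import Vale.Agent.Lib.P084G.G0

set_option linter.unusedSectionVars false

/-! # P084G part G1: general finite dimensional Tingley. See `notes/P084G_blueprint.md`. -/

open MeasureTheory Set Filter Topology
open scoped RealInnerProductSpace ENNReal NNReal

namespace Vale.Agent.Lib.P084T

variable {E : Type*} [NormedAddCommGroup E] [InnerProductSpace ℝ E] [FiniteDimensional ℝ E]
  [CompleteSpace E] [MeasurableSpace E] [BorelSpace E]
variable {N N' : NF E}

private theorem G1_Xi_inner (R : RadIso N N') (a ξ y : E) :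
    ⟪Xi R a ξ, y⟫ = ⟪ξ, fderiv ℝ R.G (R.F a) y⟫ := by
  simp only [Xi]
  rw [ContinuousLinearMap.adjoint_inner_left]

private theorem G1_F_ne_zero (R : RadIso N N') {a : E} (ha : a ≠ 0) : R.F a ≠ 0 := by
  intro h
  have h1 := R.norm_F a
  rw [h, N'.map_zero'] at h1
  exact (N.pos a ha).ne h1

private theorem G1_G_comp_apply (R : RadIso N N') {a : E} (ha : a ∈ Good R) (h : E) :
    fderiv ℝ R.G (R.F a) (fderiv ℝ R.F a h) = h := by
  have h1 := (R.good_inverse ha).1
  have := congrArg (fun L : E →L[ℝ] E => L h) h1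
  simpa using this

private theorem G1_F_comp_apply (R : RadIso N N') {a : E} (ha : a ∈ Good R) (y : E) :
    fderiv ℝ R.F a (fderiv ℝ R.G (R.F a) y) = y := by
  have h1 := (R.good_inverse ha).2
  have := congrArg (fun L : E →L[ℝ] E => L y) h1
  simpa using this

private theorem G1_dual_le_of_forall (N : NF E) {ξ : E} {c : ℝ} (hc : 0 ≤ c)
    (h : ∀ x, ⟪ξ, x⟫ ≤ c * N x) : N.dual ξ ≤ c := by
  show N.dualFun ξ ≤ c
  refine csSup_le ⟨_, 0, by simp [N.map_zero'], rfl⟩ ?_
  rintro _ ⟨x, hx, rfl⟩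
  calc ⟪ξ, x⟫ ≤ c * N x := h x
    _ ≤ c * 1 := mul_le_mul_of_nonneg_left hx hc
    _ = c := mul_one c

private theorem G1_exists_smul_of_ker (φ : E) (hφ : φ ≠ 0) (ψ : E)
    (h : ∀ y, ⟪φ, y⟫ = 0 → ⟪ψ, y⟫ = 0) : ∃ s : ℝ, ψ = s • φ := by
  have hφ2 : ⟪φ, φ⟫ ≠ 0 := by
    simpa using hφ
  refine ⟨⟪ψ, φ⟫ / ⟪φ, φ⟫, ?_⟩
  have key : ⟪ψ - (⟪ψ, φ⟫ / ⟪φ, φ⟫) • φ, ψ - (⟪ψ, φ⟫ / ⟪φ, φ⟫) • φ⟫ = 0 := by
    set y := ψ - (⟪ψ, φ⟫ / ⟪φ, φ⟫) • φ with hy
    have h1 : ⟪φ, y⟫ = 0 := by
      rw [hy, inner_sub_right, inner_smul_right, real_inner_comm ψ φ]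
      field_simp
      ring
    have h2 : ⟪ψ, y⟫ = 0 := h y h1
    rw [hy, inner_sub_left, inner_smul_left]
    rw [← hy]
    simp only [conj_trivial]
    rw [h1, h2]
    ring
  have := inner_self_eq_zero.mp key
  exact sub_eq_zero.mp this

private theorem G1_comb (A U : E) {c1 c2 t0 L t' : ℝ} (h1 : c1 + c2 = 1)
    (h2 : c1 * t0 + c2 * L = t') : A + t' • U = c1 • (A + t0 • U) + c2 • (A + L • U) := by
  subst h2
  have h3 : c2 = 1 - c1 := by linarith
  subst h3
  simp only [smul_add, add_smul, sub_smul, one_smul, mul_smul]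
  abel

/-- If the restriction of `η` to the tangent hyperplane has norm less than one then the image
chord is not tangent at `F a`. -/
theorem corr_pos (R : RadIso N N') {a b η : E} (ha : a ∈ Good R) (ha1 : N a = 1) (hb1 : N b = 1)
    (hab : a ≠ b) (hη : N.dual η ≤ 1) (hηw : ⟪η, a - b⟫ = N (a - b)) {c : ℝ} (hc : c < 1)
    (hcη : ∀ h, ⟪grad N a, h⟫ = 0 → ⟪η, h⟫ ≤ c * N h) : ⟪grad N' (R.F a), R.F b⟫ < 1 := by
  have hFa0 : R.F a ≠ 0 := G1_F_ne_zero R ha.1
  obtain ⟨-, hφ'1, hφ'a⟩ := N'.grad_spec hFa0 ha.2.2.2.2.1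
  have hFa1 : N' (R.F a) = 1 := by rw [R.norm_F, ha1]
  have hFb1 : N' (R.F b) = 1 := by rw [R.norm_F, hb1]
  set φ' := grad N' (R.F a) with hφ'
  have hle : ⟪φ', R.F b⟫ ≤ 1 := by
    have h1 := N'.inner_le φ' (R.F b)
    rw [hFb1, hφ'1, mul_one] at h1
    exact h1
  have hφa1 : ⟪φ', R.F a⟫ = 1 := by rw [hφ'a, hFa1]
  by_contra hcon
  have hφb : ⟪φ', R.F b⟫ = 1 := le_antisymm hle (not_lt.mp hcon)
  set w' := R.F a - R.F b with hw'
  have hφw : ⟪φ', w'⟫ = 0 := by rw [hw', inner_sub_right, hφa1, hφb, sub_self]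
  set h₀ := fderiv ℝ R.G (R.F a) w' with hh₀
  have hAh : fderiv ℝ R.F a h₀ = w' := G1_F_comp_apply R ha w'
  have hh0 : ⟪grad N a, h₀⟫ = 0 := by
    rw [← R.good_grad ha, hAh]
    exact hφw
  have hNh : N h₀ = N (a - b) := by
    rw [← R.good_iso ha hh0, hAh, hw', R.iso a b ha1 hb1]
  have hL : 0 < N (a - b) := N.pos _ (sub_ne_zero.mpr hab)
  have hk := corr_key R ha ha1 hb1 hη hηw (-h₀) (by rw [inner_neg_right, hh0, neg_zero]) 1
  rw [map_neg, hAh, ← hw', one_smul, neg_add_cancel, N'.map_zero', inner_neg_right, one_mul] at hk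
  have hc2 := hcη h₀ hh0
  rw [hNh] at hc2
  nlinarith

/-- The partner functional of a chord, no strict convexity. -/
theorem corr_partner_G (R : RadIso N N') {a b η : E} (ha : a ∈ Good R) (ha1 : N a = 1)
    (hb1 : N b = 1) (hη : N.dual η ≤ 1) (hηw : ⟪η, a - b⟫ = N (a - b)) :
    ∃ η', N'.dual η' ≤ 1 ∧ ⟪η', R.F a - R.F b⟫ = N (a - b) ∧
      ∀ h, ⟪grad N a, h⟫ = 0 → ⟪η', fderiv ℝ R.F a h⟫ = ⟪η, h⟫ := by
  classical
  have ha' := ha
  obtain ⟨ha0, hdF, hdG, hdN, hdN', -, -⟩ := ha'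
  have hFa1 : N' (R.F a) = 1 := by rw [R.norm_F, ha1]
  have hFb1 : N' (R.F b) = 1 := by rw [R.norm_F, hb1]
  have hFa0 : R.F a ≠ 0 := G1_F_ne_zero R ha0
  obtain ⟨-, hφ1, hφa⟩ := N'.grad_spec hFa0 hdN'
  set φ' := grad N' (R.F a) with hφ'
  have hφa1 : ⟪φ', R.F a⟫ = 1 := by rw [hφa, hFa1]
  set w' := R.F a - R.F b with hw'
  obtain ⟨hinv1, hinv2⟩ := R.good_inverse ha
  set A := fderiv ℝ R.F a with hA
  set B := fderiv ℝ R.G (R.F a) with hB
  have hBA : ∀ h, B (A h) = h := fun h => by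
    have := congrArg (fun f : E →L[ℝ] E => f h) hinv1
    simpa using this
  have hAB : ∀ y, A (B y) = y := fun y => by
    have := congrArg (fun f : E →L[ℝ] E => f y) hinv2
    simpa using this
  have hgrad : ∀ h, ⟪φ', A h⟫ = ⟪grad N a, h⟫ := fun h => R.good_grad ha h
  set Ξη := ContinuousLinearMap.adjoint B η with hΞ
  have hΞA : ∀ h, ⟪Ξη, A h⟫ = ⟪η, h⟫ := fun h => by
    rw [hΞ, ContinuousLinearMap.adjoint_inner_left, hBA]
  by_cases hφw : ⟪φ', w'⟫ = 0
  · -- the tangent case: Hahn-Banach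
    let S : Submodule ℝ E := LinearMap.ker (innerSL ℝ φ' : E →L[ℝ] ℝ).toLinearMap
    let f0 : S →ₗ[ℝ] ℝ := (innerSL ℝ Ξη : E →L[ℝ] ℝ).toLinearMap.comp S.subtype
    let f : E →ₗ.[ℝ] ℝ := ⟨S, f0⟩
    have hle : ∀ x : f.domain, f x ≤ (fun y => N' y) x := by
      rintro ⟨y, hy⟩
      have hy0 : ⟪φ', y⟫ = 0 := by
        have hyS : y ∈ S := hy
        simpa [S] using hyS
      show ⟪Ξη, y⟫ ≤ N' y
      set h := B y with hh
      have hFh : A h = y := hAB y
      have hφh : ⟪grad N a, h⟫ = 0 := by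
        rw [← hgrad, hFh]
        exact hy0
      rw [← hFh, hΞA, R.good_iso ha hφh]
      have h2 := N.inner_le η h
      exact h2.trans (by nlinarith [N.nonneg h])
    obtain ⟨g, hg1, hg2⟩ := exists_extension_of_le_sublinear f (fun y => N' y)
      (by
        intro r hr x
        show N' (r • x) = r * N' x
        rw [N'.smul_eq, abs_of_pos hr])
      (by
        intro x y
        exact N'.add_le x y)
      hle
    let gC : E →L[ℝ] ℝ := LinearMap.toContinuousLinearMap g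
    let ζ : E := (InnerProductSpace.toDual ℝ E).symm gC
    have hζ : ∀ y, ⟪ζ, y⟫ = g y := by
      intro y
      have := InnerProductSpace.toDual_symm_apply (𝕜 := ℝ) (E := E) (x := y) (y := gC)
      simpa [ζ, gC] using this
    have hdual : N'.dual ζ ≤ 1 := by
      apply G1_dual_le_of_forall N' zero_le_one
      intro y
      rw [hζ, one_mul]
      exact hg2 y
    have hζS : ∀ y, ⟪φ', y⟫ = 0 → ⟪ζ, y⟫ = ⟪Ξη, y⟫ := by
      intro y hy
      rw [hζ]
      have hmem : y ∈ S := by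
        simpa [S] using hy
      exact hg1 ⟨y, hmem⟩
    refine ⟨ζ, hdual, ?_, ?_⟩
    · have h1 := hζS w' hφw
      rw [h1]
      set h₀ := B w' with hh₀
      have hAh : A h₀ = w' := hAB w'
      have hh0 : ⟪grad N a, h₀⟫ = 0 := by
        rw [← hgrad, hAh]
        exact hφw
      have hNh : N h₀ = N (a - b) := by
        rw [← R.good_iso ha hh0, hAh, hw', R.iso a b ha1 hb1]
      rw [← hAh, hΞA]
      apply le_antisymm
      · have h2 := N.inner_le η h₀
        rw [hNh] at h2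
        exact h2.trans (by nlinarith [N.nonneg (a - b)])
      · have hk := corr_key R ha ha1 hb1 hη hηw (-h₀) (by rw [inner_neg_right, hh0, neg_zero]) 1
        rw [map_neg, ← hA, hAh, ← hw', one_smul, neg_add_cancel, N'.map_zero', inner_neg_right,
          one_mul] at hk
        linarith
    · intro h hh
      have h1 : ⟪φ', A h⟫ = 0 := by rw [hgrad, hh]
      rw [hζS _ h1, hΞA]
  · -- the transversal case, as in `corr_partner`
    set c : ℝ := (N (a - b) - ⟪Ξη, w'⟫) / ⟪φ', w'⟫ with hc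
    set η' := Ξη + c • φ' with hη'
    have hη'w : ⟪η', w'⟫ = N (a - b) := by
      rw [hη', inner_add_left, inner_smul_left, hc]
      simp only [conj_trivial]
      field_simp
      ring
    have hη'A : ∀ h, ⟪grad N a, h⟫ = 0 → ⟪η', A h⟫ = ⟪η, h⟫ := by
      intro h hh
      rw [hη', inner_add_left, inner_smul_left, hΞA, hgrad, hh]
      simp
    refine ⟨η', ?_, hη'w, hη'A⟩
    have hle : ∀ y, ⟪η', y⟫ ≤ N' y := by
      intro y
      set s : ℝ := ⟪φ', y⟫ / ⟪φ', w'⟫ with hs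
      set h := B (y - s • w') with hh
      have hAh : A h = y - s • w' := hAB _
      have hh0 : ⟪grad N a, h⟫ = 0 := by
        rw [← hgrad, hAh, inner_sub_right, inner_smul_right, hs]
        field_simp
        ring
      have hkey := corr_key R ha ha1 hb1 hη hηw h hh0 s
      rw [← hA, hAh, ← hw', sub_add_cancel] at hkey
      have hy : y = A h + s • w' := by rw [hAh]; abel
      have : ⟪η', y⟫ = ⟪η, h⟫ + s * N (a - b) := by
        rw [hy, inner_add_right, inner_smul_right, hη'A h hh0, hη'w]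
      rw [this]
      exact hkey
    refine csSup_le ⟨_, 0, by simp [N'.map_zero'], rfl⟩ ?_
    rintro _ ⟨x, hx, rfl⟩
    exact (hle x).trans hx

/-- Chord correspondence, no strict convexity: for any norming vector `x` of a lower unit
functional `ξ` at the good point `a`. -/
theorem chord_corr_G (R : RadIso N N') {a ξ x : E} (ha : a ∈ Good R) (ha1 : N a = 1)
    (hξ : N.dual ξ = 1) (hx : N x = 1) (hξx : ⟪ξ, x⟫ = 1) (hφ : ⟪grad N a, x⟫ < 0)
    (hh : hits N.dual (grad N a) ξ) :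
    0 < tp N x a ∧ N'.dual (Tmap R a ξ) = 1 ∧
      N' ((tp N x a)⁻¹ • (R.F (exitPt N x a) - R.F a)) = 1 ∧
      ⟪Tmap R a ξ, (tp N x a)⁻¹ • (R.F (exitPt N x a) - R.F a)⟫ = 1 ∧
      ⟪grad N' (R.F a), (tp N x a)⁻¹ • (R.F (exitPt N x a) - R.F a)⟫ < 0 ∧
      (∀ h, ⟪grad N a, h⟫ = 0 → ⟪Tmap R a ξ, fderiv ℝ R.F a h⟫ = ⟪ξ, h⟫) ∧
      R.F (exitPt N x a) = exitPt N' ((tp N x a)⁻¹ • (R.F (exitPt N x a) - R.F a)) (R.F a) ∧
      tp N' ((tp N x a)⁻¹ • (R.F (exitPt N x a) - R.F a)) (R.F a) = tp N x a := by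
  classical
  set φ := grad N a with hφdef
  set φ' := grad N' (R.F a) with hφ'def
  have hFa0 : R.F a ≠ 0 := G1_F_ne_zero R ha.1
  obtain ⟨-, hφ'1, hφ'Fa⟩ := N'.grad_spec hFa0 ha.2.2.2.2.1
  have hFa1 : N' (R.F a) = 1 := by rw [R.norm_F, ha1]
  have hx0 : x ≠ 0 := by
    intro h0
    rw [h0, N.map_zero'] at hx
    exact zero_ne_one hx
  -- the exit point
  obtain ⟨hh1, htm0, hent⟩ := entry_of_grad_neg N ha1 ha.2.2.2.1 hφ
  have hlen : 0 < tp N x a := by
    have := len_pos N hx0 hh1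
    simpa [len, htm0] using this
  set L := tp N x a with hL
  set b := exitPt N x a with hb
  have hbdef : b = a + L • x := rfl
  have hb1 : N b = 1 := norm_exitPt N hx0 hh1
  have hNba : N (b - a) = L := by
    rw [hbdef, add_sub_cancel_left, N.smul_eq, abs_of_pos hlen, hx, mul_one]
  have hNab : N (a - b) = L := by
    have : a - b = -(b - a) := by abel
    rw [this, N.map_neg', hNba]
  have hab : a ≠ b := by
    intro h0
    have : N (b - a) = 0 := by
      rw [← h0, sub_self, N.map_zero']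
    rw [hNba] at this
    exact hlen.ne' this
  -- the partner
  have hdualneg : N.dual (-ξ) ≤ 1 := by
    rw [N.dual.map_neg']
    exact hξ.le
  have hinner : ⟪-ξ, a - b⟫ = N (a - b) := by
    rw [hNab, hbdef]
    have : a - (a + L • x) = -(L • x) := by abel
    rw [this, inner_neg_neg, inner_smul_right, hξx, mul_one]
  obtain ⟨η', hη'1, hη'2, hη'3⟩ := corr_partner_G R ha ha1 hb1 hdualneg hinner
  set ζ := -η' with hζdef
  have hζ1 : N'.dual ζ ≤ 1 := by
    rw [hζdef, N'.dual.map_neg']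
    exact hη'1
  have hFb1 : N' (R.F b) = 1 := by rw [R.norm_F, hb1]
  have hNF : N' (R.F b - R.F a) = L := by
    rw [R.iso b a hb1 ha1, hNba]
  have hζ2 : ⟪ζ, R.F b - R.F a⟫ = L := by
    have : R.F b - R.F a = -(R.F a - R.F b) := by abel
    rw [hζdef, this, inner_neg_neg, hη'2, hNab]
  have hζ3 : ∀ h, ⟪φ, h⟫ = 0 → ⟪ζ, fderiv ℝ R.F a h⟫ = ⟪ξ, h⟫ := by
    intro h hh
    rw [hζdef, inner_neg_left, hη'3 h hh, inner_neg_left, neg_neg]
  have hζnorm : N'.dual ζ = 1 := by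
    apply le_antisymm hζ1
    have h1 := N'.inner_le ζ (R.F b - R.F a)
    rw [hζ2, hNF] at h1
    by_contra hlt
    push_neg at hlt
    nlinarith
  have hζ0 : ζ ≠ 0 := by
    intro h0
    rw [h0, N'.dual.map_zero'] at hζnorm
    exact zero_ne_one hζnorm
  -- the image direction
  set u' := L⁻¹ • (R.F b - R.F a) with hu'def
  have hu'1 : N' u' = 1 := by
    rw [hu'def, N'.smul_eq, abs_of_pos (inv_pos.mpr hlen), hNF, inv_mul_cancel₀ hlen.ne']
  have hζu' : ⟪ζ, u'⟫ = 1 := by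
    rw [hu'def, inner_smul_right, hζ2, inv_mul_cancel₀ hlen.ne']
  have hφ'Fa1 : ⟪φ', R.F a⟫ = 1 := by rw [hφ'Fa, hFa1]
  -- transversality at the image, by `corr_pos`
  obtain ⟨t, ht⟩ := hh
  have hφ'Fb : ⟪φ', R.F b⟫ < 1 := by
    refine corr_pos R ha ha1 hb1 hab hdualneg hinner (c := N.dual (ξ + t • φ)) ht ?_
    intro h hh0
    have h1 := N.inner_le (-(ξ + t • φ)) h
    rw [N.dual.map_neg'] at h1
    have h2 : ⟪-(ξ + t • φ), h⟫ = ⟪-ξ, h⟫ := by
      rw [inner_neg_left, inner_add_left, inner_smul_left, hh0, inner_neg_left]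
      simp
    rwa [h2] at h1
  have hφ'u' : ⟪φ', u'⟫ < 0 := by
    rw [hu'def, inner_smul_right, inner_sub_right, hφ'Fa1]
    have h0 : ⟪φ', R.F b⟫ - 1 < 0 := by linarith
    exact mul_neg_of_pos_of_neg (inv_pos.mpr hlen) h0
  -- `ζ` lies on the line of `Ξ ξ`
  have hφ'0 : φ' ≠ 0 := by
    intro h0
    have h5 : N'.dual φ' = 1 := hφ'1
    rw [h0, N'.dual.map_zero'] at h5
    exact zero_ne_one h5
  obtain ⟨s, hs⟩ := G1_exists_smul_of_ker φ' hφ'0 (ζ - Xi R a ξ) (by
    intro y hy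
    have hFh : fderiv ℝ R.F a (fderiv ℝ R.G (R.F a) y) = y := G1_F_comp_apply R ha y
    have hφh : ⟪φ, fderiv ℝ R.G (R.F a) y⟫ = 0 := by
      rw [hφdef, ← R.good_grad ha, hFh]
      exact hy
    have h1 := hζ3 _ hφh
    rw [hFh] at h1
    rw [inner_sub_left, h1, G1_Xi_inner]
    ring)
  have hζline : ζ = Xi R a ξ + s • φ' := by
    rw [← hs]
    abel
  have hhit' : hits N'.dual φ' (Xi R a ξ) := (hits_Xi R ha).2 ⟨t, ht⟩
  have hhitζ : hits N'.dual φ' ζ := by
    rw [hζline]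
    exact (hits_add N'.dual φ' _ s).2 hhit'
  have hdd : N'.dual.dual u' ≤ 1 := by
    rw [NF.dual_dual, hu'1]
  obtain ⟨-, hentζ⟩ := entry_of_norming N'.dual hζnorm hhitζ hdd
    (by rw [real_inner_comm]; exact hζu') (by rw [real_inner_comm]; exact hφ'u')
  have hT : Tmap R a ξ = ζ := by
    simp only [Tmap]
    rw [← hφ'def, ← hentζ, hζline]
    exact (entryPt_add N'.dual hφ'0 hhit' s).symm
  rw [hT]
  -- the exit time of the image chord
  obtain ⟨hh1', htm0', -⟩ := entry_of_grad_neg N' hFa1 ha.2.2.2.2.1 hφ'u'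
  have hu'0 : u' ≠ 0 := by
    intro h0
    rw [h0, N'.map_zero'] at hu'1
    exact zero_ne_one hu'1
  have hlen' : 0 < tp N' u' (R.F a) := by
    have := len_pos N' hu'0 hh1'
    simpa [len, htm0'] using this
  have hFbline : R.F a + L • u' = R.F b := by
    rw [hu'def, smul_smul, mul_inv_cancel₀ hlen.ne', one_smul]
    abel
  have htp : tp N' u' (R.F a) = L := by
    apply le_antisymm
    · by_contra hlt
      push_neg at hlt
      have := (line_iff N' hu'0 hh1' L).2 ⟨by rw [htm0']; linarith, hlt⟩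
      rw [hFbline, hFb1] at this
      exact lt_irrefl _ this
    · by_contra hlt
      push_neg at hlt
      -- the image line exits strictly before `F b`: contradiction with convexity
      set t' := tp N' u' (R.F a) with ht'
      have hx1 : N' (R.F a + t' • u') = 1 := norm_exitPt N' hu'0 hh1'
      -- a point just after the start has norm less than one
      have hsm : ∃ t₀, 0 < t₀ ∧ t₀ < t' ∧ N' (R.F a + t₀ • u') < 1 := by
        refine ⟨t' / 2, by linarith, by linarith, ?_⟩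
        exact (line_iff N' hu'0 hh1' (t' / 2)).2 ⟨by rw [htm0']; linarith, by linarith⟩
      obtain ⟨t₀, ht₀, ht₀', hlt0⟩ := hsm
      -- `t'` is a strict convex combination of `t₀` and `L`
      have hcomb : R.F a + t' • u' =
          ((L - t') / (L - t₀)) • (R.F a + t₀ • u') + ((t' - t₀) / (L - t₀)) • (R.F a + L • u') := by
        have hd : L - t₀ ≠ 0 := by
          have : 0 < L - t₀ := by linarith
          exact this.ne'
        have e1 : (L - t') / (L - t₀) + (t' - t₀) / (L - t₀) = 1 := by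
          field_simp
          ring
        have e2 : (L - t') / (L - t₀) * t₀ + (t' - t₀) / (L - t₀) * L = t' := by
          field_simp
          ring
        exact G1_comb _ _ e1 e2
      have hpos : 0 < L - t₀ := by linarith
      have hc1 : 0 < (L - t') / (L - t₀) := div_pos (by linarith) hpos
      have hc2 : 0 < (t' - t₀) / (L - t₀) := div_pos (by linarith) hpos
      have hsum : (L - t') / (L - t₀) + (t' - t₀) / (L - t₀) = 1 := by
        field_simp
        ring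
      have hle' := N'.add_le (((L - t') / (L - t₀)) • (R.F a + t₀ • u'))
        (((t' - t₀) / (L - t₀)) • (R.F a + L • u'))
      rw [← hcomb, hx1, N'.smul_eq, N'.smul_eq, abs_of_pos hc1, abs_of_pos hc2, hFbline, hFb1] at hle'
      nlinarith
  refine ⟨hlen, hζnorm, hu'1, hζu', hφ'u', hζ3, ?_, htp⟩
  show R.F b = R.F a + tp N' u' (R.F a) • u'
  rw [htp, hFbline]

end Vale.Agent.Lib.P084T
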