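import Vale.Agent.Lib.P084G.G1

set_option linter.unusedSectionVars false

/-! # P084G part G8: general finite dimensional Tingley. See `notes/P084G_blueprint.md`. -/

open MeasureTheory Set Filter Topology
open scoped RealInnerProductSpace ENNReal NNReal

namespace Vale.Agent.Lib.P084T

variable {E : Type*} [NormedAddCommGroup E] [InnerProductSpace ℝ E] [FiniteDimensional ℝ E]
  [CompleteSpace E] [MeasurableSpace E] [BorelSpace E]
variable {N N' : NF E}

private lemma g8_nf_comb (N : NF E) {α β : ℝ} (hα : 0 ≤ α) (hβ : 0 ≤ β) (x y : E) :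
    N (α • x + β • y) ≤ α * N x + β * N y := by
  refine (N.add_le _ _).trans ?_
  rw [N.smul_eq, N.smul_eq, abs_of_nonneg hα, abs_of_nonneg hβ]

/-- The facts on the chord through a point of the ball. -/
private structure G8ChordAt (N : NF E) (v z : E) : Prop where
  hit : hits N v z
  pm : 0 < tm N v z
  pp : 0 < tp N v z
  na : N (entryPt N v z) = 1
  nb : N (exitPt N v z) = 1
  lenp : 0 < len N v z
  sub : exitPt N v z - entryPt N v z = len N v z • v

private lemma g8_chordAt (N : NF E) {v z : E} (hv : v ≠ 0) (hz : z ∈ N.ball) : G8ChordAt N v z := by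
  have hit : hits N v z := hits_of_mem_ball N hz
  refine ⟨hit, tm_pos N hv hz, tp_pos N hv hz, norm_entryPt N hv hit, norm_exitPt N hv hit,
    len_pos N hv hit, ?_⟩
  unfold exitPt entryPt len
  rw [add_smul]
  abel


/-- The chord affine map is injective on the ball. -/
theorem psi_injOn_G (R : RadIso N N') {ξ : E} (hξ : N.dual ξ = 1)
    (hd : DifferentiableAt ℝ (N.dual : E → ℝ) ξ) : InjOn (Psi R (uhat N ξ)) N.ball := by
  have hξ0 : ξ ≠ 0 := by
    intro h0
    rw [h0, NF.map_zero'] at hξ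
    exact zero_ne_one hξ
  obtain ⟨hvn, hvξ⟩ := uhat_G_spec N hξ0 hd
  rw [hξ] at hvξ
  set v := uhat N ξ with hvdef
  have hv : v ≠ 0 := by
    intro h0
    rw [h0, NF.map_zero'] at hvn
    exact zero_ne_one hvn
  intro z₁ h₁ z₂ h₂ hΨ
  obtain ⟨hit₁, pm₁, pp₁, na₁, nb₁, lp₁, sub₁⟩ := g8_chordAt N hv h₁
  obtain ⟨hit₂, pm₂, pp₂, na₂, nb₂, lp₂, sub₂⟩ := g8_chordAt N hv h₂
  set a₁ := entryPt N v z₁ with ha₁
  set b₁ := exitPt N v z₁ with hb₁
  set a₂ := entryPt N v z₂ with ha₂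
  set b₂ := exitPt N v z₂ with hb₂
  set L₁ := len N v z₁ with hL₁
  set L₂ := len N v z₂ with hL₂
  set τ₁ := tm N v z₁ / L₁ with hτ₁
  set τ₂ := tm N v z₂ / L₂ with hτ₂
  have hτ₁0 : 0 < τ₁ := div_pos pm₁ lp₁
  have hτ₂0 : 0 < τ₂ := div_pos pm₂ lp₂
  have hτ₁1 : τ₁ < 1 := by
    rw [hτ₁, div_lt_one lp₁, hL₁]
    unfold len
    linarith
  have hτ₂1 : τ₂ < 1 := by
    rw [hτ₂, div_lt_one lp₂, hL₂]
    unfold len
    linarith
  have hNL₁ : N (b₁ - a₁) = L₁ := by
    rw [sub₁, N.smul_eq, hvn, mul_one, abs_of_pos lp₁]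
  have hNL₂ : N (b₂ - a₂) = L₂ := by
    rw [sub₂, N.smul_eq, hvn, mul_one, abs_of_pos lp₂]
  have hF₁ : N' (R.F b₁ - R.F a₁) = L₁ := by
    rw [R.iso _ _ nb₁ na₁, hNL₁]
  have hF₂ : N' (R.F b₂ - R.F a₂) = L₂ := by
    rw [R.iso _ _ nb₂ na₂, hNL₂]
  have hΨ' : R.F a₁ + τ₁ • (R.F b₁ - R.F a₁) = R.F a₂ + τ₂ • (R.F b₂ - R.F a₂) := hΨ
  -- the two triangle inequalities
  have t₁ : N' (R.F a₁ - R.F b₂) ≤ τ₁ * L₁ + (1 - τ₂) * L₂ := by
    have e : R.F a₁ - R.F b₂ = (-τ₁) • (R.F b₁ - R.F a₁) + (-(1 - τ₂)) • (R.F b₂ - R.F a₂) := by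
      linear_combination (norm := module) hΨ'
    rw [e]
    refine (N'.add_le _ _).trans ?_
    rw [N'.smul_eq, N'.smul_eq, hF₁, hF₂, abs_neg, abs_neg, abs_of_pos hτ₁0,
      abs_of_pos (by linarith : 0 < 1 - τ₂)]
  have t₂ : N' (R.F a₂ - R.F b₁) ≤ τ₂ * L₂ + (1 - τ₁) * L₁ := by
    have e : R.F a₂ - R.F b₁ = (-τ₂) • (R.F b₂ - R.F a₂) + (-(1 - τ₁)) • (R.F b₁ - R.F a₁) := by
      linear_combination (norm := module) -hΨ'
    rw [e]
    refine (N'.add_le _ _).trans ?_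
    rw [N'.smul_eq, N'.smul_eq, hF₁, hF₂, abs_neg, abs_neg, abs_of_pos hτ₂0,
      abs_of_pos (by linarith : 0 < 1 - τ₁)]
  rw [R.iso _ _ na₁ nb₂] at t₁
  rw [R.iso _ _ na₂ nb₁] at t₂
  have hsym₁ : N (a₁ - b₂) = N (b₂ - a₁) := by rw [← N.map_neg', neg_sub]
  have hsym₂ : N (a₂ - b₁) = N (b₁ - a₂) := by rw [← N.map_neg', neg_sub]
  rw [hsym₁] at t₁
  rw [hsym₂] at t₂
  -- duality
  have hin : ∀ x, ⟪ξ, x⟫ ≤ N x := fun x => by
    have := N.inner_le_dualFun_mul ξ x
    have h3 : N.dualFun ξ = 1 := hξ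
    rwa [h3, one_mul] at this
  have hin₁ : ⟪ξ, b₁ - a₁⟫ = L₁ := by
    rw [sub₁, inner_smul_right, hvξ, mul_one]
  have hin₂ : ⟪ξ, b₂ - a₂⟫ = L₂ := by
    rw [sub₂, inner_smul_right, hvξ, mul_one]
  have hsum : ⟪ξ, b₂ - a₁⟫ + ⟪ξ, b₁ - a₂⟫ = L₁ + L₂ := by
    rw [← hin₁, ← hin₂]
    simp only [inner_sub_right]
    ring
  have heq : N (b₂ - a₁) = ⟪ξ, b₂ - a₁⟫ := by
    have h1 := hin (b₂ - a₁)
    have h2 := hin (b₁ - a₂)
    nlinarith
  -- the lines coincide
  obtain ⟨c, hc⟩ : ∃ c : ℝ, b₂ - a₁ = c • v := by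
    by_cases hb : b₂ - a₁ = 0
    · exact ⟨0, by rw [hb, zero_smul]⟩
    · have hp := N.pos _ hb
      have hu : N ((N (b₂ - a₁))⁻¹ • (b₂ - a₁)) = 1 := by
        rw [N.smul_eq, abs_of_pos (inv_pos.mpr hp), inv_mul_cancel₀ hp.ne']
      have hn : ⟪ξ, (N (b₂ - a₁))⁻¹ • (b₂ - a₁)⟫ = N.dual ξ := by
        rw [inner_smul_right, hξ, ← heq, inv_mul_cancel₀ hp.ne']
      have := uhat_G_unique N hξ0 hd hu hn
      refine ⟨N (b₂ - a₁), ?_⟩
      rw [← hvdef] at this
      rw [← this, smul_smul, mul_inv_cancel₀ hp.ne', one_smul]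
  -- `z₁` lies on the line of `z₂`
  have hline : z₁ = z₂ + (tp N v z₂ - c + tm N v z₁) • v := by
    have e1 : a₁ = z₁ - tm N v z₁ • v := rfl
    have e2 : b₂ = z₂ + tp N v z₂ • v := rfl
    have e3 : z₁ = a₁ + tm N v z₁ • v := by rw [e1]; abel
    have e4 : a₁ = b₂ - c • v := by rw [← hc]; abel
    calc z₁ = a₁ + tm N v z₁ • v := e3
      _ = (b₂ - c • v) + tm N v z₁ • v := by rw [← e4]
      _ = (z₂ + tp N v z₂ • v - c • v) + tm N v z₁ • v := by rw [← e2]
      _ = z₂ + (tp N v z₂ - c + tm N v z₁) • v := by module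
  set s := tp N v z₂ - c + tm N v z₁ with hs
  have ea : a₁ = a₂ := by
    rw [ha₁, ha₂, hline]
    exact entryPt_add N hv hit₂ s
  have eb : b₁ = b₂ := by
    rw [hb₁, hb₂, hline]
    exact exitPt_add N hv hit₂ s
  have eL : L₁ = L₂ := by
    rw [hL₁, hL₂, hline]
    exact len_add N hv hit₂ s
  rw [ea, eb] at hΨ'
  have hdiff : (τ₁ - τ₂) • (R.F b₂ - R.F a₂) = 0 := by
    rw [sub_smul]
    have := add_left_cancel hΨ'
    rw [this, sub_self]
  have hne : R.F b₂ - R.F a₂ ≠ 0 := by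
    intro h0
    rw [h0, NF.map_zero'] at hF₂
    exact lp₂.ne hF₂
  have hτ : τ₁ = τ₂ := by
    rcases smul_eq_zero.mp hdiff with h | h
    · linarith
    · exact absurd h hne
  have htm : tm N v z₁ = tm N v z₂ := by
    rw [hτ₁, hτ₂, eL] at hτ
    exact (div_left_inj' lp₂.ne').mp hτ
  have e1 : z₁ = a₁ + tm N v z₁ • v := by
    rw [ha₁]
    unfold entryPt
    abel
  have e2 : z₂ = a₂ + tm N v z₂ • v := by
    rw [ha₂]
    unfold entryPt
    abel
  rw [e1, e2, ea, htm]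


theorem psi_closed (R : RadIso N N') {ξ z : E} (hξ : N.dual ξ = 1)
    (hd : DifferentiableAt ℝ (N.dual : E → ℝ) ξ) (hz : z ∈ N.ball) :
    N' (Psi R (uhat N ξ) z) ≤ 1 := by
  have hξ0 : ξ ≠ 0 := by
    intro h0
    rw [h0, NF.map_zero'] at hξ
    exact zero_ne_one hξ
  obtain ⟨hvn, -⟩ := uhat_G_spec N hξ0 hd
  set v := uhat N ξ with hvdef
  have hv : v ≠ 0 := by
    intro h0
    rw [h0, NF.map_zero'] at hvn
    exact zero_ne_one hvn
  obtain ⟨hit, pm, pp, na, nb, lp, hsub⟩ := g8_chordAt N hv hz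
  have hτ0 : 0 < tm N v z / len N v z := div_pos pm lp
  have hτ1 : tm N v z / len N v z < 1 := by
    rw [div_lt_one lp]
    unfold len
    linarith
  have hna' : N' (R.F (entryPt N v z)) = 1 := by rw [R.norm_F, na]
  have hnb' : N' (R.F (exitPt N v z)) = 1 := by rw [R.norm_F, nb]
  have e : Psi R v z = (1 - tm N v z / len N v z) • R.F (entryPt N v z) +
      (tm N v z / len N v z) • R.F (exitPt N v z) := by
    unfold Psi
    rw [smul_sub, sub_smul, one_smul]
    abel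
  rw [e]
  have h1 := g8_nf_comb N' (by linarith : 0 ≤ 1 - tm N v z / len N v z) hτ0.le
    (R.F (entryPt N v z)) (R.F (exitPt N v z))
  rw [hna', hnb'] at h1
  linarith

private lemma g8_det_comp (A B : E →L[ℝ] E) : (A.comp B).det = A.det * B.det := by
  simp only [ContinuousLinearMap.det, ContinuousLinearMap.coe_comp]
  exact LinearMap.det_comp _ _

private lemma g8_Mop_apply (A : E →L[ℝ] E) (φ u u' ξ ζ h : E) :
    Mop A φ u u' ξ ζ h =
      A (h - ((⟪φ, u⟫)⁻¹ * ⟪φ, h⟫) • u)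
        - ⟪ζ, A (h - ((⟪φ, u⟫)⁻¹ * ⟪φ, h⟫) • u)⟫ • u' + ⟪ξ, h⟫ • u' := by
  simp [Mop, inner_sub_right, inner_smul_right]


/-- The derivative of the chord affine map, for a typical point. -/
theorem psi_deriv_G (R : RadIso N N') {ξ ζ z : E} (hξ : N.dual ξ = 1)
    (hd : DifferentiableAt ℝ (N.dual : E → ℝ) ξ) (hz : z ∈ N.ball)
    (c : ChordG R (entryPt N (uhat N ξ) z) (exitPt N (uhat N ξ) z) ξ ζ) :
    ∃ D : E →L[ℝ] E, HasFDerivAt (Psi R (uhat N ξ)) D z ∧
      |D.det| = |((1 - tm N (uhat N ξ) z / len N (uhat N ξ) z) •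
            M0 R (entryPt N (uhat N ξ) z) (exitPt N (uhat N ξ) z) ξ ζ +
          (tm N (uhat N ξ) z / len N (uhat N ξ) z) •
            M1 R (entryPt N (uhat N ξ) z) (exitPt N (uhat N ξ) z) ξ ζ).det| := by
  classical
  have hξ0 : ξ ≠ 0 := by
    intro h0
    rw [h0, N.dual.map_zero'] at hξ
    exact zero_ne_one hξ
  obtain ⟨hv1, hξv⟩ := uhat_G_spec N hξ0 hd
  set v := uhat N ξ with hvdef
  have hv0 : v ≠ 0 := by
    intro h0
    rw [h0, N.map_zero'] at hv1
    exact zero_ne_one hv1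
  have hh : hits N v z := hits_of_mem_ball N hz
  set a := entryPt N v z with hadef
  set b := exitPt N v z with hbdef
  have hda : DifferentiableAt ℝ (N : E → ℝ) a := c.ga.2.2.2.1
  have hdb : DifferentiableAt ℝ (N : E → ℝ) b := c.gb.2.2.2.1
  obtain ⟨sa, Htm⟩ := hasFDerivAt_tm N hv0 hh hda
  obtain ⟨sb, Htp⟩ := hasFDerivAt_tp N hv0 hh hdb
  rw [← hadef] at sa Htm
  rw [← hbdef] at sb Htp
  set Tm' : E →L[ℝ] ℝ := (⟪grad N a, v⟫)⁻¹ • innerSL ℝ (grad N a) with hTm'
  set Tp' : E →L[ℝ] ℝ := -(⟪grad N b, v⟫)⁻¹ • innerSL ℝ (grad N b) with hTp'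
  have hTmv : Tm' v = 1 := by
    simp only [hTm', ContinuousLinearMap.smul_apply, innerSL_apply_apply, smul_eq_mul]
    exact inv_mul_cancel₀ sa.ne
  have hTpv : Tp' v = -1 := by
    simp only [hTp', ContinuousLinearMap.smul_apply, innerSL_apply_apply, smul_eq_mul]
    rw [neg_mul, inv_mul_cancel₀ sb.ne']
  set L := len N v z with hLdef
  have hL : 0 < L := len_pos N hv0 hh
  set t := tm N v z with htdef
  set τ := t / L with hτdef
  set PA : E →L[ℝ] E := ContinuousLinearMap.id ℝ E - Tm'.smulRight v with hPA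
  set PB : E →L[ℝ] E := ContinuousLinearMap.id ℝ E + Tp'.smulRight v with hPB
  have Hentry : HasFDerivAt (entryPt N v) PA z :=
    (hasFDerivAt_id z).sub (Htm.smul_const v)
  have Hexit : HasFDerivAt (exitPt N v) PB z :=
    (hasFDerivAt_id z).add (Htp.smul_const v)
  set Aa := fderiv ℝ R.F a with hAa
  set Ab := fderiv ℝ R.F b with hAb
  have HFa : HasFDerivAt R.F Aa (entryPt N v z) := c.ga.2.1.hasFDerivAt
  have HFb : HasFDerivAt R.F Ab (exitPt N v z) := c.gb.2.1.hasFDerivAt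
  have HFe : HasFDerivAt (fun w => R.F (entryPt N v w)) (Aa.comp PA) z := HFa.comp z Hentry
  have HFx : HasFDerivAt (fun w => R.F (exitPt N v w)) (Ab.comp PB) z := HFb.comp z Hexit
  have Hlen : HasFDerivAt (fun w => len N v w) (Tm' + Tp') z := Htm.add Htp
  have Hinv : HasFDerivAt (fun w => (len N v w)⁻¹) ((-(L ^ 2)⁻¹) • (Tm' + Tp')) z :=
    (hasDerivAt_inv hL.ne').comp_hasFDerivAt z Hlen
  set Dτ : E →L[ℝ] ℝ := t • ((-(L ^ 2)⁻¹) • (Tm' + Tp')) + L⁻¹ • Tm' with hDτ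
  have Hτ : HasFDerivAt (fun w => tm N v w / len N v w) Dτ z := by
    have h1 : HasFDerivAt (fun w => tm N v w * (len N v w)⁻¹) Dτ z := Htm.mul Hinv
    have h2 : (fun w => tm N v w / len N v w) = fun w => tm N v w * (len N v w)⁻¹ := by
      funext w
      exact div_eq_mul_inv _ _
    rw [h2]
    exact h1
  have hDτv : Dτ v = L⁻¹ := by
    simp only [hDτ, ContinuousLinearMap.add_apply, ContinuousLinearMap.smul_apply, smul_eq_mul,
      hTmv, hTpv]
    ring
  set D : E →L[ℝ] E := Aa.comp PA + (τ • (Ab.comp PB - Aa.comp PA)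
    + Dτ.smulRight (R.F b - R.F a)) with hD
  have HPsi : HasFDerivAt (Psi R v) D z := by
    have h3 := Hτ.smul (HFx.sub HFe)
    exact HFe.add h3
  refine ⟨D, HPsi, ?_⟩
  -- algebra
  have hdiff : b - a = L • v := by
    simp only [hbdef, hadef, exitPt, entryPt, hLdef, len, add_smul, htdef]
    abel
  have hNL : N (b - a) = L := by
    rw [hdiff, N.smul_eq, abs_of_pos hL, hv1, mul_one]
  have hcu : cu N a b = v := by
    simp only [cu]
    rw [hNL, hdiff, smul_smul, inv_mul_cancel₀ hL.ne', one_smul]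
  set u' := cu' R a b with hu'def
  have hu'2 : R.F b - R.F a = L • u' := by
    rw [hu'def]
    simp only [cu']
    rw [hNL, smul_smul, mul_inv_cancel₀ hL.ne', one_smul]
  have hPAv : PA v = 0 := by
    simp [hPA, hTmv]
  have hPBv : PB v = 0 := by
    simp [hPB, hTpv]
  -- the rank one update
  set ωC : E →L[ℝ] ℝ := L • Dτ + (1 - τ) • (innerSL ℝ ζ).comp (Aa.comp PA)
    + τ • (innerSL ℝ ζ).comp (Ab.comp PB) - innerSL ℝ ξ with hωC
  set ω₀ : E := (InnerProductSpace.toDual ℝ E).symm ωC with hω₀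
  have hω : ∀ h, ⟪ω₀, h⟫ = ωC h := by
    intro h
    have := InnerProductSpace.toDual_symm_apply (𝕜 := ℝ) (E := E) (x := h) (y := ωC)
    simpa [hω₀] using this
  have hωv : ⟪ω₀, v⟫ = 0 := by
    rw [hω]
    simp only [hωC, ContinuousLinearMap.sub_apply, ContinuousLinearMap.add_apply,
      ContinuousLinearMap.smul_apply, ContinuousLinearMap.comp_apply, innerSL_apply_apply,
      smul_eq_mul, hDτv, hPAv, hPBv, map_zero, inner_zero_right, hξv, hξ]
    rw [mul_inv_cancel₀ hL.ne']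
    ring
  -- the operators
  have hM0 : ∀ h, M0 R a b ξ ζ h =
      Aa (PA h) - ⟪ζ, Aa (PA h)⟫ • u' + ⟪ξ, h⟫ • u' := by
    intro h
    simp only [M0, hcu]
    rw [g8_Mop_apply]
    have : PA h = h - ((⟪grad N a, v⟫)⁻¹ * ⟪grad N a, h⟫) • v := by
      simp [hPA, hTm']
    rw [this]
  have hM1 : ∀ h, M1 R a b ξ ζ h =
      Ab (PB h) - ⟪ζ, Ab (PB h)⟫ • u' + ⟪ξ, h⟫ • u' := by
    intro h
    simp only [M1, hcu]
    rw [g8_Mop_apply]
    have : PB h = h - ((⟪grad N b, v⟫)⁻¹ * ⟪grad N b, h⟫) • v := by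
      simp [hPB, hTp', sub_eq_add_neg]
    rw [this]
  set Mτ : E →L[ℝ] E := (1 - τ) • M0 R a b ξ ζ + τ • M1 R a b ξ ζ with hMτ
  have hMτv : Mτ v = u' := by
    simp only [hMτ, ContinuousLinearMap.add_apply, ContinuousLinearMap.smul_apply, hM0, hM1, hPAv,
      hPBv, map_zero, inner_zero_right, zero_smul, sub_zero, zero_add, hξv, hξ, one_smul]
    rw [← add_smul]
    simp
  have hDeq : D = Mτ.comp (ContinuousLinearMap.id ℝ E + (innerSL ℝ ω₀).smulRight v) := by
    ext h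
    have h5 : Mτ ((ContinuousLinearMap.id ℝ E + (innerSL ℝ ω₀).smulRight v) h)
        = Mτ h + ⟪ω₀, h⟫ • u' := by
      simp only [ContinuousLinearMap.add_apply, ContinuousLinearMap.id_apply,
        ContinuousLinearMap.smulRight_apply, innerSL_apply_apply, map_add, map_smul, hMτv]
    rw [ContinuousLinearMap.comp_apply, h5, hω]
    simp only [hD, hMτ, hωC, ContinuousLinearMap.add_apply, ContinuousLinearMap.sub_apply,
      ContinuousLinearMap.smul_apply, ContinuousLinearMap.comp_apply,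
      ContinuousLinearMap.smulRight_apply, innerSL_apply_apply, smul_eq_mul, hM0, hM1, hu'2]
    module
  rw [hDeq, g8_det_comp, det_id_add_rankOne, hωv]
  simp


/-- A typical point gives a `ChordG`. -/
theorem chord_of_typical_G (R : RadIso N N') {ξ z : E} (hξ : N.dual ξ = 1)
    (hd : DifferentiableAt ℝ (N.dual : E → ℝ) ξ) (hz : z ∈ N.ball)
    (ha : entryPt N (uhat N ξ) z ∈ Good R) (hb : exitPt N (uhat N ξ) z ∈ Good R) :
    ChordG R (entryPt N (uhat N ξ) z) (exitPt N (uhat N ξ) z) ξ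
      (Tmap R (entryPt N (uhat N ξ) z) ξ) := by
  have hξ0 : ξ ≠ 0 := by
    intro h0
    rw [h0, N.dual.map_zero'] at hξ
    exact zero_ne_one hξ
  obtain ⟨hv1, hξv⟩ := uhat_G_spec N hξ0 hd
  rw [hξ] at hξv
  have hneg : uhat N (-ξ) = - uhat N ξ := uhat_neg N ξ
  set v := uhat N ξ with hvdef
  have hv0 : v ≠ 0 := by
    intro h0
    rw [h0, N.map_zero'] at hv1
    exact zero_ne_one hv1
  have hh : hits N v z := hits_of_mem_ball N hz
  obtain ⟨htm0, htpa, hexit, hhita⟩ := tm_entryPt N hv0 hh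
  set a := entryPt N v z with hadef
  set b := exitPt N v z with hbdef
  have hφ : ⟪grad N a, v⟫ < 0 := (hasFDerivAt_tm N hv0 hh ha.2.2.2.1).1
  have hφb : 0 < ⟪grad N b, v⟫ := (hasFDerivAt_tp N hv0 hh hb.2.2.2.1).1
  have hN1 : N a = 1 := norm_entryPt N hv0 hh
  have hNb : N b = 1 := norm_exitPt N hv0 hh
  have hL : 0 < len N v z := len_pos N hv0 hh
  have hdiff : b - a = len N v z • v := by
    simp only [hbdef, hadef, exitPt, entryPt, len, add_smul]
    abel
  have hb_eq : b = a + len N v z • v := by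
    rw [← hdiff]
    abel
  have hNL : N (b - a) = len N v z := by
    rw [hdiff, N.smul_eq, abs_of_pos hL, hv1, mul_one]
  have hab : a ≠ b := by
    intro h0
    rw [← h0, sub_self, N.map_zero'] at hNL
    exact hL.ne hNL
  have hhit : hits N.dual (grad N a) ξ := hits_of_grad_neg N hξ hd hφ
  obtain ⟨c1, c2, -, c4, c5, c6, -, -⟩ := chord_corr_G R ha hN1 hξ hv1 hξv hφ hhit
  rw [htpa] at c1
  rw [htpa, hexit] at c4 c5
  set ζ := Tmap R a ξ with hζdef
  set u' := (len N v z)⁻¹ • (R.F b - R.F a) with hu'def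
  have hFdiff : R.F b - R.F a = len N v z • u' := by
    rw [hu'def, smul_smul, mul_inv_cancel₀ hL.ne', one_smul]
  have hgA : ⟪grad N a, a⟫ = 1 := by
    have h0 : a ≠ 0 := ha.1
    have := (N.grad_spec h0 ha.2.2.2.1).2.2
    rwa [hN1] at this
  have hgB : ⟪grad N b, b⟫ = 1 := by
    have h0 : b ≠ 0 := hb.1
    have := (N.grad_spec h0 hb.2.2.2.1).2.2
    rwa [hNb] at this
  have hNFa : N' (R.F a) = 1 := by rw [R.norm_F, hN1]
  have hNFb : N' (R.F b) = 1 := by rw [R.norm_F, hNb]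
  have hFa0 : R.F a ≠ 0 := by
    intro h0
    rw [h0, N'.map_zero'] at hNFa
    exact zero_ne_one hNFa
  have hFb0 : R.F b ≠ 0 := by
    intro h0
    rw [h0, N'.map_zero'] at hNFb
    exact zero_ne_one hNFb
  have hgFA : ⟪grad N' (R.F a), R.F a⟫ = 1 := by
    have := (N'.grad_spec hFa0 ha.2.2.2.2.1).2.2
    rwa [hNFa] at this
  have hgFB : ⟪grad N' (R.F b), R.F b⟫ = 1 := by
    have := (N'.grad_spec hFb0 hb.2.2.2.2.1).2.2
    rwa [hNFb] at this
  -- the sign at the end point of the image chord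
  have h4 : ⟪grad N' (R.F b), R.F a⟫ < 1 := by
    have hdn : DifferentiableAt ℝ (N.dual : E → ℝ) (-ξ) := by
      have e : (N.dual : E → ℝ) = fun x => N.dual (-x) := by
        funext x
        rw [N.dual.map_neg']
      rw [e]
      have h2 : DifferentiableAt ℝ (N.dual : E → ℝ) (- -ξ) := by rwa [neg_neg]
      exact h2.comp (-ξ) (by fun_prop : DifferentiableAt ℝ (fun x : E => -x) (-ξ))
    have hξn : N.dual (-ξ) = 1 := by rw [N.dual.map_neg', hξ]
    have hφn : ⟪grad N b, -v⟫ < 0 := by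
      rw [inner_neg_right]
      linarith
    have hhitb : hits N.dual (grad N b) (-ξ) := by
      refine hits_of_grad_neg N hξn hdn ?_
      rw [hneg]
      exact hφn
    have hvn : N (-v) = 1 := by rw [N.map_neg', hv1]
    have hξvn : ⟪-ξ, -v⟫ = 1 := by rw [inner_neg_neg, hξv]
    obtain ⟨d1, -, -, -, d5, -⟩ := chord_corr_G R hb hNb hξn hvn hξvn hφn hhitb
    have htpn : tp N (-v) b = len N v z := by
      have e1 : tp N (-v) b = tm N v b := by
        unfold tp tm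
        congr 1
        ext t
        simp only [mem_ofPred_eq, smul_neg, sub_eq_add_neg]
      rw [e1, hbdef]
      unfold exitPt
      rw [tm_add N hv0 hh]
      rfl
    have hexn : exitPt N (-v) b = a := by
      unfold exitPt
      rw [htpn, smul_neg, ← sub_eq_add_neg, hb_eq]
      abel
    rw [htpn, hexn, inner_smul_right, inner_sub_right, hgFB] at d5
    have h5 : ⟪grad N' (R.F b), R.F a⟫ - 1 < 0 := by
      by_contra hcon
      push Not at hcon
      have := mul_nonneg (inv_pos.mpr hL).le hcon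
      linarith
    linarith
  refine
    { ha := hN1
      hb := hNb
      hab := hab
      ga := ha
      gb := hb
      hξ := hξ
      hξu := ?_
      hζ := c2
      hζu := ?_
      partner := c6
      h1 := ?_
      h2 := ?_
      h3 := ?_
      h4 := h4 }
  · rw [hNL, hdiff, inner_smul_right, hξv, mul_one]
  · rw [hNL, hFdiff, inner_smul_right, c4, mul_one]
  · rw [hb_eq, inner_add_right, hgA, inner_smul_right]
    have := mul_pos_of_neg_of_neg (neg_lt_zero.mpr hL) hφ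
    nlinarith
  · have e : a = b - len N v z • v := by
      rw [← hdiff]
      abel
    rw [e, inner_sub_right, hgB, inner_smul_right]
    have := mul_pos hL hφb
    linarith
  · have e : R.F b = R.F a + len N v z • u' := by
      rw [← hFdiff]
      abel
    rw [e, inner_add_right, hgFA, inner_smul_right]
    have := mul_pos_of_neg_of_neg (neg_lt_zero.mpr hL) c5
    nlinarith


end Vale.Agent.Lib.P084T
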