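import Vale.Agent.Lib.P084G.G7
import Vale.Agent.Lib.P084G.G8
import Vale.Agent.Lib.P084T.B3
import Vale.Agent.Lib.P084T.D2
import Vale.Agent.Lib.P084T.J1

set_option linter.unusedSectionVars false

/-! # P084G part G9: general finite dimensional Tingley. See `notes/P084G_blueprint.md`. -/

open MeasureTheory Set Filter Topology
open scoped RealInnerProductSpace ENNReal NNReal

namespace Vale.Agent.Lib.P084T

variable {E : Type*} [NormedAddCommGroup E] [InnerProductSpace ℝ E] [FiniteDimensional ℝ E]
  [CompleteSpace E] [MeasurableSpace E] [BorelSpace E]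
variable {N N' : NF E}

/-- The interpolated integrand at `z`. -/
private noncomputable def leafX (R : RadIso N N') (v z : E) : ℝ≥0∞ :=
  ENNReal.ofReal ((ell R (entryPt N v z) (exitPt N v z)) ^ (1 - tm N v z / len N v z) *
    (ell R (exitPt N v z) (entryPt N v z)) ^ (tm N v z / len N v z))

/-- The mean on the chord through `z`. -/
private noncomputable def leafG (R : RadIso N N') (v z : E) : ℝ≥0∞ :=
  Gam (ell R (entryPt N v z) (exitPt N v z)) (ell R (exitPt N v z) (entryPt N v z))

private theorem measurableSet_ball (N : NF E) : MeasurableSet N.ball :=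
  (isOpen_lt N.continuous continuous_const).measurableSet

private theorem measurable_leafX (R : RadIso N N') (v : E) : Measurable (leafX R v) := by
  have ma : Measurable (fun z => entryPt N v z) :=
    (measurable_entryPt N).comp (measurable_prodMk_left (x := v))
  have mb : Measurable (fun z => exitPt N v z) :=
    (measurable_exitPt N).comp (measurable_prodMk_left (x := v))
  have mt : Measurable (fun z => tm N v z) :=
    (measurable_tm N).comp (measurable_prodMk_left (x := v))
  have ml : Measurable (fun z => len N v z) :=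
    (measurable_len N).comp (measurable_prodMk_left (x := v))
  have m1 : Measurable (fun z => ell R (entryPt N v z) (exitPt N v z)) :=
    R.measurable_ell.comp (ma.prodMk mb)
  have m2 : Measurable (fun z => ell R (exitPt N v z) (entryPt N v z)) :=
    R.measurable_ell.comp (mb.prodMk ma)
  unfold leafX
  refine ENNReal.measurable_ofReal.comp ?_
  exact (m1.pow (measurable_const.sub (mt.div ml))).mul (m2.pow (mt.div ml))

private theorem measurable_leafG (R : RadIso N N') (v : E) : Measurable (leafG R v) := by
  have ma : Measurable (fun z => entryPt N v z) :=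
    (measurable_entryPt N).comp (measurable_prodMk_left (x := v))
  have mb : Measurable (fun z => exitPt N v z) :=
    (measurable_exitPt N).comp (measurable_prodMk_left (x := v))
  have m1 : Measurable (fun z => ell R (entryPt N v z) (exitPt N v z)) :=
    R.measurable_ell.comp (ma.prodMk mb)
  have m2 : Measurable (fun z => ell R (exitPt N v z) (entryPt N v z)) :=
    R.measurable_ell.comp (mb.prodMk ma)
  exact measurable_Gam.comp (m1.prodMk m2)

private theorem line_indicator (N : NF E) (v w : E) (f : E → ℝ≥0∞) :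
    ∫⁻ t : ℝ, (N.ball.indicator f) (w + t • v) =
      ∫⁻ t in {t : ℝ | w + t • v ∈ N.ball}, f (w + t • v) := by
  have hS : MeasurableSet {t : ℝ | w + t • v ∈ N.ball} :=
    (isOpen_lt (N.continuous.comp (by fun_prop)) continuous_const).measurableSet
  rw [← lintegral_indicator hS]
  refine lintegral_congr fun t => ?_
  by_cases h : w + t • v ∈ N.ball
  · rw [indicator_of_mem h, indicator_of_mem (show t ∈ {t : ℝ | w + t • v ∈ N.ball} from h)]
  · rw [indicator_of_notMem h, indicator_of_notMem (show t ∉ {t : ℝ | w + t • v ∈ N.ball} from h)]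

private theorem leaf_line (R : RadIso N N') {v : E} (hv : v ≠ 0) (w : E) :
    ∫⁻ t : ℝ, (N.ball.indicator (leafG R v)) (w + t • v) =
      ∫⁻ t : ℝ, (N.ball.indicator (leafX R v)) (w + t • v) := by
  rw [line_indicator, line_indicator]
  by_cases h : hits N v w
  · have e1 : ∀ t : ℝ, leafG R v (w + t • v) = leafG R v w := by
      intro t
      unfold leafG
      rw [entryPt_add N hv h, exitPt_add N hv h]
    have e2 : ∀ t : ℝ, leafX R v (w + t • v) =
        (fun s : ℝ => ENNReal.ofReal ((ell R (entryPt N v w) (exitPt N v w)) ^ (1 - s) *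
          (ell R (exitPt N v w) (entryPt N v w)) ^ s)) (tm N v (w + t • v) / len N v w) := by
      intro t
      unfold leafX
      rw [entryPt_add N hv h, exitPt_add N hv h, len_add N hv h]
    have hg : Measurable (fun s : ℝ => ENNReal.ofReal ((ell R (entryPt N v w) (exitPt N v w)) ^ (1 - s) *
          (ell R (exitPt N v w) (entryPt N v w)) ^ s)) := by
      refine ENNReal.measurable_ofReal.comp ?_
      exact (measurable_const.pow (measurable_const.sub measurable_id)).mul
        (measurable_const.pow measurable_id)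
    have hr := lintegral_line_ratio N hv h hg
    calc ∫⁻ t in {t : ℝ | w + t • v ∈ N.ball}, leafG R v (w + t • v)
        = ∫⁻ t in {t : ℝ | w + t • v ∈ N.ball}, leafG R v w :=
          lintegral_congr fun t => by rw [e1]
      _ = ENNReal.ofReal (len N v w) * leafG R v w := by
          rw [setLIntegral_const, volume_line_ball N hv h, mul_comm]
      _ = ∫⁻ t in {t : ℝ | w + t • v ∈ N.ball}, (fun s : ℝ => ENNReal.ofReal
            ((ell R (entryPt N v w) (exitPt N v w)) ^ (1 - s) *
              (ell R (exitPt N v w) (entryPt N v w)) ^ s)) (tm N v (w + t • v) / len N v w) :=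
          hr.symm
      _ = ∫⁻ t in {t : ℝ | w + t • v ∈ N.ball}, leafX R v (w + t • v) :=
          lintegral_congr fun t => (e2 t).symm
  · have hempty : {t : ℝ | w + t • v ∈ N.ball} = ∅ := by
      ext t
      simp only [mem_ofPred_eq, mem_empty_iff_false, iff_false]
      exact fun ht => h ⟨t, ht⟩
    rw [hempty]
    simp

/-- The closed and open unit balls have the same volume. -/
private theorem volume_closedBall_eq (N : NF E) : volume {x | N x ≤ 1} = volume N.ball := by
  have hconv : Convex ℝ N.ball := by
    intro x hx y hy a b ha hb hab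
    show N (a • x + b • y) < 1
    have h1 : N (a • x + b • y) ≤ a * N x + b * N y := by
      refine (N.add_le _ _).trans ?_
      rw [N.smul_eq, N.smul_eq, abs_of_nonneg ha, abs_of_nonneg hb]
    have hx' : N x < 1 := hx
    have hy' : N y < 1 := hy
    rcases eq_or_lt_of_le ha with rfl | ha'
    · have hb1 : b = 1 := by linarith
      subst hb1
      linarith
    · have : a * N x + b * N y < a * 1 + b * 1 :=
        add_lt_add_of_lt_of_le (mul_lt_mul_of_pos_left hx' ha') (mul_le_mul_of_nonneg_left hy'.le hb)
      linarith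
  have hopen : IsOpen N.ball := isOpen_lt N.continuous continuous_const
  have hfr := hconv.addHaar_frontier (volume : Measure E)
  apply le_antisymm
  · have hsub : {x | N x ≤ 1} ⊆ N.ball ∪ frontier N.ball := by
      intro x hx
      by_cases hlt : N x < 1
      · exact Or.inl hlt
      · right
        have hx1 : N x = 1 := le_antisymm hx (not_lt.mp hlt)
        rw [hopen.frontier_eq]
        refine ⟨?_, hlt⟩
        have ht : Tendsto (fun t : ℝ => t • x) (𝓝[<] (1 : ℝ)) (𝓝 x) := by
          have h0 : Tendsto (fun t : ℝ => t • x) (𝓝 (1 : ℝ)) (𝓝 ((1 : ℝ) • x)) :=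
            (continuous_id.smul continuous_const).tendsto 1
          rw [one_smul] at h0
          exact h0.mono_left nhdsWithin_le_nhds
        refine mem_closure_of_tendsto ht ?_
        filter_upwards [Ioo_mem_nhdsLT (show (0 : ℝ) < 1 from one_pos)] with t ht
        show N (t • x) < 1
        rw [N.smul_eq, hx1, abs_of_pos ht.1, mul_one]
        exact ht.2
    calc volume {x | N x ≤ 1} ≤ volume (N.ball ∪ frontier N.ball) := measure_mono hsub
      _ ≤ volume N.ball + volume (frontier N.ball) := measure_union_le _ _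
      _ = volume N.ball := by rw [hfr, add_zero]
  · exact measure_mono fun x (hx : N x < 1) => hx.le

/-- The leaf inequality, no strict convexity. -/
theorem leaf_ineq_G (R : RadIso N N') {ξ : E} (hξ : N.dual ξ = 1) (hA : AlexG N ξ)
    (hty : ∀ᵐ z ∂(volume : Measure E), z ∈ N.ball →
      entryPt N (uhat N ξ) z ∈ Good R ∧ exitPt N (uhat N ξ) z ∈ Good R ∧
        AlexG N' (Tmap R (entryPt N (uhat N ξ) z) ξ)) :
    ∫⁻ z in N.ball, Gam (ell R (entryPt N (uhat N ξ) z) (exitPt N (uhat N ξ) z))
        (ell R (exitPt N (uhat N ξ) z) (entryPt N (uhat N ξ) z)) ≤ volume N'.ball := by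
  classical
  have hξ0 : ξ ≠ 0 := by
    rintro rfl
    have h0 := N.dual.map_zero'
    rw [hξ] at h0
    exact one_ne_zero h0
  have hd : DifferentiableAt ℝ (N.dual : E → ℝ) ξ := by
    obtain ⟨Q, hQ⟩ := hA
    exact hQ.1
  obtain ⟨hv1, -⟩ := uhat_G_spec N hξ0 hd
  have hv : uhat N ξ ≠ 0 := by
    intro h
    rw [h, N.map_zero'] at hv1
    exact zero_ne_one hv1
  -- first: replace the mean by the interpolated integrand
  have step1 : ∫⁻ z in N.ball, leafG R (uhat N ξ) z = ∫⁻ z in N.ball, leafX R (uhat N ξ) z := by
    rw [← lintegral_indicator (measurableSet_ball N), ← lintegral_indicator (measurableSet_ball N)]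
    exact line_fubini_eq hv ((measurable_leafG R _).indicator (measurableSet_ball N))
      ((measurable_leafX R _).indicator (measurableSet_ball N))
      (Eventually.of_forall fun w => leaf_line R hv w)
  -- the typical part of the ball
  set Bad : Set E := {z | ¬ (z ∈ N.ball →
      entryPt N (uhat N ξ) z ∈ Good R ∧ exitPt N (uhat N ξ) z ∈ Good R ∧
        AlexG N' (Tmap R (entryPt N (uhat N ξ) z) ξ))} with hBad
  have hBad0 : volume Bad = 0 := hty
  set s : Set E := N.ball \ toMeasurable volume Bad with hs
  have hsm : MeasurableSet s := (measurableSet_ball N).diff (measurableSet_toMeasurable _ _)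
  have hsb : s ⊆ N.ball := sdiff_subset
  have hnull : volume (N.ball \ s) = 0 := by
    refine measure_mono_null (t := toMeasurable volume Bad) ?_ ?_
    · rintro z ⟨hz, hzs⟩
      by_contra hc
      exact hzs ⟨hz, hc⟩
    · rw [measure_toMeasurable, hBad0]
  have hprop : ∀ z ∈ s, entryPt N (uhat N ξ) z ∈ Good R ∧ exitPt N (uhat N ξ) z ∈ Good R ∧
      AlexG N' (Tmap R (entryPt N (uhat N ξ) z) ξ) := by
    rintro z ⟨hz, hzb⟩
    have hzB : z ∉ Bad := fun h => hzb (subset_toMeasurable _ _ h)
    have := not_not.mp hzB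
    exact this hz
  have hchord : ∀ z ∈ s, ∃ D : E →L[ℝ] E, HasFDerivAt (Psi R (uhat N ξ)) D z ∧
      leafX R (uhat N ξ) z ≤ ENNReal.ofReal |D.det| := by
    intro z hz
    obtain ⟨ha, hb, hA'⟩ := hprop z hz
    have hzB := hsb hz
    have c := chord_of_typical_G R hξ hd hzB ha hb
    obtain ⟨D, hD, hdet⟩ := psi_deriv_G R hξ hd hzB c
    refine ⟨D, hD, ?_⟩
    have htm := tm_pos N hv hzB
    have htp := tp_pos N hv hzB
    have hlen : 0 < len N (uhat N ξ) z := by unfold len; linarith
    have hτ : tm N (uhat N ξ) z / len N (uhat N ξ) z ∈ Icc (0 : ℝ) 1 := by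
      constructor
      · positivity
      · rw [div_le_one hlen]; unfold len; linarith
    have hp := pointwise_G R c hA hA' hτ
    unfold leafX
    refine ENNReal.ofReal_le_ofReal ?_
    rw [hdet]
    exact hp
  have hf' : ∀ z ∈ s, HasFDerivWithinAt (Psi R (uhat N ξ)) (fderiv ℝ (Psi R (uhat N ξ)) z) s z := by
    intro z hz
    obtain ⟨D, hD, -⟩ := hchord z hz
    exact hD.differentiableAt.hasFDerivAt.hasFDerivWithinAt
  have hinj : InjOn (Psi R (uhat N ξ)) s := (psi_injOn_G R hξ hd).mono hsb
  have hcov := lintegral_abs_det_fderiv_eq_addHaar_image (volume : Measure E) hsm hf' hinj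
  have himg : Psi R (uhat N ξ) '' s ⊆ {x | N' x ≤ 1} := by
    rintro _ ⟨z, hz, rfl⟩
    exact psi_closed R hξ hd (hsb hz)
  have step2 : ∫⁻ z in N.ball, leafX R (uhat N ξ) z ≤ ∫⁻ z in s, leafX R (uhat N ξ) z := by
    have hsplit : N.ball = s ∪ (N.ball \ s) := (union_sdiff_cancel hsb).symm
    calc ∫⁻ z in N.ball, leafX R (uhat N ξ) z
        = ∫⁻ z in s ∪ (N.ball \ s), leafX R (uhat N ξ) z := by rw [← hsplit]
      _ ≤ (∫⁻ z in s, leafX R (uhat N ξ) z) + ∫⁻ z in N.ball \ s, leafX R (uhat N ξ) z :=
          lintegral_union_le _ _ _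
      _ = ∫⁻ z in s, leafX R (uhat N ξ) z := by
          rw [setLIntegral_measure_zero _ _ hnull, add_zero]
  have step3 : ∫⁻ z in s, leafX R (uhat N ξ) z ≤
      ∫⁻ z in s, ENNReal.ofReal |(fderiv ℝ (Psi R (uhat N ξ)) z).det| := by
    refine setLIntegral_mono' hsm fun z hz => ?_
    obtain ⟨D, hD, hle⟩ := hchord z hz
    rw [hD.fderiv]
    exact hle
  calc ∫⁻ z in N.ball, Gam (ell R (entryPt N (uhat N ξ) z) (exitPt N (uhat N ξ) z))
        (ell R (exitPt N (uhat N ξ) z) (entryPt N (uhat N ξ) z))
      = ∫⁻ z in N.ball, leafG R (uhat N ξ) z := rfl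
    _ = ∫⁻ z in N.ball, leafX R (uhat N ξ) z := step1
    _ ≤ ∫⁻ z in s, leafX R (uhat N ξ) z := step2
    _ ≤ ∫⁻ z in s, ENNReal.ofReal |(fderiv ℝ (Psi R (uhat N ξ)) z).det| := step3
    _ = volume (Psi R (uhat N ξ) '' s) := hcov
    _ ≤ volume {x | N' x ≤ 1} := measure_mono himg
    _ = volume N'.ball := volume_closedBall_eq N'

end Vale.Agent.Lib.P084T
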