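import Vale.Agent.Lib.P084G.G3
import Vale.Agent.Lib.P084G.G9
import Vale.Agent.Lib.P084T.J2

set_option linter.unusedSectionVars false

/-! # P084G part G10: general finite dimensional Tingley. See `notes/P084G_blueprint.md`. -/

open MeasureTheory Set Filter Topology
open scoped RealInnerProductSpace ENNReal NNReal

namespace Vale.Agent.Lib.P084T

variable {E : Type*} [NormedAddCommGroup E] [InnerProductSpace ℝ E] [FiniteDimensional ℝ E]
  [CompleteSpace E] [MeasurableSpace E] [BorelSpace E]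
variable {N N' : NF E}

/-- The leaf inequality integrated over the dual ball, no strict convexity. -/
lemma j2g_int_le [Nontrivial E] (R : RadIso N N') :
    ∫⁻ ξ in N.dual.ball, ∫⁻ z in N.ball, j2H R (j2ends N (ξ, z)) ≤
      volume N'.ball * volume N.dual.ball := by
  have hae : ∀ᵐ ξ ∂((volume : Measure E).restrict N.dual.ball),
      ∫⁻ z in N.ball, j2H R (j2ends N (ξ, z)) ≤ volume N'.ball := by
    rw [ae_restrict_iff' (j2_ball_meas _)]
    filter_upwards [typical_G R] with ξ hξ hξB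
    obtain ⟨h0, _, hA, hz⟩ := hξ hξB
    have hu := uhat_rad N h0
    have h1 := leaf_ineq_G R (ξ := rad N.dual ξ) (N.dual.norm_rad h0) hA (by rw [hu]; exact hz)
    rw [hu] at h1
    exact h1
  calc _ ≤ ∫⁻ _ξ in N.dual.ball, volume N'.ball := lintegral_mono_ae hae
    _ = _ := by rw [setLIntegral_const]

/-- Both ends of a typical chord have positive `ell`, no strict convexity. -/
lemma j2g_pos [Nontrivial E] (R : RadIso N N') :
    ∀ᵐ ξ ∂(volume : Measure E), ξ ∈ N.dual.ball →
      ∀ᵐ z ∂(volume : Measure E), z ∈ N.ball →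
        (j2ends N (ξ, z)).1 ∈ Good R ∧ (j2ends N (ξ, z)).2 ∈ Good R ∧
          0 < ell R (j2ends N (ξ, z)).1 (j2ends N (ξ, z)).2 ∧
          0 < ell R (j2ends N (ξ, z)).2 (j2ends N (ξ, z)).1 := by
  filter_upwards [typical_G R] with ξ hξ hξB
  obtain ⟨h0, _, hA, hz⟩ := hξ hξB
  filter_upwards [hz] with z hz2 hzB
  obtain ⟨ga, gb, _⟩ := hz2 hzB
  simp only [j2ends]
  rw [← uhat_rad N h0] at ga gb ⊢
  obtain ⟨Q, hQ⟩ := hA
  have c := chord_of_typical_G R (N.dual.norm_rad h0) hQ.1 hzB ga gb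
  exact ⟨ga, gb, (det_M0_G R c).2, (det_M1_G R c).2⟩

/-- The reversed inequality, pulled back by the chord invariance, no strict convexity. -/
lemma j2g_int_le' [Nontrivial E] (R : RadIso N N') :
    ∫⁻ ξ in N.dual.ball, ∫⁻ z in N.ball, j2H' R (j2ends N (ξ, z)) ≤
      volume N.ball * volume N'.dual.ball := by
  have h2' := j2g_int_le R.swap
  have h2c := cmi_chord_G R (j2_meas_H R.swap)
  have hpos := j2g_pos R
  have h3 : ∫⁻ ξ in N.dual.ball, ∫⁻ z in N.ball, j2H' R (j2ends N (ξ, z)) =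
      ∫⁻ ξ in N.dual.ball, ∫⁻ z in N.ball,
        j2H R.swap (R.F (entryPt N (uhat N ξ) z), R.F (exitPt N (uhat N ξ) z)) := by
    refine lintegral_congr_ae ?_
    rw [Filter.EventuallyEq, ae_restrict_iff' (j2_ball_meas _)]
    filter_upwards [hpos] with ξ hξ hξB
    refine lintegral_congr_ae ?_
    rw [Filter.EventuallyEq, ae_restrict_iff' (j2_ball_meas _)]
    filter_upwards [hξ hξB] with z hz hzB
    obtain ⟨ga, gb, _, _⟩ := hz hzB
    simp only [j2ends] at ga gb
    simp only [j2H', j2H, j2ends]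
    rw [ell_swap R ga, ell_swap R gb]
  rw [h3, ← h2c]
  exact h2'

/-- Equality of the products of volumes, no strict convexity. -/
lemma j2g_vol_eq [Nontrivial E] (R : RadIso N N') :
    volume N'.ball * volume N'.dual.ball = volume N.ball * volume N.dual.ball := by
  have := cmi_chord_G R (H := fun _ => 1) measurable_const
  simp only [lintegral_const, Measure.restrict_apply, MeasurableSet.univ, Set.univ_inter,
    one_mul] at this
  exact this

lemma j2g_total [Nontrivial E] (R : RadIso N N') {c : ℝ≥0∞} (hc0 : c ≠ 0) (hct : c ≠ ⊤)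
    (hcV : c * volume N.ball = volume N'.ball) :
    ∫⁻ ξ in N.dual.ball, ∫⁻ z in N.ball, j2T R c (ξ, z) ≤
      2 * volume N.ball * volume N.dual.ball := by
  have mA : Measurable (fun q : E × E => j2H R (j2ends N q)) := (j2_meas_H R).comp (j2_meas_ends N)
  have mA' : Measurable (fun q : E × E => j2H' R (j2ends N q)) :=
    (j2_meas_H' R).comp (j2_meas_ends N)
  have e1 : ∀ ξ, ∫⁻ z in N.ball, j2T R c (ξ, z) =
      (∫⁻ z in N.ball, j2H R (j2ends N (ξ, z))) * c⁻¹ +
        c * ∫⁻ z in N.ball, j2H' R (j2ends N (ξ, z)) := by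
    intro ξ
    have m1 : Measurable (fun z => j2H R (j2ends N (ξ, z))) := mA.comp measurable_prodMk_left
    have m2 : Measurable (fun z => j2H' R (j2ends N (ξ, z))) := mA'.comp measurable_prodMk_left
    simp only [j2T]
    rw [lintegral_add_left (m1.mul_const _), lintegral_mul_const _ m1, lintegral_const_mul _ m2]
  have m1 : Measurable (fun ξ => ∫⁻ z in N.ball, j2H R (j2ends N (ξ, z))) :=
    mA.lintegral_prod_right'
  have m2 : Measurable (fun ξ => ∫⁻ z in N.ball, j2H' R (j2ends N (ξ, z))) :=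
    mA'.lintegral_prod_right'
  simp_rw [e1]
  rw [lintegral_add_left (m1.mul_const _), lintegral_mul_const _ m1, lintegral_const_mul _ m2]
  have h1 := j2g_int_le R
  have h2 := j2g_int_le' R
  have h3 := j2g_vol_eq R
  generalize volume N.ball = V at *
  generalize volume N'.ball = V' at *
  generalize volume N.dual.ball = Vd at *
  generalize volume N'.dual.ball = Vd' at *
  calc _ ≤ (V' * Vd) * c⁻¹ + c * (V * Vd') := by gcongr
    _ = V * Vd + V * Vd := by
      congr 1
      · rw [← hcV]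
        calc c * V * Vd * c⁻¹ = (c * c⁻¹) * (V * Vd) := by ring
          _ = V * Vd := by rw [ENNReal.mul_inv_cancel hc0 hct, one_mul]
      · calc c * (V * Vd') = (c * V) * Vd' := by ring
          _ = V' * Vd' := by rw [hcV]
          _ = V * Vd := h3
    _ = 2 * V * Vd := by ring

/-- The conclusion on typical chords, no strict convexity. -/
theorem ae_ell_eq_G [Nontrivial E] (R : RadIso N N') :
    ∃ r : ℝ, 0 < r ∧ ∀ᵐ ξ ∂(volume : Measure E), ξ ∈ N.dual.ball →
      ∀ᵐ z ∂(volume : Measure E), z ∈ N.ball →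
        ell R (entryPt N (uhat N ξ) z) (exitPt N (uhat N ξ) z) = r ∧
        ell R (exitPt N (uhat N ξ) z) (entryPt N (uhat N ξ) z) = r := by
  have hV0 := j2_vol_pos N
  have hVt := j2_vol_top N
  have hV'0 := j2_vol_pos N'
  have hV't := j2_vol_top N'
  set c : ℝ≥0∞ := volume N'.ball / volume N.ball with hc
  have hc0 : c ≠ 0 := ENNReal.div_ne_zero.mpr ⟨hV'0, hVt⟩
  have hct : c ≠ ⊤ := ENNReal.div_ne_top hV't hV0
  have hcV : c * volume N.ball = volume N'.ball := ENNReal.div_mul_cancel hV0 hVt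
  have hofr : ENNReal.ofReal c.toReal = c := ENNReal.ofReal_toReal hct
  have hrpos : 0 < c.toReal := ENNReal.toReal_pos hc0 hct
  refine ⟨c.toReal, hrpos, ?_⟩
  have hpos := j2g_pos R
  have hlow : ∀ᵐ ξ ∂(volume : Measure E), ξ ∈ N.dual.ball → ∀ᵐ z ∂(volume : Measure E), z ∈ N.ball →
      2 ≤ j2T R c (ξ, z) ∧ (j2T R c (ξ, z) = 2 →
        ell R (j2ends N (ξ, z)).1 (j2ends N (ξ, z)).2 = c.toReal ∧
        ell R (j2ends N (ξ, z)).2 (j2ends N (ξ, z)).1 = c.toReal) := by
    filter_upwards [hpos] with ξ hξ hξB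
    filter_upwards [hξ hξB] with z hz hzB
    obtain ⟨_, _, px, py⟩ := hz hzB
    have h4 := Gam_pointwise px py hrpos
    rw [hofr] at h4
    simpa [j2T, j2H, j2H', div_eq_mul_inv] using h4
  have hlow' : ∀ᵐ ξ ∂(volume : Measure E), ξ ∈ N.dual.ball →
      ∀ᵐ z ∂(volume : Measure E), z ∈ N.ball → 2 ≤ j2T R c (ξ, z) := by
    filter_upwards [hlow] with ξ hξ hξB
    filter_upwards [hξ hξB] with z hz hzB
    exact (hz hzB).1
  have hcl := j2_closing (j2_ball_meas N.dual) (j2_ball_meas N) (j2_vol_top N.dual) hVt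
    (j2_meas_T R c) hlow' (j2g_total R hc0 hct hcV)
  filter_upwards [hlow, hcl] with ξ hξ hξ2 hξB
  filter_upwards [hξ hξB, hξ2 hξB] with z hz hz2 hzB
  exact (hz hzB).2 (hz2 hzB)

end Vale.Agent.Lib.P084T
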