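import Vale.Agent.Lib.P084G.G0

set_option linter.unusedSectionVars false

/-! # P084G part G2: general finite dimensional Tingley. See `notes/P084G_blueprint.md`. -/

open MeasureTheory Set Filter Topology
open scoped RealInnerProductSpace ENNReal NNReal

namespace Vale.Agent.Lib.P084T

variable {E : Type*} [NormedAddCommGroup E] [InnerProductSpace ℝ E] [FiniteDimensional ℝ E]
  [CompleteSpace E] [MeasurableSpace E] [BorelSpace E]
variable {N N' : NF E}

/-- The master formula, no strict convexity. -/
theorem master_formula_G [Nontrivial E] (N : NF E) {G : E × E → ℝ≥0∞} (hG : Measurable G) :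
    ∫⁻ ξ in N.dual.ball, ∫⁻ z in N.ball, G (entryPt N (uhat N ξ) z, rad N.dual ξ) =
      (Module.finrank ℝ E : ℝ≥0∞) * ∫⁻ z in N.ball, ∫⁻ ξ in Tube N.dual (grad N z),
        G (rad N z, entryPt N.dual (grad N z) ξ) *
          ENNReal.ofReal (len N (uhat N (entryPt N.dual (grad N z) ξ)) (rad N z)) := by
  have mB : MeasurableSet N.ball := (isOpen_lt N.continuous continuous_const).measurableSet
  have mB' : MeasurableSet N.dual.ball :=
    (isOpen_lt N.dual.continuous continuous_const).measurableSet
  have mrad : Measurable (rad N) := N.measurable_rad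
  have mrad' : Measurable (rad N.dual) := N.dual.measurable_rad
  have mgrad : Measurable (grad N) := N.measurable_grad
  have muhat : Measurable (uhat N) := N.dual.measurable_grad
  have mlen : Measurable (fun p : E × E => len N p.1 p.2) := measurable_len N
  -- the common integrand
  let J : E → E → ℝ≥0∞ := fun ξ z =>
    G (rad N z, rad N.dual ξ) * ENNReal.ofReal (len N (uhat N ξ) (rad N z)) *
      ENNReal.ofReal (-⟪grad N z, uhat N ξ⟫)
  have mJ : Measurable (Function.uncurry J) := by
    have m1 : Measurable (fun p : E × E => rad N p.2) := mrad.comp measurable_snd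
    have m2 : Measurable (fun p : E × E => rad N.dual p.1) := mrad'.comp measurable_fst
    have m3 : Measurable (fun p : E × E => uhat N p.1) := muhat.comp measurable_fst
    have m4 : Measurable (fun p : E × E => grad N p.2) := mgrad.comp measurable_snd
    have m5 : Measurable (fun p : E × E => len N (uhat N p.1) (rad N p.2)) :=
      mlen.comp (m3.prodMk m1)
    have m6 : Measurable (fun p : E × E => ⟪grad N p.2, uhat N p.1⟫) := m4.inner m3
    exact ((hG.comp (m1.prodMk m2)).mul (ENNReal.measurable_ofReal.comp m5)).mul
      (ENNReal.measurable_ofReal.comp m6.neg)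
  -- the point `ξ = 0` is negligible
  have h0 : ∀ᵐ ξ ∂(volume : Measure E), ξ ≠ 0 := by
    have : (volume : Measure E) {0} = 0 := measure_singleton _
    exact compl_mem_ae_iff.mpr this
  have hdiff : ∀ᵐ z ∂(volume : Measure E), DifferentiableAt ℝ (N : E → ℝ) z := by
    obtain ⟨K, hK⟩ := N.lipschitz
    exact hK.ae_differentiableAt
  -- left hand side
  have hL : ∫⁻ ξ in N.dual.ball, ∫⁻ z in N.ball, G (entryPt N (uhat N ξ) z, rad N.dual ξ) =
      ∫⁻ ξ in N.dual.ball, (Module.finrank ℝ E : ℝ≥0∞) * ∫⁻ z in N.ball, J ξ z := by
    refine lintegral_congr_ae (ae_restrict_of_ae ?_)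
    filter_upwards [h0, ae_diff_dual N] with ξ hξ hdξ
    have hu : uhat N ξ ≠ 0 := by
      intro hzero
      have := (uhat_G_spec N hξ hdξ).1
      rw [hzero, N.map_zero'] at this
      exact zero_ne_one this
    have mG : Measurable (fun a => G (a, rad N.dual ξ)) :=
      hG.comp (measurable_id.prodMk measurable_const)
    exact chord_formula N hu mG
  -- right hand side, inner integral
  have hR : ∀ᵐ z ∂(volume.restrict N.ball : Measure E),
      (∫⁻ ξ in Tube N.dual (grad N z),
        G (rad N z, entryPt N.dual (grad N z) ξ) *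
          ENNReal.ofReal (len N (uhat N (entryPt N.dual (grad N z) ξ)) (rad N z))) =
      ∫⁻ ξ in N.dual.ball, J ξ z := by
    refine ae_restrict_of_ae ?_
    filter_upwards [h0, hdiff] with z hz hd
    have hφ : grad N z ≠ 0 := by
      intro hzero
      have := (N.grad_spec hz hd).2.1
      rw [hzero, N.dual.map_zero'] at this
      exact zero_ne_one this
    have mg : Measurable (fun ξ => G (rad N z, ξ) *
        ENNReal.ofReal (len N (uhat N ξ) (rad N z))) := by
      refine (hG.comp (measurable_const.prodMk measurable_id)).mul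
        (ENNReal.measurable_ofReal.comp (mlen.comp (muhat.prodMk measurable_const)))
    have hc := cos_lemma N.dual hφ mg
    rw [← hc]
    refine lintegral_congr_ae (ae_restrict_of_ae ?_)
    filter_upwards [h0] with ξ hξ
    show G (rad N z, rad N.dual ξ) *
        ENNReal.ofReal (len N (uhat N (rad N.dual ξ)) (rad N z)) *
        ENNReal.ofReal (-⟪grad N.dual ξ, grad N z⟫) = J ξ z
    simp only [J]
    rw [uhat_rad N hξ, real_inner_comm]
    rfl
  rw [hL, lintegral_const_mul' _ _ (ENNReal.natCast_ne_top _), lintegral_congr_ae hR]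
  congr 1
  exact lintegral_lintegral_swap mJ.aemeasurable

end Vale.Agent.Lib.P084T
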