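import Vale.Agent.Lib.P084G.G1
import Vale.Agent.Lib.P084G.G2

set_option linter.unusedSectionVars false

/-! # P084G part G3: general finite dimensional Tingley. See `notes/P084G_blueprint.md`. -/

open MeasureTheory Set Filter Topology
open scoped RealInnerProductSpace ENNReal NNReal

namespace Vale.Agent.Lib.P084T

variable {E : Type*} [NormedAddCommGroup E] [InnerProductSpace ℝ E] [FiniteDimensional ℝ E]
  [CompleteSpace E] [MeasurableSpace E] [BorelSpace E]
variable {N N' : NF E}

lemma g3_measurable_uhat (N : NF E) : Measurable (uhat N) := N.dual.measurable_grad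

lemma g3_measurableSet_ball (N : NF E) : MeasurableSet N.ball :=
  (isOpen_lt N.continuous continuous_const).measurableSet

lemma g3_measurableSet_tube (N : NF E) (v : E) : MeasurableSet (Tube N v) :=
  (measurableSet_tube N).preimage (measurable_const.prodMk measurable_id)

/-- The indicator with value one. -/
noncomputable def g3Ind (Z : Set E) : E → ℝ≥0∞ := Z.indicator (fun _ => (1 : ℝ≥0∞))

lemma g3Ind_measurable {Z : Set E} (mZ : MeasurableSet Z) : Measurable (g3Ind Z) :=
  measurable_const.indicator mZ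

lemma g3Ind_of_notMem {Z : Set E} {x : E} (h : x ∉ Z) : g3Ind Z x = 0 :=
  indicator_of_notMem h _

lemma g3Ind_of_mem {Z : Set E} {x : E} (h : x ∈ Z) : g3Ind Z x = 1 :=
  indicator_of_mem h _

/-- From the vanishing of an integral of an indicator along a measurable map. -/
lemma g3_ae_of_zero {s Z : Set E} {f : E → E} (hf : Measurable f) (ms : MeasurableSet s)
    (mZ : MeasurableSet Z) (h : ∫⁻ w in s, g3Ind Z (f w) = 0) :
    ∀ᵐ w ∂(volume : Measure E), w ∈ s → f w ∉ Z := by
  have h1 : ∀ᵐ w ∂(volume.restrict s : Measure E), g3Ind Z (f w) = 0 :=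
    (lintegral_eq_zero_iff ((g3Ind_measurable mZ).comp hf)).mp h
  filter_upwards [(ae_restrict_iff' ms).mp h1] with w hw hws hfw
  have h2 := hw hws
  rw [g3Ind_of_mem hfw] at h2
  exact one_ne_zero h2

/-- On a tube the entry point avoids a Borel null cone in the mean. -/
lemma g3_tube_entry_zero (M : NF E) {v : E} (hv : v ≠ 0) {Z : Set E} (mZ : MeasurableSet Z)
    (hZ0 : volume Z = 0) (hZc : ∀ x ∈ Z, ∀ c : ℝ, 0 < c → c • x ∈ Z) :
    ∫⁻ w in Tube M v, g3Ind Z (entryPt M v w) = 0 := by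
  have : Nontrivial E := ⟨⟨v, 0, hv⟩⟩
  rw [← cos_lemma M hv (g3Ind_measurable mZ)]
  have hne : ∀ᵐ z ∂(volume : Measure E), z ≠ 0 := by
    simp [ae_iff, measure_singleton]
  have hZn : ∀ᵐ z ∂(volume : Measure E), z ∉ Z := by
    rw [ae_iff]; simpa using hZ0
  have hae : ∀ᵐ z ∂(volume.restrict M.ball : Measure E),
      g3Ind Z (rad M z) * ENNReal.ofReal (-⟪grad M z, v⟫) = 0 := by
    refine ae_restrict_of_ae ?_
    filter_upwards [hne, hZn] with z hz0 hzZ
    have hr : rad M z ∉ Z := by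
      intro h
      apply hzZ
      have h1 := hZc _ h (M z) (M.pos z hz0)
      rwa [rad, smul_smul, mul_inv_cancel₀ (M.pos z hz0).ne', one_smul] at h1
    rw [g3Ind_of_notMem hr, zero_mul]
  rw [lintegral_congr_ae hae]
  simp

lemma g3_F_ne_zero (R : RadIso N N') {a : E} (ha : a ≠ 0) : R.F a ≠ 0 := by
  intro h
  have h1 := R.norm_F a
  rw [h, N'.map_zero'] at h1
  exact (N.pos a ha).ne' h1.symm

lemma g3_grad_ne (R : RadIso N N') {a : E} (ha : a ∈ Good R) :
    grad N a ≠ 0 ∧ grad N' (R.F a) ≠ 0 := by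
  constructor
  · intro h0
    have := (N.grad_spec ha.1 ha.2.2.2.1).2.1
    rw [h0, NF.map_zero'] at this
    exact zero_ne_one this
  · intro h0
    have := (N'.grad_spec (g3_F_ne_zero R ha.1) ha.2.2.2.2.1).2.1
    rw [h0, NF.map_zero'] at this
    exact zero_ne_one this

/-- On the dual tube at a good point the partner avoids a Borel null cone in the mean. -/
lemma g3_tube_Tmap_zero (R : RadIso N N') {a : E} (ha : a ∈ Good R) {Z : Set E}
    (mZ : MeasurableSet Z) (hZ0 : volume Z = 0) (hZc : ∀ x ∈ Z, ∀ c : ℝ, 0 < c → c • x ∈ Z) :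
    ∫⁻ w in Tube N.dual (grad N a), g3Ind Z (Tmap R a (entryPt N.dual (grad N a) w)) = 0 := by
  obtain ⟨-, hφ'⟩ := g3_grad_ne R ha
  have h1 : ∫⁻ w in Tube N.dual (grad N a), g3Ind Z (Tmap R a (entryPt N.dual (grad N a) w)) =
      ∫⁻ w in Tube N.dual (grad N a), g3Ind Z (entryPt N'.dual (grad N' (R.F a)) (Xi R a w)) := by
    refine setLIntegral_congr_fun (g3_measurableSet_tube N.dual _) ?_
    intro w hw
    show g3Ind Z _ = g3Ind Z _
    rw [Tmap_entry R ha hw.1]
  rw [h1, fixed_a_cov R ha (g3Ind_measurable mZ), g3_tube_entry_zero N'.dual hφ' mZ hZ0 hZc, mul_zero]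

lemma g3_measurable_Tmap_fix (R : RadIso N N') (a : E) : Measurable (Tmap R a) := by
  have h1 : Measurable (fun ξ : E => (a, ξ)) := measurable_const.prodMk measurable_id
  exact Measurable.comp (g := fun p : E × E => Tmap R p.1 p.2) (f := fun ξ : E => (a, ξ))
    R.measurable_Tmap h1

lemma g3_measurable_entry_fix (M : NF E) (v : E) : Measurable (entryPt M v) :=
  (measurable_entryPt M).comp (measurable_const.prodMk measurable_id)

/-- Null cones are avoided by `Tmap`, at every good point. -/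
theorem null_Tmap (R : RadIso N N') {a : E} (ha : a ∈ Good R) (ha1 : N a = 1) {Z : Set E}
    (mZ : MeasurableSet Z) (hZ0 : volume Z = 0) (hZc : ∀ x ∈ Z, ∀ c : ℝ, 0 < c → c • x ∈ Z) :
    ∀ᵐ ξ ∂(volume : Measure E), ξ ∈ N.dual.ball → ⟪grad N a, uhat N ξ⟫ < 0 →
      Tmap R a (rad N.dual ξ) ∉ Z := by
  obtain ⟨hφ, -⟩ := g3_grad_ne R ha
  have hm : Measurable (fun ξ => g3Ind Z (Tmap R a ξ)) :=
    (g3Ind_measurable mZ).comp (g3_measurable_Tmap_fix R a)
  have hc := cos_lemma N.dual hφ hm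
  rw [g3_tube_Tmap_zero R ha mZ hZ0 hZc] at hc
  have hmeas : Measurable (fun z : E => g3Ind Z (Tmap R a (rad N.dual z)) *
      ENNReal.ofReal (-⟪grad N.dual z, grad N a⟫)) := by
    refine (hm.comp N.dual.measurable_rad).mul (ENNReal.measurable_ofReal.comp ?_)
    exact (N.dual.measurable_grad.inner measurable_const).neg
  have h1 := (lintegral_eq_zero_iff hmeas).mp hc
  filter_upwards [(ae_restrict_iff' (g3_measurableSet_ball N.dual)).mp h1] with ξ hξ hξb hsign hT
  have h2 := hξ hξb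
  rw [g3Ind_of_mem hT, one_mul] at h2
  have h3 : 0 < -⟪grad N.dual ξ, grad N a⟫ := by
    have : ⟪grad N.dual ξ, grad N a⟫ = ⟪grad N a, uhat N ξ⟫ := real_inner_comm _ _
    rw [this]; linarith
  exact (ENNReal.ofReal_pos.mpr h3).ne' h2

/-- The inner integral of the master formula. -/
noncomputable def innerIG (N : NF E) (G : E × E → ℝ≥0∞) (z : E) : ℝ≥0∞ :=
  ∫⁻ ξ in Tube N.dual (grad N z), G (rad N z, entryPt N.dual (grad N z) ξ) *
    ENNReal.ofReal (len N (uhat N (entryPt N.dual (grad N z) ξ)) (rad N z))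

lemma measurable_innerIG (N : NF E) {G : E × E → ℝ≥0∞} (hG : Measurable G) :
    Measurable (innerIG N G) := by
  have hgr : Measurable (fun p : E × E => grad N p.1) := N.measurable_grad.comp measurable_fst
  have hs : MeasurableSet {p : E × E | p.2 ∈ Tube N.dual (grad N p.1)} :=
    (measurableSet_tube N.dual).preimage (hgr.prodMk measurable_snd)
  have hent : Measurable (fun p : E × E => entryPt N.dual (grad N p.1) p.2) :=
    (measurable_entryPt N.dual).comp (hgr.prodMk measurable_snd)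
  have hrad : Measurable (fun p : E × E => rad N p.1) := N.measurable_rad.comp measurable_fst
  have hlen : Measurable (fun p : E × E => len N (uhat N (entryPt N.dual (grad N p.1) p.2)) (rad N p.1)) :=
    (measurable_len N).comp (((g3_measurable_uhat N).comp hent).prodMk hrad)
  have hf : Measurable (fun p : E × E => G (rad N p.1, entryPt N.dual (grad N p.1) p.2) *
      ENNReal.ofReal (len N (uhat N (entryPt N.dual (grad N p.1) p.2)) (rad N p.1))) :=
    (hG.comp (hrad.prodMk hent)).mul (ENNReal.measurable_ofReal.comp hlen)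
  have heq : innerIG N G = fun z => ∫⁻ ξ, ({p : E × E | p.2 ∈ Tube N.dual (grad N p.1)}).indicator
      (fun p : E × E => G (rad N p.1, entryPt N.dual (grad N p.1) p.2) *
      ENNReal.ofReal (len N (uhat N (entryPt N.dual (grad N p.1) p.2)) (rad N p.1))) (z, ξ) := by
    funext z
    unfold innerIG
    rw [← lintegral_indicator (g3_measurableSet_tube N.dual (grad N z))]
    rfl
  rw [heq]
  exact (hf.indicator hs).lintegral_prod_right'

/-- The non differentiability set of the dual norm. -/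
def ndSet (M : NF E) : Set E := {x | DifferentiableAt ℝ (M.dual : E → ℝ) x}ᶜ

lemma ndSet_measurable (M : NF E) : MeasurableSet (ndSet M) :=
  (measurableSet_of_differentiableAt ℝ (M.dual : E → ℝ)).compl

lemma ndSet_null (M : NF E) : volume (ndSet M) = 0 := by
  have := ae_diff_dual M
  rwa [ae_iff] at this

lemma ndSet_cone (M : NF E) : ∀ x ∈ ndSet M, ∀ c : ℝ, 0 < c → c • x ∈ ndSet M := by
  intro x hx c hc h
  exact hx ((M.dual.differentiableAt_smul_iff hc x).mp h)

/-- The key identity at a good point, no strict convexity. -/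
lemma key_good_G (R : RadIso N N') {G : E × E → ℝ≥0∞} (hG : Measurable G)
    {z : E} (hz : z ∈ Good R) :
    ENNReal.ofReal |(fderiv ℝ R.F z).det| * innerIG N' G (R.F z) =
      innerIG N (fun p => G (R.F p.1, Tmap R p.1 p.2)) z := by
  have hz0 : z ≠ 0 := hz.1
  have hr : 0 < N z := N.pos z hz0
  obtain ⟨a, ha_def⟩ : ∃ a, a = rad N z := ⟨_, rfl⟩
  have ha : a ∈ Good R := by rw [ha_def]; exact R.good_smul hz (inv_pos.mpr hr)
  have ha1 : N a = 1 := by rw [ha_def]; exact N.norm_rad hz0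
  have hza : z = N z • a := by
    rw [ha_def, rad, smul_smul, mul_inv_cancel₀ hr.ne', one_smul]
  have hFz : R.F z = N z • R.F a := by
    conv_lhs => rw [hza]
    exact R.smul_F _ _ hr
  have h_rad : rad N' (R.F z) = R.F a := by
    unfold rad
    rw [R.norm_F, ← R.smul_F _ _ (inv_pos.mpr hr), ha_def, rad]
  have h_grad' : grad N' (R.F z) = grad N' (R.F a) := by
    rw [hFz]; exact N'.grad_smul hr _
  have h_grad : grad N z = grad N a := by
    conv_lhs => rw [hza]
    exact N.grad_smul hr _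
  have h_det : fderiv ℝ R.F z = fderiv ℝ R.F a := by
    conv_lhs => rw [hza]
    exact R.fderiv_smul hr _
  unfold innerIG
  rw [h_det, h_rad, h_grad', h_grad, ← ha_def]
  have hg : Measurable (fun ζ₀ : E => G (R.F a, ζ₀) * ENNReal.ofReal (len N' (uhat N' ζ₀) (R.F a))) := by
    refine (hG.comp (measurable_const.prodMk measurable_id)).mul
      (ENNReal.measurable_ofReal.comp ((measurable_len N').comp
        ((g3_measurable_uhat N').prodMk measurable_const)))
  have hcov := fixed_a_cov R ha hg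
  rw [← hcov]
  obtain ⟨hφ0, -⟩ := g3_grad_ne R ha
  have hd1 := g3_ae_of_zero (g3_measurable_entry_fix N.dual (grad N a))
    (g3_measurableSet_tube N.dual (grad N a)) (ndSet_measurable N)
    (g3_tube_entry_zero N.dual hφ0 (ndSet_measurable N) (ndSet_null N) (ndSet_cone N))
  have hd2 := g3_ae_of_zero ((g3_measurable_Tmap_fix R a).comp
      (g3_measurable_entry_fix N.dual (grad N a)))
    (g3_measurableSet_tube N.dual (grad N a)) (ndSet_measurable N')
    (g3_tube_Tmap_zero R ha (ndSet_measurable N') (ndSet_null N') (ndSet_cone N'))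
  refine lintegral_congr_ae ?_
  refine (ae_restrict_iff' (g3_measurableSet_tube N.dual (grad N a))).mpr ?_
  filter_upwards [hd1, hd2] with ξ hξ1 hξ2 hξ
  have hhits : hits N.dual (grad N a) ξ := hξ.1
  have hξ₀ : N.dual (entryPt N.dual (grad N a) ξ) = 1 := norm_entryPt N.dual hφ0 hhits
  have hξ₀0 : entryPt N.dual (grad N a) ξ ≠ 0 := by
    intro h0
    rw [h0, N.dual.map_zero'] at hξ₀
    exact zero_ne_one hξ₀
  have hd : DifferentiableAt ℝ (N.dual : E → ℝ) (entryPt N.dual (grad N a) ξ) := by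
    by_contra hcon
    exact hξ1 hξ hcon
  have hd' : DifferentiableAt ℝ (N'.dual : E → ℝ) (Tmap R a (entryPt N.dual (grad N a) ξ)) := by
    by_contra hcon
    exact hξ2 hξ hcon
  have hneg : ⟪grad N a, uhat N (entryPt N.dual (grad N a) ξ)⟫ < 0 := by
    have := (hasFDerivAt_tm N.dual hφ0 hhits hd).1
    rw [real_inner_comm]
    exact this
  have hT := Tmap_entry R ha hhits
  obtain ⟨hx1, hx2⟩ := uhat_G_spec N hξ₀0 hd
  have hh : hits N.dual (grad N a) (entryPt N.dual (grad N a) ξ) :=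
    (tm_entryPt N.dual hφ0 hhits).2.2.2
  obtain ⟨-, hT1, hx'1, hx'2, hx'neg, -, -, htp'⟩ :=
    chord_corr_G R ha ha1 hξ₀ hx1 (by rw [hx2, hξ₀]) hneg hh
  have hT0 : Tmap R a (entryPt N.dual (grad N a) ξ) ≠ 0 := by
    intro h0
    rw [h0, N'.dual.map_zero'] at hT1
    exact zero_ne_one hT1
  have huniq := uhat_G_unique N' hT0 hd' hx'1 (by rw [hx'2, hT1])
  rw [huniq] at hx'neg htp'
  have hN'Fa : N' (R.F a) = 1 := by rw [R.norm_F, ha1]
  have htm' := (entry_of_grad_neg N' hN'Fa ha.2.2.2.2.1 hx'neg).2.1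
  have htm := (entry_of_grad_neg N ha1 ha.2.2.2.1 hneg).2.1
  have hlen : len N' (uhat N' (Tmap R a (entryPt N.dual (grad N a) ξ))) (R.F a) =
      len N (uhat N (entryPt N.dual (grad N a) ξ)) a := by
    unfold len
    rw [htm, htm', htp']
  show G (R.F a, entryPt N'.dual (grad N' (R.F a)) (Xi R a ξ)) *
      ENNReal.ofReal (len N' (uhat N' (entryPt N'.dual (grad N' (R.F a)) (Xi R a ξ))) (R.F a)) =
    G (R.F a, Tmap R a (entryPt N.dual (grad N a) ξ)) *
      ENNReal.ofReal (len N (uhat N (entryPt N.dual (grad N a) ξ)) a)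
  rw [← hT, hlen]

/-- Invariance of the chord measure with functional, no strict convexity. -/
theorem cmi_G [Nontrivial E] (R : RadIso N N') {G : E × E → ℝ≥0∞} (hG : Measurable G) :
    ∫⁻ ζ in N'.dual.ball, ∫⁻ z in N'.ball, G (entryPt N' (uhat N' ζ) z, rad N'.dual ζ) =
      ∫⁻ ξ in N.dual.ball, ∫⁻ z in N.ball,
        G (R.F (entryPt N (uhat N ξ) z), Tmap R (entryPt N (uhat N ξ) z) (rad N.dual ξ)) := by
  have hG₁ : Measurable (fun p : E × E => G (R.F p.1, Tmap R p.1 p.2)) :=
    hG.comp ((R.continuous_F.measurable.comp measurable_fst).prodMk R.measurable_Tmap)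
  have hL := master_formula_G N' hG
  have hM := master_formula_G N hG₁
  have hO := R.outer_cov (measurable_innerIG N' hG)
  have hcongr : ∫⁻ z in N.ball, ENNReal.ofReal |(fderiv ℝ R.F z).det| * innerIG N' G (R.F z) =
      ∫⁻ z in N.ball, innerIG N (fun p => G (R.F p.1, Tmap R p.1 p.2)) z := by
    refine lintegral_congr_ae ?_
    filter_upwards [ae_restrict_of_ae R.ae_good] with z hz
    exact key_good_G R hG hz
  calc _ = (Module.finrank ℝ E : ℝ≥0∞) * ∫⁻ z' in N'.ball, innerIG N' G z' := hL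
    _ = (Module.finrank ℝ E : ℝ≥0∞) * ∫⁻ z in N.ball, innerIG N (fun p => G (R.F p.1, Tmap R p.1 p.2)) z := by
        rw [hO, hcongr]
    _ = _ := hM.symm

/-- From the vanishing of a double integral. -/
lemma g3_ae_of_iter_zero {f : E → E → ℝ≥0∞} (hf : Measurable (fun p : E × E => f p.1 p.2))
    {s t : Set E} (hs : MeasurableSet s) (ht : MeasurableSet t)
    (h : ∫⁻ x in s, ∫⁻ y in t, f x y = 0) :
    ∀ᵐ x ∂(volume : Measure E), x ∈ s → ∀ᵐ y ∂(volume : Measure E), y ∈ t → f x y = 0 := by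
  have hmeas : Measurable (fun x : E => ∫⁻ y in t, f x y) :=
    hf.lintegral_prod_right' (ν := (volume : Measure E).restrict t)
  have hae1 : ∀ᵐ x ∂(volume.restrict s : Measure E), ∫⁻ y in t, f x y = 0 :=
    (lintegral_eq_zero_iff hmeas).mp h
  have hae2 := (ae_restrict_iff' hs).mp hae1
  filter_upwards [hae2] with x hx hxs
  have hm : Measurable (f x) := hf.comp (measurable_const.prodMk measurable_id)
  have h1 : ∀ᵐ y ∂(volume.restrict t : Measure E), f x y = 0 :=
    (lintegral_eq_zero_iff hm).mp (hx hxs)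
  exact (ae_restrict_iff' ht).mp h1

/-- Typical partners avoid a Borel null cone. -/
lemma g3_hae_right [Nontrivial E] (R : RadIso N N') {Z : Set E} (mZ : MeasurableSet Z)
    (hZ0 : volume Z = 0) (hZc : ∀ x ∈ Z, ∀ c : ℝ, 0 < c → c • x ∈ Z) :
    ∀ᵐ ξ ∂(volume : Measure E), ξ ∈ N.dual.ball → ∀ᵐ z ∂(volume : Measure E), z ∈ N.ball →
      Tmap R (entryPt N (uhat N ξ) z) (rad N.dual ξ) ∉ Z := by
  have hG : Measurable (fun p : E × E => g3Ind Z p.2) :=
    (g3Ind_measurable mZ).comp measurable_snd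
  have hc := cmi_G R hG
  have hne : ∀ᵐ ξ ∂(volume : Measure E), ξ ≠ 0 := by
    simp [ae_iff, measure_singleton]
  have hZn : ∀ᵐ z ∂(volume : Measure E), z ∉ Z := by
    rw [ae_iff]; simpa using hZ0
  have hzero : ∫⁻ ζ in N'.dual.ball, ∫⁻ _z in N'.ball, g3Ind Z (rad N'.dual ζ) = 0 := by
    have : ∀ᵐ ζ ∂(volume.restrict N'.dual.ball : Measure E),
        ∫⁻ _z in N'.ball, g3Ind Z (rad N'.dual ζ) = 0 := by
      filter_upwards [ae_restrict_of_ae hZn, ae_restrict_of_ae hne] with ζ hζ hζ0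
      have h1 : rad N'.dual ζ ∉ Z := by
        intro h
        apply hζ
        have h2 := hZc _ h (N'.dual ζ) (N'.dual.pos ζ hζ0)
        rwa [rad, smul_smul, mul_inv_cancel₀ (N'.dual.pos ζ hζ0).ne', one_smul] at h2
      simp [g3Ind_of_notMem h1]
    rw [lintegral_congr_ae this]
    simp
  have hc' : ∫⁻ ξ in N.dual.ball, ∫⁻ z in N.ball,
      g3Ind Z (Tmap R (entryPt N (uhat N ξ) z) (rad N.dual ξ)) = 0 :=
    hc.symm.trans hzero
  have hent : Measurable (fun p : E × E => entryPt N (uhat N p.1) p.2) :=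
    (measurable_entryPt N).comp (((g3_measurable_uhat N).comp measurable_fst).prodMk measurable_snd)
  have hT : Measurable (fun p : E × E => Tmap R (entryPt N (uhat N p.1) p.2) (rad N.dual p.1)) :=
    Measurable.comp (g := fun p : E × E => Tmap R p.1 p.2)
      (f := fun p : E × E => (entryPt N (uhat N p.1) p.2, rad N.dual p.1))
      R.measurable_Tmap (hent.prodMk (N.dual.measurable_rad.comp measurable_fst))
  have hmain := g3_ae_of_iter_zero
    (f := fun ξ z => g3Ind Z (Tmap R (entryPt N (uhat N ξ) z) (rad N.dual ξ)))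
    ((g3Ind_measurable mZ).comp hT) (g3_measurableSet_ball N.dual) (g3_measurableSet_ball N) hc'
  filter_upwards [hmain] with ξ hξi hξb
  filter_upwards [hξi hξb] with z h2 hz hmem
  have h5 := h2 hz
  rw [g3Ind_of_mem hmem] at h5
  exact one_ne_zero h5

lemma g3_good_compl_null [Nontrivial E] (R : RadIso N N') : volume ((Good R)ᶜ : Set E) = 0 := by
  have := R.ae_good
  rwa [ae_iff] at this

lemma g3_good_compl_cone (R : RadIso N N') :
    ∀ x ∈ ((Good R)ᶜ : Set E), ∀ c : ℝ, 0 < c → c • x ∈ ((Good R)ᶜ : Set E) := by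
  intro x hx c hc hcx
  apply hx
  have := R.good_smul hcx (inv_pos.mpr hc)
  rwa [smul_smul, inv_mul_cancel₀ hc.ne', one_smul] at this

lemma g3_uhat_ne {M : NF E} {ξ : E} (hξ : ξ ≠ 0) (hd : DifferentiableAt ℝ (M.dual : E → ℝ) ξ) :
    uhat M ξ ≠ 0 := by
  intro h0
  have := (uhat_G_spec M hξ hd).1
  rw [h0, M.map_zero'] at this
  exact zero_ne_one this

/-- Invariance of the chord measure, chord level form, no strict convexity. -/
theorem cmi_chord_G [Nontrivial E] (R : RadIso N N') {H : E × E → ℝ≥0∞} (hH : Measurable H) :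
    ∫⁻ ζ in N'.dual.ball, ∫⁻ z in N'.ball, H (entryPt N' (uhat N' ζ) z, exitPt N' (uhat N' ζ) z) =
      ∫⁻ ξ in N.dual.ball, ∫⁻ z in N.ball,
        H (R.F (entryPt N (uhat N ξ) z), R.F (exitPt N (uhat N ξ) z)) := by
  have hG : Measurable (fun p : E × E => H (p.1, exitPt N' (uhat N' p.2) p.1)) :=
    hH.comp (measurable_fst.prodMk ((measurable_exitPt N').comp
      (((g3_measurable_uhat N').comp measurable_snd).prodMk measurable_fst)))
  have hc := cmi_G R hG
  have hne : ∀ᵐ ξ ∂(volume : Measure E), ξ ≠ 0 := by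
    simp [ae_iff, measure_singleton]
  have hgood0 := g3_good_compl_null R
  have hcone := g3_good_compl_cone R
  -- left side
  have hleft : ∫⁻ ζ in N'.dual.ball, ∫⁻ z in N'.ball, H (entryPt N' (uhat N' ζ) z, exitPt N' (uhat N' ζ) z) =
      ∫⁻ ζ in N'.dual.ball, ∫⁻ z in N'.ball,
        H (entryPt N' (uhat N' ζ) z, exitPt N' (uhat N' (rad N'.dual ζ)) (entryPt N' (uhat N' ζ) z)) := by
    refine lintegral_congr_ae ?_
    filter_upwards [ae_restrict_of_ae hne, ae_restrict_of_ae (ae_diff_dual N')] with ζ hζ hζd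
    refine setLIntegral_congr_fun (g3_measurableSet_ball N') ?_
    intro z hz
    have hv : uhat N' ζ ≠ 0 := g3_uhat_ne hζ hζd
    show H _ = H _
    rw [uhat_rad N' hζ, (tm_entryPt N' hv (hits_of_mem_ball N' hz)).2.2.1]
  -- right side
  have hright : ∫⁻ ξ in N.dual.ball, ∫⁻ z in N.ball,
        H (R.F (entryPt N (uhat N ξ) z), exitPt N' (uhat N' (Tmap R (entryPt N (uhat N ξ) z) (rad N.dual ξ)))
          (R.F (entryPt N (uhat N ξ) z))) =
      ∫⁻ ξ in N.dual.ball, ∫⁻ z in N.ball,
        H (R.F (entryPt N (uhat N ξ) z), R.F (exitPt N (uhat N ξ) z)) := by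
    refine lintegral_congr_ae ?_
    have hT := g3_hae_right R (ndSet_measurable N') (ndSet_null N') (ndSet_cone N')
    have hmemB : ∀ᵐ ξ ∂(volume.restrict N.dual.ball : Measure E), ξ ∈ N.dual.ball :=
      ae_restrict_mem (g3_measurableSet_ball N.dual)
    filter_upwards [ae_restrict_of_ae hne, ae_restrict_of_ae (ae_diff_dual N),
      ae_restrict_of_ae hT, hmemB] with ξ hξ hξd hξT hξb
    have hv : uhat N ξ ≠ 0 := g3_uhat_ne hξ hξd
    refine lintegral_congr_ae ?_
    have hae := ae_restrict_of_ae (s := N.ball) (ae_entry_exit_not_mem N hv hgood0 hcone)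
    have hmem : ∀ᵐ z ∂(volume.restrict N.ball : Measure E), z ∈ N.ball :=
      ae_restrict_mem (g3_measurableSet_ball N)
    filter_upwards [hae, hmem, ae_restrict_of_ae (hξT hξb)] with z hz hzb hzT
    have hgood : entryPt N (uhat N ξ) z ∈ Good R := by
      have := (hz hzb).1
      simpa using this
    have hhit := hits_of_mem_ball (v := uhat N ξ) N hzb
    have hnorm : N (entryPt N (uhat N ξ) z) = 1 := norm_entryPt N hv hhit
    have hneg : ⟪grad N (entryPt N (uhat N ξ) z), uhat N ξ⟫ < 0 :=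
      (hasFDerivAt_tm N hv hhit hgood.2.2.2.1).1
    have hrad1 : N.dual (rad N.dual ξ) = 1 := N.dual.norm_rad hξ
    have hrad0 : rad N.dual ξ ≠ 0 := by
      intro h0
      rw [h0, N.dual.map_zero'] at hrad1
      exact zero_ne_one hrad1
    have hu : uhat N (rad N.dual ξ) = uhat N ξ := uhat_rad N hξ
    have hd0 : DifferentiableAt ℝ (N.dual : E → ℝ) (rad N.dual ξ) :=
      (N.dual.differentiableAt_smul_iff (inv_pos.mpr (N.dual.pos ξ hξ)) ξ).mpr hξd
    obtain ⟨hx1, hx2⟩ := uhat_G_spec N hrad0 hd0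
    rw [hu] at hx1 hx2
    have hh : hits N.dual (grad N (entryPt N (uhat N ξ) z)) (rad N.dual ξ) :=
      hits_of_grad_neg N hrad1 hd0 (by rw [hu]; exact hneg)
    obtain ⟨-, hT1, hx'1, hx'2, -, -, hex, -⟩ :=
      chord_corr_G R hgood hnorm hrad1 hx1 (by rw [hx2, hrad1]) hneg hh
    have hT0 : Tmap R (entryPt N (uhat N ξ) z) (rad N.dual ξ) ≠ 0 := by
      intro h0
      rw [h0, N'.dual.map_zero'] at hT1
      exact zero_ne_one hT1
    have hd' : DifferentiableAt ℝ (N'.dual : E → ℝ)
        (Tmap R (entryPt N (uhat N ξ) z) (rad N.dual ξ)) := by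
      by_contra hcon
      exact hzT hzb hcon
    have huniq := uhat_G_unique N' hT0 hd' hx'1 (by rw [hx'2, hT1])
    rw [huniq, (tm_entryPt N hv hhit).2.2.1] at hex
    rw [(tm_entryPt N hv hhit).2.2.1] at huniq
    show H _ = H _
    rw [← hex]
  rw [hleft, ← hright]
  exact hc

/-- Typical chords, no strict convexity. -/
theorem typical_G [Nontrivial E] (R : RadIso N N') :
    ∀ᵐ ξ ∂(volume : Measure E), ξ ∈ N.dual.ball → ξ ≠ 0 ∧
      DifferentiableAt ℝ (N.dual : E → ℝ) ξ ∧ AlexG N (rad N.dual ξ) ∧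
      ∀ᵐ z ∂(volume : Measure E), z ∈ N.ball →
        entryPt N (uhat N ξ) z ∈ Good R ∧ exitPt N (uhat N ξ) z ∈ Good R ∧
          AlexG N' (Tmap R (entryPt N (uhat N ξ) z) (rad N.dual ξ)) := by
  have hne : ∀ᵐ ξ ∂(volume : Measure E), ξ ≠ 0 := by
    simp [ae_iff, measure_singleton]
  have hgood0 := g3_good_compl_null R
  have hcone := g3_good_compl_cone R
  have hAlex : ∀ᵐ ξ ∂(volume : Measure E), AlexG N ξ := ae_AlexG N
  have hAlex' : volume ({ζ : E | AlexG N' ζ}ᶜ : Set E) = 0 := by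
    have := ae_AlexG N'
    rwa [ae_iff] at this
  obtain ⟨Z, hWZ, mZ, hZ0, hZc⟩ := exists_measurable_null_cone hAlex'
    (fun x hx c hc h => hx ((AlexG_smul N' hc).mp h))
  have hT := g3_hae_right R mZ hZ0 hZc
  filter_upwards [hne, ae_diff_dual N, hT, hAlex] with ξ hξ0 hξd hξi hξA hξb
  refine ⟨hξ0, hξd, (AlexG_smul N (inv_pos.mpr (N.dual.pos ξ hξ0))).mpr hξA, ?_⟩
  have hv : uhat N ξ ≠ 0 := g3_uhat_ne hξ0 hξd
  filter_upwards [ae_entry_exit_not_mem N hv hgood0 hcone, hξi hξb] with z h1 h2 hz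
  obtain ⟨h3, h4⟩ := h1 hz
  refine ⟨by simpa using h3, by simpa using h4, ?_⟩
  by_contra hcon
  exact h2 hz (hWZ hcon)

end Vale.Agent.Lib.P084T
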