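import Vale.Agent.Lib.P084G.G1
import Vale.Agent.Lib.P084T.H1

set_option linter.unusedSectionVars false

/-! # P084G part G4: general finite dimensional Tingley. See `notes/P084G_blueprint.md`. -/

open MeasureTheory Set Filter Topology
open scoped RealInnerProductSpace ENNReal NNReal

namespace Vale.Agent.Lib.P084T

variable {E : Type*} [NormedAddCommGroup E] [InnerProductSpace ℝ E] [FiniteDimensional ℝ E]
  [CompleteSpace E] [MeasurableSpace E] [BorelSpace E]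
variable {N N' : NF E}

/-- Second order expansion of `F` along the sphere at a good point, no strict convexity. -/
theorem second_order_G (R : RadIso N N') {a : E} (ha : a ∈ Good R) (ha1 : N a = 1) :
    ∃ C δ : ℝ, 0 < δ ∧ ∀ z, N z = 1 → ‖z - a‖ < δ →
      ‖R.F z - R.F a - fderiv ℝ R.F a (z - a)‖ ≤ C * ‖z - a‖ ^ 2 := by
  classical
  have ha_good := ha
  obtain ⟨ha0, hdF, hdG, hdN, hdN', hUT, hUT'⟩ := ha
  have hFa1 : N' (R.F a) = 1 := by rw [R.norm_F, ha1]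
  have hFa0 : R.F a ≠ 0 := by
    intro h
    rw [h, N'.map_zero'] at hFa1
    norm_num at hFa1
  obtain ⟨-, hφd, hφa⟩ := N.grad_spec ha0 hdN
  obtain ⟨-, hφ'd, hφ'a⟩ := N'.grad_spec hFa0 hdN'
  rw [ha1] at hφa
  rw [hFa1] at hφ'a
  -- the family
  obtain ⟨t, p, hp, hcov⟩ := H1_family N ha0 ha1 hdN
  have hpart : ∀ i ∈ t, ∃ θ', N'.dual θ' ≤ 1 ∧
      ⟪θ', R.F a - R.F (p i)⟫ = N (a - p i) ∧
      ∀ h, ⟪grad N a, h⟫ = 0 → ⟪θ', fderiv ℝ R.F a h⟫ = ⟪grad N (a - p i), h⟫ := by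
    intro i hi
    obtain ⟨h1, h2, h3, -⟩ := hp i hi
    have hne : a - p i ≠ 0 := sub_ne_zero.2 (Ne.symm h2)
    obtain ⟨-, h5, h6⟩ := N.grad_spec hne h3
    exact corr_partner_G R ha_good ha1 h1 h5.le h6
  choose! θ' hθ' using hpart
  have hUTi : ∀ i ∈ t, ∃ C δ : ℝ, 0 < δ ∧ ∀ h, ‖h‖ < δ →
      N (a - p i + h) ≤ N (a - p i) + ⟪grad N (a - p i), h⟫ + C * ‖h‖ ^ 2 :=
    fun i hi => (hp i hi).2.2.2
  choose! Ci δi hδi hCi using hUTi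
  obtain ⟨Ca, δa, hδa, hCa⟩ := hUT
  obtain ⟨Cb, δb, hδb, hCb⟩ := hUT'
  obtain ⟨C₁, hC₁, hb₁⟩ := N.exists_bounds
  obtain ⟨C₂, hC₂, hb₂⟩ := N'.exists_bounds
  obtain ⟨Cm, hCm0, hCmi⟩ : ∃ Cm : ℝ, 0 ≤ Cm ∧ ∀ i ∈ t, Ci i ≤ Cm :=
    ⟨∑ i ∈ t, |Ci i|, Finset.sum_nonneg (fun _ _ => abs_nonneg _), fun i hi =>
      (le_abs_self _).trans
        (Finset.single_le_sum (f := fun i => |Ci i|) (fun _ _ => abs_nonneg _) hi)⟩
  -- uniform radius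
  have htn : Tendsto (fun h : E => ‖h‖) (𝓝 0) (𝓝 0) := by
    simpa using (continuous_norm (E := E)).tendsto 0
  have hev : ∀ᶠ h in 𝓝 (0 : E), (∀ i ∈ t, ‖h‖ < δi i) ∧ ‖h‖ < δa ∧ C₂ * C₁ * ‖h‖ < δb := by
    refine Eventually.and ?_ (Eventually.and ?_ ?_)
    · exact (Finset.eventually_all t).2 (fun i hi => htn.eventually (gt_mem_nhds (hδi i hi)))
    · exact htn.eventually (gt_mem_nhds hδa)
    · have : Tendsto (fun h : E => C₂ * C₁ * ‖h‖) (𝓝 0) (𝓝 0) := by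
        have h0 : Continuous (fun h : E => C₂ * C₁ * ‖h‖) := by fun_prop
        simpa using h0.tendsto 0
      exact this.eventually (gt_mem_nhds hδb)
  obtain ⟨δ, hδ, hball⟩ := Metric.eventually_nhds_iff.1 hev
  obtain ⟨Kb, hKbdef⟩ : ∃ Kb : ℝ, Kb = C₂ * C₁ := ⟨_, rfl⟩
  rw [← hKbdef] at hball
  have hKb0 : 0 < Kb := by rw [hKbdef]; positivity
  obtain ⟨Mg, hMg⟩ : ∃ Mg : ℝ, Mg = |Ca| := ⟨_, rfl⟩
  obtain ⟨Mg', hMg'⟩ : ∃ Mg' : ℝ, Mg' = |Cb| * Kb ^ 2 := ⟨_, rfl⟩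
  have hMg0 : 0 ≤ Mg := by rw [hMg]; positivity
  have hMg'0 : 0 ≤ Mg' := by rw [hMg']; positivity
  obtain ⟨M, hM⟩ : ∃ M : ℝ, M = Mg' + Mg + Cm := ⟨_, rfl⟩
  have hM0 : 0 ≤ M := by rw [hM]; positivity
  refine ⟨‖fderiv ℝ R.F a‖ * (C₁ * (4 * M)) + (Mg' + Mg) * ‖R.F a‖, δ, hδ, ?_⟩
  intro z hz hzδ
  obtain ⟨hi1, hi2, hi3⟩ := hball (y := z - a) (by simpa [dist_eq_norm] using hzδ)
  have hee : 0 ≤ ‖z - a‖ ^ 2 := by positivity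
  -- norm of the image difference
  have hNe' : N' (R.F z - R.F a) = N (z - a) := R.iso z a hz ha1
  have hnorm : ‖R.F z - R.F a‖ ≤ Kb * ‖z - a‖ := by
    have h1 := (hb₂ (R.F z - R.F a)).2
    have h2 := (hb₁ (z - a)).1
    rw [hNe'] at h1
    calc ‖R.F z - R.F a‖ ≤ C₂ * N (z - a) := h1
      _ ≤ C₂ * (C₁ * ‖z - a‖) := mul_le_mul_of_nonneg_left h2 hC₂.le
      _ = Kb * ‖z - a‖ := by rw [hKbdef]; ring
  obtain ⟨g, g', x, x', h', u, hg, hg', hx, hx', hh', hu, hAh', hφh', hφu⟩ :=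
    H1_decomp (z := z) R ha_good ha1 hFa0
  have hgb : |g| ≤ Mg * ‖z - a‖ ^ 2 := by
    rw [hg, hMg]
    exact H1_defect N ha1 hz hφd hφa (hCa _ hi2)
  have hg'b : |g'| ≤ Mg' * ‖z - a‖ ^ 2 := by
    have hlt : ‖R.F z - R.F a‖ < δb := lt_of_le_of_lt hnorm hi3
    have hz' : N' (R.F z) = 1 := by rw [R.norm_F, hz]
    have h1 := H1_defect N' hFa1 hz' hφ'd hφ'a (hCb _ hlt)
    have h3 : ‖R.F z - R.F a‖ ^ 2 ≤ (Kb * ‖z - a‖) ^ 2 := pow_le_pow_left₀ (norm_nonneg _) hnorm 2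
    have h4 := mul_le_mul_of_nonneg_left h3 (abs_nonneg Cb)
    have h5 : |Cb| * (Kb * ‖z - a‖) ^ 2 = Mg' * ‖z - a‖ ^ 2 := by rw [hMg']; ring
    rw [hg']
    linarith
  have hchord : ∀ i ∈ t, ⟪grad N (a - p i), u⟫ ≤ M * ‖z - a‖ ^ 2 := by
    intro i hi
    obtain ⟨h1, h2, h3, -⟩ := hp i hi
    have hne : a - p i ≠ 0 := sub_ne_zero.2 (Ne.symm h2)
    obtain ⟨-, hdθ, -⟩ := N.grad_spec hne h3
    obtain ⟨hθd, hθ1, hθ2⟩ := hθ' i hi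
    have h5 := hCi i hi (z - a) (hi1 i hi)
    have e1 : a - p i + (z - a) = z - p i := by abel
    rw [e1] at h5
    have h6 := H1_chord R ha1 h1 hz hdθ hθd hθ1 hθ2 h5 hx hx' hAh' hφh'
    rw [hu]
    have h7 : Ci i * ‖z - a‖ ^ 2 ≤ Cm * ‖z - a‖ ^ 2 :=
      mul_le_mul_of_nonneg_right (hCmi i hi) hee
    rw [hM, add_mul, add_mul]
    linarith
  have hNu : N u ≤ 4 * M * ‖z - a‖ ^ 2 := by
    by_cases hu0 : u = 0
    · rw [hu0, N.map_zero']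
      positivity
    · obtain ⟨i, hi, hle⟩ := hcov u hφu hu0
      have := hchord i hi
      linarith
  have hnu : ‖u‖ ≤ C₁ * (4 * M) * ‖z - a‖ ^ 2 := by
    calc ‖u‖ ≤ C₁ * N u := (hb₁ u).2
      _ ≤ C₁ * (4 * M * ‖z - a‖ ^ 2) := mul_le_mul_of_nonneg_left hNu hC₁.le
      _ = C₁ * (4 * M) * ‖z - a‖ ^ 2 := by ring
  have hinv2' : ∀ y, fderiv ℝ R.F a (fderiv ℝ R.G (R.F a) y) = y := fun y => by
    have := congrArg (fun L : E →L[ℝ] E => L y) (R.good_inverse ha_good).2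
    simpa using this
  rw [H1_final R (R.good_apply_self ha_good) hinv2' hx hx' hh' hu]
  have hA : ‖fderiv ℝ R.F a u‖ ≤ ‖fderiv ℝ R.F a‖ * (C₁ * (4 * M) * ‖z - a‖ ^ 2) :=
    ((fderiv ℝ R.F a).le_opNorm u).trans (mul_le_mul_of_nonneg_left hnu (norm_nonneg _))
  have hgg : |g' - g| ≤ (Mg' + Mg) * ‖z - a‖ ^ 2 := by
    have := abs_sub g' g
    rw [add_mul]
    linarith
  have hB : ‖(g' - g) • R.F a‖ ≤ (Mg' + Mg) * ‖z - a‖ ^ 2 * ‖R.F a‖ := by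
    rw [norm_smul, Real.norm_eq_abs]
    exact mul_le_mul_of_nonneg_right hgg (norm_nonneg _)
  calc ‖fderiv ℝ R.F a u + (g' - g) • R.F a‖ ≤ ‖fderiv ℝ R.F a u‖ + ‖(g' - g) • R.F a‖ := norm_add_le _ _
    _ ≤ ‖fderiv ℝ R.F a‖ * (C₁ * (4 * M) * ‖z - a‖ ^ 2) + (Mg' + Mg) * ‖z - a‖ ^ 2 * ‖R.F a‖ :=
        add_le_add hA hB
    _ = (‖fderiv ℝ R.F a‖ * (C₁ * (4 * M)) + (Mg' + Mg) * ‖R.F a‖) * ‖z - a‖ ^ 2 := by ring

end Vale.Agent.Lib.P084T
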