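import Vale.Agent.Lib.P084G.G1

set_option linter.unusedSectionVars false

/-! # P084G part G5: general finite dimensional Tingley. See `notes/P084G_blueprint.md`. -/

open MeasureTheory Set Filter Topology
open scoped RealInnerProductSpace ENNReal NNReal

namespace Vale.Agent.Lib.P084T

variable {E : Type*} [NormedAddCommGroup E] [InnerProductSpace ℝ E] [FiniteDimensional ℝ E]
  [CompleteSpace E] [MeasurableSpace E] [BorelSpace E]
variable {N N' : NF E}

/-- Implicit derivative of a root along a moving direction. -/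
private theorem root_deriv (f : E → ℝ) {b θ u y : E} {L : ℝ} {U : ℝ → E} {Λ : ℝ → ℝ}
    (hf : HasGradientAt f θ b)
    (hU : HasDerivAt U y 0) (hU0 : U 0 = u) (hΛ : ContinuousAt Λ 0) (hΛ0 : Λ 0 = L)
    (hroot : ∀ᶠ ε in 𝓝 (0:ℝ), f (b + (Λ ε • U ε - L • u)) = f b)
    (hc : ⟪θ, u⟫ ≠ 0) :
    HasDerivAt Λ (-(L * ⟪θ, y⟫) / ⟪θ, u⟫) 0 := by
  set c : ℝ := ⟪θ, u⟫ with hc_def
  set w : ℝ := -(L * ⟪θ, y⟫) / c with hw_def
  have hcabs : 0 < |c| := abs_pos.mpr hc
  -- the little o statement to prove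
  rw [hasDerivAt_iff_isLittleO_nhds_zero]
  simp only [zero_add, hΛ0, smul_eq_mul]
  rw [Asymptotics.isLittleO_iff]
  intro c' hc'
  -- first order data of `U`
  have hUc : ContinuousAt U 0 := hU.continuousAt
  obtain ⟨C, hC⟩ := (hU.isBigO_sub).bound
  have hC0 : 0 ≤ max C 0 := le_max_right _ _
  -- continuity of the displacement
  have hxc : Tendsto (fun ε : ℝ => Λ ε • U ε - L • u) (𝓝 0) (𝓝 0) := by
    have h1 : ContinuousAt (fun ε : ℝ => Λ ε • U ε - L • u) 0 := (hΛ.smul hUc).sub continuousAt_const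
    have h2 := h1.tendsto
    simpa [hΛ0, hU0] using h2
  -- the gradient expansion
  have hg := hf.hasFDerivAt
  rw [hasFDerivAt_iff_isLittleO_nhds_zero] at hg
  have hg' := hg.comp_tendsto hxc
  -- constants
  set K1 : ℝ := ‖u‖ + 1 with hK1
  have hK1pos : 0 < K1 := by positivity
  set C' : ℝ := max C 0 with hC'
  set A : ℝ := K1 + 1 with hA
  have hApos : 0 < A := by positivity
  set B : ℝ := A * |w| + |L| * C' + 1 with hB
  have hBpos : 0 < B := by positivity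
  set δ : ℝ := min (|c| / (2 * A)) (c' * |c| / (2 * B)) with hδ
  have hδpos : 0 < δ := by
    apply lt_min <;> positivity
  have hδ1 : δ * A ≤ |c| / 2 := by
    have : δ ≤ |c| / (2 * A) := min_le_left _ _
    calc δ * A ≤ |c| / (2 * A) * A := mul_le_mul_of_nonneg_right this hApos.le
      _ = |c| / 2 := by field_simp
  have hδ2 : δ * B ≤ c' * |c| / 2 := by
    have : δ ≤ c' * |c| / (2 * B) := min_le_right _ _
    calc δ * B ≤ c' * |c| / (2 * B) * B := mul_le_mul_of_nonneg_right this hBpos.le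
      _ = c' * |c| / 2 := by field_simp
  -- eventual facts
  have hE3 := (Asymptotics.isLittleO_iff.mp hg') hδpos
  have hE2 : ∀ᶠ ε in 𝓝 (0:ℝ), ‖U ε‖ ≤ K1 := by
    have : ContinuousAt (fun ε => ‖U ε‖) 0 := hUc.norm
    have h2 : ‖U 0‖ < K1 := by rw [hU0, hK1]; linarith
    filter_upwards [this.eventually_lt continuousAt_const h2] with ε hε using hε.le
  have hE4 : ∀ᶠ ε in 𝓝 (0:ℝ), |⟪θ, U ε - u⟫| ≤ δ := by
    have h1 : ContinuousAt (fun ε => |⟪θ, U ε - u⟫|) 0 :=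
      ((continuous_const.inner continuous_id).continuousAt.comp (hUc.sub continuousAt_const)).abs
    have h2 : |⟪θ, U 0 - u⟫| < δ := by simp [hU0, hδpos]
    filter_upwards [h1.eventually_lt continuousAt_const h2] with ε hε using hε.le
  have hU' := hU
  rw [hasDerivAt_iff_isLittleO_nhds_zero] at hU'
  have hE5 : ∀ᶠ ε in 𝓝 (0:ℝ), ‖U (0 + ε) - U 0 - ε • y‖ ≤ δ / (|L| * ‖θ‖ + 1) * ‖ε‖ :=
    (Asymptotics.isLittleO_iff.mp hU') (by positivity)
  filter_upwards [hE2, hE3, hE4, hE5, hC, hroot] with ε h2 h3 h4 h5 h1 hr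
  simp only [zero_add, hU0] at h5
  simp only [Function.comp] at h3
  rw [hr] at h3
  simp only [sub_zero, hU0] at h1
  have h1' : ‖U ε - u‖ ≤ C' * |ε| := by
    have : ‖U ε - u‖ ≤ C * ‖ε‖ := h1
    calc ‖U ε - u‖ ≤ C * ‖ε‖ := this
      _ ≤ C' * ‖ε‖ := mul_le_mul_of_nonneg_right (le_max_left _ _) (norm_nonneg _)
      _ = C' * |ε| := by rw [Real.norm_eq_abs]
  -- abbreviations
  set g : ℝ := Λ ε - L with hg_def
  set D : ℝ := g - ε * w with hD_def
  set x : E := Λ ε • U ε - L • u with hx_def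
  set r : E := U ε - u - ε • y with hr_def
  have hx_eq : x = g • U ε + L • (U ε - u) := by
    simp only [hx_def, hg_def, sub_smul, smul_sub]; abel
  have hin : ⟪θ, x⟫ = g * ⟪θ, U ε⟫ + L * ⟪θ, U ε - u⟫ := by
    rw [hx_eq, inner_add_right, inner_smul_right, inner_smul_right]
  have hin2 : ⟪θ, U ε⟫ = c + ⟪θ, U ε - u⟫ := by
    rw [inner_sub_right]; simp [hc_def]
  have hin3 : ⟪θ, U ε - u⟫ = ⟪θ, r⟫ + ε * ⟪θ, y⟫ := by
    rw [hr_def]; simp only [inner_sub_right, inner_smul_right]; ring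
  have hcw : c * w = -(L * ⟪θ, y⟫) := by
    rw [hw_def]; field_simp
  have hkey : c * D = ⟪θ, x⟫ - g * ⟪θ, U ε - u⟫ - L * ⟪θ, r⟫ := by
    rw [hin, hin2, hin3, hD_def]
    have : c * (ε * w) = ε * (c * w) := by ring
    have h6 : c * (g - ε * w) = c * g - c * (ε * w) := by ring
    rw [h6, this, hcw]
    ring
  -- bounds
  have hb1 : |⟪θ, x⟫| ≤ δ * ‖x‖ := by
    have h7 : ‖f b - f b - (InnerProductSpace.toDual ℝ E θ) x‖ ≤ δ * ‖x‖ := h3
    simpa [InnerProductSpace.toDual_apply_apply] using h7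
  have hb2 : ‖x‖ ≤ |g| * K1 + |L| * (C' * |ε|) := by
    rw [hx_eq]
    refine (norm_add_le _ _).trans (add_le_add ?_ ?_)
    · rw [norm_smul, Real.norm_eq_abs]
      exact mul_le_mul_of_nonneg_left h2 (abs_nonneg _)
    · rw [norm_smul, Real.norm_eq_abs]
      exact mul_le_mul_of_nonneg_left h1' (abs_nonneg _)
  have hb3 : |g * ⟪θ, U ε - u⟫| ≤ |g| * δ := by
    rw [abs_mul]; exact mul_le_mul_of_nonneg_left h4 (abs_nonneg _)
  have hb4 : |L * ⟪θ, r⟫| ≤ δ * |ε| := by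
    rw [abs_mul]
    have h8 : |⟪θ, r⟫| ≤ ‖θ‖ * ‖r‖ := abs_real_inner_le_norm _ _
    have h9 : ‖r‖ ≤ δ / (|L| * ‖θ‖ + 1) * |ε| := by
      simpa [Real.norm_eq_abs] using h5
    have hpos : 0 < |L| * ‖θ‖ + 1 := by positivity
    calc |L| * |⟪θ, r⟫| ≤ |L| * (‖θ‖ * ‖r‖) := mul_le_mul_of_nonneg_left h8 (abs_nonneg _)
      _ = (|L| * ‖θ‖) * ‖r‖ := by ring
      _ ≤ (|L| * ‖θ‖) * (δ / (|L| * ‖θ‖ + 1) * |ε|) :=
          mul_le_mul_of_nonneg_left h9 (by positivity)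
      _ = (|L| * ‖θ‖) / (|L| * ‖θ‖ + 1) * (δ * |ε|) := by field_simp
      _ ≤ 1 * (δ * |ε|) := by
          refine mul_le_mul_of_nonneg_right ?_ (by positivity)
          rw [div_le_one hpos]; linarith
      _ = δ * |ε| := one_mul _
  have hb5 : |g| ≤ |D| + |w| * |ε| := by
    have : g = D + ε * w := by rw [hD_def]; ring
    rw [this]
    refine (abs_add_le _ _).trans ?_
    rw [abs_mul, mul_comm |ε|]
  have hmain : |c| * |D| ≤ δ * (A * |D|) + δ * B * |ε| := by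
    rw [← abs_mul, hkey]
    have h10 : |⟪θ, x⟫ - g * ⟪θ, U ε - u⟫ - L * ⟪θ, r⟫|
        ≤ |⟪θ, x⟫| + |g * ⟪θ, U ε - u⟫| + |L * ⟪θ, r⟫| := by
      refine (abs_sub _ _).trans ?_
      gcongr
      exact abs_sub _ _
    have h11 : δ * ‖x‖ ≤ δ * (|g| * K1 + |L| * (C' * |ε|)) :=
      mul_le_mul_of_nonneg_left hb2 hδpos.le
    have h12 : δ * (A * |g|) ≤ δ * (A * (|D| + |w| * |ε|)) :=
      mul_le_mul_of_nonneg_left (mul_le_mul_of_nonneg_left hb5 hApos.le) hδpos.le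
    have h13 : δ * (|g| * K1 + |L| * (C' * |ε|)) + |g| * δ + δ * |ε|
        = δ * (A * |g|) + δ * (|L| * C' * |ε| + |ε|) := by
      rw [hA]; ring
    have h14 : δ * (A * (|D| + |w| * |ε|)) + δ * (|L| * C' * |ε| + |ε|)
        = δ * (A * |D|) + δ * B * |ε| := by
      rw [hB]; ring
    linarith
  have hfin : |D| ≤ c' * |ε| := by
    have h15 : δ * (A * |D|) ≤ |c| / 2 * |D| := by
      have : δ * (A * |D|) = (δ * A) * |D| := by ring
      rw [this]; exact mul_le_mul_of_nonneg_right hδ1 (abs_nonneg _)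
    have h16 : δ * B * |ε| ≤ c' * |c| / 2 * |ε| := mul_le_mul_of_nonneg_right hδ2 (abs_nonneg _)
    have h17 : |c| / 2 * |D| ≤ |c| / 2 * (c' * |ε|) := by
      have : |c| / 2 * (c' * |ε|) = c' * |c| / 2 * |ε| := by ring
      rw [this]
      linarith
    exact le_of_mul_le_mul_left h17 (by positivity)
  simpa [Real.norm_eq_abs, hD_def, hg_def, mul_comm] using hfin

private theorem Mop_apply (A : E →L[ℝ] E) (φ u u' ξ ζ h : E) :
    Mop A φ u u' ξ ζ h = A (h - ((⟪φ, u⟫)⁻¹ * ⟪φ, h⟫) • u)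
      - ⟪ζ, A (h - ((⟪φ, u⟫)⁻¹ * ⟪φ, h⟫) • u)⟫ • u' + ⟪ξ, h⟫ • u' := by
  simp [Mop, innerSL_apply_apply, inner_sub_right, inner_smul_right]


/-- The radial curve in the dual ball. -/
private theorem rad_curve_G {ζ y : E} (hζ : N.dual ζ = 1)
    (hd : DifferentiableAt ℝ (N.dual : E → ℝ) ζ) :
    HasDerivAt (fun ε : ℝ => rad N.dual (ζ + ε • y)) (y - ⟪y, uhat N ζ⟫ • ζ) 0 := by
  have hζ0 : ζ ≠ 0 := by
    rintro rfl
    rw [NF.map_zero'] at hζ
    exact zero_ne_one hζ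
  have hγ : HasDerivAt (fun ε : ℝ => ζ + ε • y) y 0 := by
    have := ((hasDerivAt_id (0:ℝ)).smul_const y).const_add ζ
    simpa using this
  have hspec : HasGradientAt (N.dual : E → ℝ) (uhat N ζ) ζ := hd.hasGradientAt
  have hn : HasDerivAt (fun ε : ℝ => N.dual (ζ + ε • y)) ⟪uhat N ζ, y⟫ 0 := by
    have h1 : HasFDerivAt (N.dual : E → ℝ) (innerSL ℝ (uhat N ζ)) (ζ + (0:ℝ) • y) := by
      simp only [zero_smul, add_zero]
      exact hspec.hasFDerivAt
    have h2 := h1.comp_hasDerivAt (0:ℝ) hγ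
    have h3 : (innerSL ℝ (uhat N ζ)) y = ⟪uhat N ζ, y⟫ := rfl
    exact h2.congr_deriv h3
  have hne : N.dual (ζ + (0:ℝ) • y) ≠ 0 := by simp [hζ]
  have hinv := hn.inv hne
  have hs := hinv.smul hγ
  simp only [rad]
  refine hs.congr_deriv ?_
  simp only [Pi.inv_apply, zero_smul, add_zero, hζ, inv_one, one_smul, one_pow, div_one, neg_smul]
  rw [real_inner_comm]
  abel

/-- A curve of norming vectors along a differentiable curve of functionals. -/
private theorem norming_curve {ξ w : E} {Q : E →L[ℝ] E} (hQ : AlexData N ξ Q) (hξ : ξ ≠ 0)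
    {γ : ℝ → E} (hγ : HasDerivAt γ w 0) (hγ0 : γ 0 = ξ) {X : ℝ → E}
    (hX : ∀ᶠ ε in 𝓝 (0:ℝ), N (X ε) = 1 ∧ ⟪γ ε, X ε⟫ = N.dual (γ ε)) :
    X 0 = uhat N ξ ∧ HasDerivAt X (Q w) 0 := by
  obtain ⟨hd, -, -, hA⟩ := hQ
  have hX0 : X 0 = uhat N ξ := by
    obtain ⟨h1, h2⟩ := hX.self_of_nhds
    rw [hγ0] at h2
    exact uhat_G_unique N hξ hd h1 h2
  refine ⟨hX0, ?_⟩
  rw [hasDerivAt_iff_isLittleO_nhds_zero, Asymptotics.isLittleO_iff]
  intro c hc
  simp only [zero_add]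
  have hγc : ContinuousAt γ 0 := hγ.continuousAt
  have hγ' := hγ
  rw [hasDerivAt_iff_isLittleO_nhds_zero, Asymptotics.isLittleO_iff] at hγ'
  set K : ℝ := ‖w‖ + 1 with hK
  have hKpos : 0 < K := by positivity
  obtain ⟨δ, hδ, hclose⟩ := hA (c / (2 * K)) (by positivity)
  have h1 : ∀ᶠ ε in 𝓝 (0:ℝ), ‖γ ε - ξ‖ < δ := by
    have hc2 : ContinuousAt (fun ε => ‖γ ε - ξ‖) 0 := (hγc.sub continuousAt_const).norm
    have h0 : ‖γ 0 - ξ‖ < δ := by simpa [hγ0] using hδ
    exact hc2.eventually_lt continuousAt_const h0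
  have h2 := hγ' (show (0:ℝ) < min 1 (c / (2 * (‖Q‖ + 1))) by positivity)
  filter_upwards [h1, h2, hX] with ε h1 h2 h3
  simp only [zero_add, hγ0] at h2
  have h4 := hclose (γ ε) (X ε) h1 h3.1 h3.2
  have hr : ‖γ ε - ξ - ε • w‖ ≤ min 1 (c / (2 * (‖Q‖ + 1))) * ‖ε‖ := h2
  have hr1 : ‖γ ε - ξ - ε • w‖ ≤ ‖ε‖ := by
    have := (min_le_left (1:ℝ) (c / (2 * (‖Q‖ + 1))))
    calc _ ≤ _ := hr
      _ ≤ 1 * ‖ε‖ := mul_le_mul_of_nonneg_right this (norm_nonneg _)
      _ = ‖ε‖ := one_mul _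
  have hr2 : ‖γ ε - ξ - ε • w‖ ≤ c / (2 * (‖Q‖ + 1)) * ‖ε‖ := by
    have := (min_le_right (1:ℝ) (c / (2 * (‖Q‖ + 1))))
    exact hr.trans (mul_le_mul_of_nonneg_right this (norm_nonneg _))
  have hg : ‖γ ε - ξ‖ ≤ K * ‖ε‖ := by
    have e : γ ε - ξ = (γ ε - ξ - ε • w) + ε • w := by abel
    rw [e]
    refine (norm_add_le _ _).trans ?_
    rw [norm_smul, hK]
    nlinarith [norm_nonneg ε, norm_nonneg w]
  have e : X ε - X 0 - ε • Q w = (X ε - uhat N ξ - Q (γ ε - ξ)) + Q (γ ε - ξ - ε • w) := by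
    rw [hX0]
    simp only [map_sub, map_smul]
    abel
  rw [e]
  refine (norm_add_le _ _).trans ?_
  have h5 : ‖Q (γ ε - ξ - ε • w)‖ ≤ c / 2 * ‖ε‖ := by
    refine (Q.le_opNorm _).trans ?_
    have hQ1 : (0:ℝ) < ‖Q‖ + 1 := by positivity
    calc ‖Q‖ * ‖γ ε - ξ - ε • w‖ ≤ ‖Q‖ * (c / (2 * (‖Q‖ + 1)) * ‖ε‖) :=
          mul_le_mul_of_nonneg_left hr2 (norm_nonneg _)
      _ = (‖Q‖ / (‖Q‖ + 1)) * (c / 2 * ‖ε‖) := by field_simp
      _ ≤ 1 * (c / 2 * ‖ε‖) := by
          refine mul_le_mul_of_nonneg_right ?_ (by positivity)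
          rw [div_le_one hQ1]; linarith
      _ = c / 2 * ‖ε‖ := one_mul _
  have h6 : ‖X ε - uhat N ξ - Q (γ ε - ξ)‖ ≤ c / 2 * ‖ε‖ := by
    refine h4.trans ?_
    calc c / (2 * K) * ‖γ ε - ξ‖ ≤ c / (2 * K) * (K * ‖ε‖) :=
          mul_le_mul_of_nonneg_left hg (by positivity)
      _ = c / 2 * ‖ε‖ := by field_simp
  linarith

/-- The exit time of a chord, without strict convexity. -/
private theorem tp_of_chord (N : NF E) {a x : E} {L : ℝ} (hL : 0 < L) (hNa : N a = 1)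
    (hd : DifferentiableAt ℝ (N : E → ℝ) a) (hneg : ⟪grad N a, x⟫ < 0)
    (hb : N (a + L • x) = 1) : tp N x a = L := by
  have hx0 : x ≠ 0 := by
    rintro rfl
    simp at hneg
  obtain ⟨hh, htm, -⟩ := entry_of_grad_neg N hNa hd hneg
  have hl := line_iff N hx0 hh
  rw [htm] at hl
  have hlen := len_pos N hx0 hh
  simp only [len, htm, zero_add] at hlen
  apply le_antisymm
  · by_contra hlt
    have hlt := not_le.mp hlt
    have := (hl L).2 ⟨by linarith, hlt⟩
    rw [hb] at this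
    exact lt_irrefl _ this
  · by_contra hlt
    have hlt := not_le.mp hlt
    have hex := norm_exitPt N hx0 hh
    simp only [exitPt] at hex
    set t := tp N x a with ht
    have hin : N (a + (t / 2) • x) < 1 := (hl (t / 2)).2 ⟨by linarith, by linarith⟩
    -- `a + t • x` lies between `a + (t/2) • x` and `a + L • x`
    set lam : ℝ := (L - t) / (L - t / 2) with hlam
    have hden : 0 < L - t / 2 := by linarith
    have hlam0 : 0 < lam := div_pos (by linarith) hden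
    have hlam1 : 0 < 1 - lam := by
      have : lam < 1 := by
        rw [hlam, div_lt_one hden]; linarith
      linarith
    have hlamd : lam * (L - t / 2) = L - t := by
      rw [hlam]; exact div_mul_cancel₀ _ hden.ne'
    have hcomb : a + t • x = lam • (a + (t / 2) • x) + (1 - lam) • (a + L • x) := by
      have e1 : lam * (t / 2) + (1 - lam) * L = t := by
        linear_combination (-1 : ℝ) * hlamd
      have e2 : lam • (a + (t / 2) • x) + (1 - lam) • (a + L • x)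
          = a + (lam * (t / 2) + (1 - lam) * L) • x := by
        simp only [smul_add, smul_smul, add_smul, sub_smul, one_smul]
        abel
      rw [e2, e1]
    have h1 : N (a + t • x) ≤ lam * N (a + (t / 2) • x) + (1 - lam) * N (a + L • x) := by
      rw [hcomb]
      refine (N.add_le _ _).trans ?_
      rw [N.smul_eq, N.smul_eq, abs_of_pos hlam0, abs_of_pos hlam1]
    rw [hex, hb] at h1
    nlinarith

/-- The relation between the Hessians of the dual norms, no strict convexity. -/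
theorem Q_relation_G (R : RadIso N N') {a b ξ ζ : E} (c : ChordG R a b ξ ζ)
    {Q Q' : E →L[ℝ] E} (hQ : AlexData N ξ Q) (hQ' : AlexData N' ζ Q') :
    Q' = (M1 R a b ξ ζ).comp (Q.comp (ContinuousLinearMap.adjoint (M0 R a b ξ ζ))) := by
  obtain ⟨ha0, hFa, hGFa, hNa, hN'Fa, -, -⟩ := c.ga
  obtain ⟨hb0, hFb, hGFb, hNb, hN'Fb, -, -⟩ := c.gb
  have hba : b - a ≠ 0 := sub_ne_zero.mpr c.hab.symm
  have hL : 0 < N (b - a) := N.pos _ hba
  have hNFa : N' (R.F a) = 1 := by rw [R.norm_F, c.ha]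
  have hNFb : N' (R.F b) = 1 := by rw [R.norm_F, c.hb]
  have hisoL : N' (R.F b - R.F a) = N (b - a) := R.iso b a c.hb c.ha
  have hFa0 : R.F a ≠ 0 := by
    intro h
    rw [h, NF.map_zero'] at hNFa
    exact zero_ne_one hNFa
  have hNu : N (cu N a b) = 1 := by
    simp only [cu]
    rw [N.smul_eq, abs_of_pos (inv_pos.mpr hL), inv_mul_cancel₀ hL.ne']
  have hNu' : N' (cu' R a b) = 1 := by
    simp only [cu']
    rw [N'.smul_eq, abs_of_pos (inv_pos.mpr hL), hisoL, inv_mul_cancel₀ hL.ne']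
  have hu0 : cu N a b ≠ 0 := by
    intro h
    rw [h, NF.map_zero'] at hNu
    exact zero_ne_one hNu
  have hu'0 : cu' R a b ≠ 0 := by
    intro h
    rw [h, NF.map_zero'] at hNu'
    exact zero_ne_one hNu'
  have hb_eq : a + N (b - a) • cu N a b = b := by
    simp only [cu]
    rw [smul_smul, mul_inv_cancel₀ hL.ne', one_smul]
    abel
  have hFb_eq : R.F a + N (b - a) • cu' R a b = R.F b := by
    simp only [cu']
    rw [smul_smul, mul_inv_cancel₀ hL.ne', one_smul]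
    abel
  have hξu : ⟪ξ, cu N a b⟫ = 1 := by
    simp only [cu]
    rw [inner_smul_right, c.hξu, inv_mul_cancel₀ hL.ne']
  have hζu' : ⟪ζ, cu' R a b⟫ = 1 := by
    simp only [cu']
    rw [inner_smul_right, c.hζu, inv_mul_cancel₀ hL.ne']
  have hξ0 : ξ ≠ 0 := by
    intro h
    have := c.hξ
    rw [h, NF.map_zero'] at this
    exact zero_ne_one this
  have hζ0 : ζ ≠ 0 := by
    intro h
    have := c.hζ
    rw [h, NF.map_zero'] at this
    exact zero_ne_one this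
  have hNdξ : DifferentiableAt ℝ (N.dual : E → ℝ) ξ := hQ.1
  have hN'dζ : DifferentiableAt ℝ (N'.dual : E → ℝ) ζ := hQ'.1
  have huξ : uhat N ξ = cu N a b :=
    (uhat_G_unique N hξ0 hNdξ hNu (by rw [hξu, c.hξ])).symm
  have hu'ζ : uhat N' ζ = cu' R a b :=
    (uhat_G_unique N' hζ0 hN'dζ hNu' (by rw [hζu', c.hζ])).symm
  -- gradients
  obtain ⟨-, hφ1, hφa⟩ := N.grad_spec ha0 hNa
  obtain ⟨-, hφ'1, hφ'a⟩ := N'.grad_spec hFa0 hN'Fa
  obtain ⟨hφb_g, hφb1, hφbb⟩ := N.grad_spec hb0 hNb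
  rw [c.ha] at hφa
  rw [hNFa] at hφ'a
  rw [c.hb] at hφbb
  have hφ0 : grad N a ≠ 0 := by
    intro h
    rw [h, NF.map_zero'] at hφ1
    exact zero_ne_one hφ1
  have hφ'0 : grad N' (R.F a) ≠ 0 := by
    intro h
    rw [h, NF.map_zero'] at hφ'1
    exact zero_ne_one hφ'1
  have hφu : ⟪grad N a, cu N a b⟫ < 0 := by
    have h1 := c.h1
    simp only [cu]
    rw [inner_smul_right, inner_sub_right, hφa]
    exact mul_neg_of_pos_of_neg (inv_pos.mpr hL) (by linarith)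
  have hφ'u' : ⟪grad N' (R.F a), cu' R a b⟫ < 0 := by
    have h1 := c.h3
    simp only [cu']
    rw [inner_smul_right, inner_sub_right, hφ'a]
    exact mul_neg_of_pos_of_neg (inv_pos.mpr hL) (by linarith)
  have hφbu : 0 < ⟪grad N b, cu N a b⟫ := by
    have h1 := c.h2
    simp only [cu]
    rw [inner_smul_right, inner_sub_right, hφbb]
    exact mul_pos (inv_pos.mpr hL) (by linarith)
  -- the kill facts
  obtain ⟨hQξ, hξQ⟩ := AlexData_kill hξ0 hQ
  obtain ⟨hQ'ζ, hζQ'⟩ := AlexData_kill hζ0 hQ'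
  -- the exit time
  have hLtp : tp N' (cu' R a b) (R.F a) = N (b - a) :=
    tp_of_chord N' hL hNFa hN'Fa hφ'u' (by rw [hFb_eq, hNFb])
  refine ContinuousLinearMap.ext fun η' => ?_
  simp only [ContinuousLinearMap.comp_apply]
  -- the curve of functionals
  have hγ : HasDerivAt (fun ε : ℝ => ζ + ε • η') η' 0 := by
    have := ((hasDerivAt_id (0:ℝ)).smul_const η').const_add ζ
    simpa using this
  have hγ0 : ζ + (0:ℝ) • η' = ζ := by simp
  have hrad0 : rad N'.dual ζ = ζ := by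
    simp only [rad]
    rw [c.hζ, inv_one, one_smul]
  have hζc := rad_curve_G (N := N') (y := η') c.hζ hN'dζ
  rw [hu'ζ] at hζc
  set Âs : E →L[ℝ] E := ContinuousLinearMap.adjoint (fderiv ℝ R.F a) with hÂs
  set ν : ℝ := ⟪η', cu' R a b⟫ with hν
  set η2 : E := η' - ν • ζ with hη2
  have hW : HasDerivAt (fun ε : ℝ => Âs (rad N'.dual (ζ + ε • η'))) (Âs η2) 0 := by
    have h1 := Âs.hasFDerivAt.comp_hasDerivAt (0:ℝ) hζc
    exact h1
  have hW0 : Âs (rad N'.dual (ζ + (0:ℝ) • η')) = Âs ζ := by rw [hγ0, hrad0]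
  -- the partner line
  have hadj : ∀ y h, ⟪Âs y, h⟫ = ⟪y, fderiv ℝ R.F a h⟫ := fun y h => by
    rw [hÂs, ContinuousLinearMap.adjoint_inner_left]
  obtain ⟨s, hs⟩ : ∃ s : ℝ, Âs ζ = ξ + s • grad N a := by
    refine ⟨⟪Âs ζ - ξ, a⟫, ?_⟩
    have key : Âs ζ - ξ - ⟪Âs ζ - ξ, a⟫ • grad N a = 0 := by
      refine ext_inner_right ℝ fun h => ?_
      have hh0 : ⟪grad N a, h - ⟪grad N a, h⟫ • a⟫ = 0 := by
        rw [inner_sub_right, inner_smul_right, hφa]; ring
      have hp := c.partner _ hh0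
      have h2 : ⟪Âs ζ - ξ, h - ⟪grad N a, h⟫ • a⟫ = 0 := by
        rw [inner_sub_left, hadj, hp]; ring
      rw [inner_sub_right, inner_smul_right] at h2
      rw [inner_sub_left, inner_smul_left, inner_zero_left]
      simp only [conj_trivial]
      linarith
    have : Âs ζ - ξ = ⟪Âs ζ - ξ, a⟫ • grad N a := sub_eq_zero.mp key
    rw [← this]
    abel
  -- the entry point of the partner line
  have hgrad : grad N.dual ξ = cu N a b := huξ
  have hneg : ⟪grad N.dual ξ, grad N a⟫ < 0 := by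
    rw [hgrad, real_inner_comm]; exact hφu
  obtain ⟨hh0, htm0, hent0⟩ := entry_of_grad_neg N.dual c.hξ hNdξ hneg
  have hhits : hits N.dual (grad N a) (Âs ζ) := by
    rw [hs]; exact (hits_add _ _ _ _).2 hh0
  have hent : entryPt N.dual (grad N a) (Âs ζ) = ξ := by
    rw [hs, entryPt_add _ hφ0 hh0, hent0]
  obtain ⟨-, htmd⟩ := hasFDerivAt_tm N.dual hφ0 hhits (by rw [hent]; exact hNdξ)
  rw [hent, hgrad] at htmd
  set τ : ℝ := (⟪cu N a b, grad N a⟫)⁻¹ * ⟪cu N a b, Âs η2⟫ with hτ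
  have htd : HasDerivAt (fun ε : ℝ => tm N.dual (grad N a) (Âs (rad N'.dual (ζ + ε • η')))) τ 0 := by
    have h1 := HasFDerivAt.comp_hasDerivAt_of_eq (0:ℝ) htmd hW hW0.symm
    refine h1.congr_deriv ?_
    simp [hτ, innerSL_apply_apply]
  set ηh : E := Âs η2 - τ • grad N a with hηh
  have hξc : HasDerivAt (fun ε : ℝ => entryPt N.dual (grad N a) (Âs (rad N'.dual (ζ + ε • η')))) ηh 0 := by
    simp only [entryPt]
    exact hW.sub (htd.smul_const _)
  have hξc0 : entryPt N.dual (grad N a) (Âs (rad N'.dual (ζ + (0:ℝ) • η'))) = ξ := by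
    rw [hW0, hent]
  -- the norming vectors of the curve in the image
  have hevne : ∀ᶠ ε in 𝓝 (0:ℝ), ζ + ε • η' ≠ 0 := by
    have h1 : ContinuousAt (fun ε : ℝ => ζ + ε • η') 0 := hγ.continuousAt
    have h2 : (fun ε : ℝ => ζ + ε • η') 0 ≠ 0 := by simpa using hζ0
    exact h1.eventually_ne h2
  have hexU' : ∀ ε : ℝ, ∃ x, ζ + ε • η' ≠ 0 → N' x = 1 ∧ ⟪ζ + ε • η', x⟫ = N'.dual (ζ + ε • η') := by
    intro ε
    by_cases h : ζ + ε • η' = 0
    · exact ⟨0, fun h' => absurd h h'⟩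
    · obtain ⟨x, hx1, hx2⟩ := N'.exists_norming_vec h
      exact ⟨x, fun _ => ⟨hx1, hx2⟩⟩
  choose U' hU'spec using hexU'
  obtain ⟨hU'00, hU'⟩ := norming_curve hQ' hζ0 hγ hγ0
    (hevne.mono fun ε h => hU'spec ε h)
  have hU'0 : U' 0 = cu' R a b := by rw [hU'00, hu'ζ]
  have hU'0' : U' 0 = cu' R a b := hU'0
  have hevneg : ∀ᶠ ε in 𝓝 (0:ℝ), ⟪grad N' (R.F a), U' ε⟫ < 0 := by
    have h1 : ContinuousAt (fun ε : ℝ => ⟪grad N' (R.F a), U' ε⟫) 0 :=
      ((continuous_const.inner continuous_id).continuousAt).comp hU'.continuousAt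
    have h2 : ⟪grad N' (R.F a), U' 0⟫ < 0 := by rw [hU'0]; exact hφ'u'
    exact h1.eventually_lt continuousAt_const h2
  have hneg' : ⟪grad N'.dual ζ, grad N' (R.F a)⟫ < 0 := by
    have : grad N'.dual ζ = cu' R a b := hu'ζ
    rw [this, real_inner_comm]; exact hφ'u'
  have hhζ : hits N'.dual (grad N' (R.F a)) ζ := (entry_of_grad_neg N'.dual c.hζ hN'dζ hneg').1
  -- hitting is an open condition
  have hevhits : ∀ᶠ ε in 𝓝 (0:ℝ), hits N'.dual (grad N' (R.F a)) (rad N'.dual (ζ + ε • η')) := by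
    obtain ⟨t, ht⟩ := hhζ
    have h1 : ContinuousAt (fun ε : ℝ => N'.dual (rad N'.dual (ζ + ε • η') + t • grad N' (R.F a))) 0 :=
      N'.dual.continuous.continuousAt.comp (hζc.continuousAt.add continuousAt_const)
    have h2 : N'.dual (rad N'.dual (ζ + (0:ℝ) • η') + t • grad N' (R.F a)) < 1 := by
      rw [hγ0, hrad0]; exact ht
    filter_upwards [h1.eventually_lt continuousAt_const h2] with ε hε
    exact ⟨t, hε⟩
  have hTmap : ∀ z, Tmap R.swap (R.F a) z = entryPt N.dual (grad N a) (Âs z) := by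
    intro z
    simp only [Tmap, Xi, RadIso.swap_F, RadIso.swap_G, R.G_F, hÂs]
  set Λ : ℝ → ℝ := fun ε => tp N' (U' ε) (R.F a) with hΛdef
  set U : ℝ → E := fun ε => (Λ ε)⁻¹ • (R.G (exitPt N' (U' ε) (R.F a)) - a) with hUdef
  -- the chord correspondence along the curve
  have hcc : ∀ᶠ ε in 𝓝 (0:ℝ),
      N (U ε) = 1 ∧ ⟪entryPt N.dual (grad N a) (Âs (rad N'.dual (ζ + ε • η'))), U ε⟫ =
          N.dual (entryPt N.dual (grad N a) (Âs (rad N'.dual (ζ + ε • η')))) ∧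
      N (a + Λ ε • U ε) = 1 ∧ R.F (a + Λ ε • U ε) = R.F a + Λ ε • U' ε := by
    filter_upwards [hevne, hevneg, hevhits] with ε hne hneg'' hhε
    obtain ⟨hU1, hU2⟩ := hU'spec ε hne
    have hn1 : N'.dual (rad N'.dual (ζ + ε • η')) = 1 := N'.dual.norm_rad hne
    have hpos : 0 < N'.dual (ζ + ε • η') := N'.dual.pos _ hne
    have hnorm : ⟪rad N'.dual (ζ + ε • η'), U' ε⟫ = 1 := by
      simp only [rad]
      rw [inner_smul_left, hU2]
      simp only [conj_trivial]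
      exact inv_mul_cancel₀ hpos.ne'
    have h := chord_corr_G R.swap (R.good_swap c.ga) hNFa hn1 hU1 hnorm hneg'' hhε
    rw [hTmap] at h
    simp only [RadIso.swap_F, R.G_F] at h
    obtain ⟨h1, h2, h3, h4, -⟩ := h
    have hΛpos : 0 < Λ ε := h1
    have hU'ne : U' ε ≠ 0 := by
      intro h0
      rw [h0, inner_zero_right] at hneg''
      exact lt_irrefl _ hneg''
    have hh' := (entry_of_grad_neg N' hNFa hN'Fa hneg'').1
    have hy1 : N' (exitPt N' (U' ε) (R.F a)) = 1 := norm_exitPt N' hU'ne hh'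
    have hline : a + Λ ε • U ε = R.G (exitPt N' (U' ε) (R.F a)) := by
      simp only [hUdef]
      rw [smul_smul, mul_inv_cancel₀ hΛpos.ne', one_smul]
      abel
    refine ⟨h3, ?_, ?_, ?_⟩
    · rw [h2]; exact h4
    · rw [hline]
      have := R.norm_F (R.G (exitPt N' (U' ε) (R.F a)))
      rw [R.F_G, hy1] at this
      exact this.symm
    · rw [hline, R.F_G]
      rfl
  obtain ⟨hU00, hU⟩ := norming_curve (w := ηh) hQ hξ0 hξc hξc0
    (hcc.mono fun ε h => ⟨h.1, h.2.1⟩)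
  have hU0 : U 0 = cu N a b := by rw [hU00, huξ]
  -- continuity and derivative of the exit time
  obtain ⟨hhu', -, -⟩ := entry_of_grad_neg N' hNFa hN'Fa hφ'u'
  have hΛc : ContinuousAt Λ 0 := by
    have h1 := continuousAt_tp N' hu'0 hhu'
    have h2 : ContinuousAt (fun ε : ℝ => (U' ε, R.F a)) 0 :=
      hU'.continuousAt.prodMk continuousAt_const
    have h3 : ContinuousAt (fun p : E × E => tp N' p.1 p.2) (U' 0, R.F a) := by
      rw [hU'0]; exact h1
    exact ContinuousAt.comp (f := fun ε : ℝ => (U' ε, R.F a))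
      (g := fun p : E × E => tp N' p.1 p.2) h3 h2
  have hΛ0 : Λ 0 = N (b - a) := by
    simp only [hΛdef]
    rw [hU'0, hLtp]
  have hroot : ∀ᶠ ε in 𝓝 (0:ℝ), N (b + (Λ ε • U ε - N (b - a) • cu N a b)) = N b := by
    filter_upwards [hcc] with ε h
    have h1 : ∀ y : E, b + (y - N (b - a) • cu N a b) = a + y := by
      intro y
      calc b + (y - N (b - a) • cu N a b)
          = (a + N (b - a) • cu N a b) + (y - N (b - a) • cu N a b) := by rw [hb_eq]
        _ = a + y := by abel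
    rw [h1, h.2.2.1, c.hb]
  have hΛd := root_deriv (N : E → ℝ) hφb_g hU hU0 hΛc hΛ0 hroot (ne_of_gt hφbu)
  set ℓ : ℝ := -(N (b - a) * ⟪grad N b, Q ηh⟫) / ⟪grad N b, cu N a b⟫ with hℓ
  -- the two expressions of the moving exit point
  have hB := (hΛd.smul hU).const_add a
  have hFB := HasFDerivAt.comp_hasDerivAt_of_eq (0:ℝ) hFb.hasFDerivAt hB (by
    simp only [Pi.smul_apply']
    rw [hΛ0, hU0, hb_eq])
  have hC := (hΛd.smul hU').const_add (R.F a)
  have hev : (R.F ∘ fun ε : ℝ => a + Λ ε • U ε)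
      =ᶠ[𝓝 0] (fun ε : ℝ => R.F a + Λ ε • U' ε) := by
    filter_upwards [hcc] with ε h
    exact h.2.2.2
  have heq := hFB.unique (hC.congr_of_eventuallyEq hev)
  have heq2 : fderiv ℝ R.F b (N (b - a) • Q ηh + ℓ • cu N a b)
      = N (b - a) • Q' η' + ℓ • cu' R a b := by
    simpa only [hΛ0, hU0, hU'0] using heq
  -- algebra
  set pb : E := Q ηh - ((⟪grad N b, cu N a b⟫)⁻¹ * ⟪grad N b, Q ηh⟫) • cu N a b with hpb
  have hL_pb : N (b - a) • pb = N (b - a) • Q ηh + ℓ • cu N a b := by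
    rw [hpb, smul_sub, smul_smul, sub_eq_add_neg, ← neg_smul]
    congr 2
    rw [hℓ]
    have := hφbu.ne'
    field_simp
  have h1 : N (b - a) • fderiv ℝ R.F b pb = N (b - a) • Q' η' + ℓ • cu' R a b := by
    rw [← map_smul, hL_pb, heq2]
  have h2 : N (b - a) * ⟪ζ, fderiv ℝ R.F b pb⟫ = ℓ := by
    have h3 := congrArg (fun x => ⟪ζ, x⟫) h1
    simp only [inner_add_right, inner_smul_right, hζQ', hζu', mul_zero, zero_add, mul_one] at h3
    exact h3
  have h3 : fderiv ℝ R.F b pb - ⟪ζ, fderiv ℝ R.F b pb⟫ • cu' R a b = Q' η' := by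
    have h4 : N (b - a) • (fderiv ℝ R.F b pb - ⟪ζ, fderiv ℝ R.F b pb⟫ • cu' R a b)
        = N (b - a) • Q' η' := by
      rw [smul_sub, h1, smul_smul, h2]
      abel
    exact smul_right_injective E hL.ne' h4
  -- the adjoint of `M0`
  have hadjM0 : ContinuousLinearMap.adjoint (M0 R a b ξ ζ) η' = ηh + ν • ξ := by
    refine ext_inner_right ℝ fun h => ?_
    rw [ContinuousLinearMap.adjoint_inner_left]
    simp only [M0]
    set P : E := h - ((⟪grad N a, cu N a b⟫)⁻¹ * ⟪grad N a, h⟫) • cu N a b with hP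
    have e1 : ⟪η', Mop (fderiv ℝ R.F a) (grad N a) (cu N a b) (cu' R a b) ξ ζ h⟫
        = ⟪η2, fderiv ℝ R.F a P⟫ + ν * ⟪ξ, h⟫ := by
      rw [Mop_apply, ← hP, hη2]
      simp only [inner_add_right, inner_sub_right, inner_smul_right, inner_sub_left, inner_smul_left,
        conj_trivial]
      rw [← hν]
      ring
    have e2 : ⟪η2, fderiv ℝ R.F a P⟫ = ⟪Âs η2, P⟫ := (hadj _ _).symm
    have e3 : ⟪Âs η2, P⟫ = ⟪Âs η2, h⟫
        - ((⟪grad N a, cu N a b⟫)⁻¹ * ⟪grad N a, h⟫) * ⟪Âs η2, cu N a b⟫ := by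
      rw [hP, inner_sub_right, inner_smul_right]
    rw [e1, e2, e3, inner_add_left, inner_smul_left, hηh, inner_sub_left, inner_smul_left]
    simp only [conj_trivial]
    rw [hτ, real_inner_comm (cu N a b) (grad N a), real_inner_comm (cu N a b) (Âs η2)]
    simp only [real_inner_comm]
    ring
  simp only [hadjM0, map_add, map_smul, hQξ, smul_zero, add_zero]
  simp only [M1]
  rw [Mop_apply, hξQ, zero_smul, add_zero]
  exact h3.symm

end Vale.Agent.Lib.P084T
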