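import Vale.Agent.Lib.P084G.G4
import Vale.Agent.Lib.P084T.H3

set_option linter.unusedSectionVars false

/-! # P084G part G6: general finite dimensional Tingley. See `notes/P084G_blueprint.md`. -/

open MeasureTheory Set Filter Topology
open scoped RealInnerProductSpace ENNReal NNReal

namespace Vale.Agent.Lib.P084T

variable {E : Type*} [NormedAddCommGroup E] [InnerProductSpace ℝ E] [FiniteDimensional ℝ E]
  [CompleteSpace E] [MeasurableSpace E] [BorelSpace E]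
variable {N N' : NF E}

/-- The second order bound of the dual norm along a direction killed by the second derivative. -/
theorem G6_dual_second {N : NF E} {ζ η₀ : E} {Q : E →L[ℝ] E}
    (hζ : N.dual ζ = 1) (hQ : AlexData N ζ Q) (hη : Q η₀ = 0)
    (hu : ⟪η₀, uhat N ζ⟫ = 0) {ε : ℝ} (hε : 0 < ε) :
    ∃ δ' : ℝ, 0 < δ' ∧ ∀ δ : ℝ, 0 < δ → δ < δ' → ∀ y : E,
      ⟪ζ + δ • η₀, y⟫ ≤ (1 + ε * δ ^ 2) * N y := by
  have hζ0 : ζ ≠ 0 := by
    intro h
    rw [h, NF.map_zero'] at hζ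
    norm_num at hζ
  set ε₁ : ℝ := ε / (‖η₀‖ ^ 2 + 1) with hε₁
  have hε₁pos : 0 < ε₁ := by positivity
  obtain ⟨r, hr, hball⟩ := hQ.2.2.2 ε₁ hε₁pos
  have hr2 : 0 < ‖ζ‖ := norm_pos_iff.mpr hζ0
  refine ⟨min r ‖ζ‖ / (‖η₀‖ + 1), by positivity, ?_⟩
  intro δ hδ hδ' y
  have hη1 : 0 < ‖η₀‖ + 1 := by positivity
  have hδη : δ * ‖η₀‖ < min r ‖ζ‖ := by
    have h1 : δ * (‖η₀‖ + 1) < min r ‖ζ‖ := (lt_div_iff₀ hη1).mp hδ'
    nlinarith [norm_nonneg η₀]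
  have hnh : ‖δ • η₀‖ = δ * ‖η₀‖ := by
    rw [norm_smul, Real.norm_of_nonneg hδ.le]
  have h_r : ‖δ • η₀‖ < r := by
    rw [hnh]; exact lt_of_lt_of_le hδη (min_le_left _ _)
  have h_z : ‖δ • η₀‖ < ‖ζ‖ := by
    rw [hnh]; exact lt_of_lt_of_le hδη (min_le_right _ _)
  have hne : ζ + δ • η₀ ≠ 0 := by
    intro h
    have : δ • η₀ = -ζ := by
      rw [eq_neg_iff_add_eq_zero, add_comm]; exact h
    rw [this, norm_neg] at h_z
    exact lt_irrefl _ h_z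
  obtain ⟨û, hu1, hu2⟩ := N.exists_norming_vec hne
  have hest : ‖û - uhat N ζ - Q (δ • η₀)‖ ≤ ε₁ * ‖δ • η₀‖ := by
    have := hball (ζ + δ • η₀) û (by simpa using h_r) hu1 hu2
    simpa using this
  have hQ0 : Q (δ • η₀) = 0 := by rw [map_smul, hη, smul_zero]
  rw [hQ0, sub_zero, hnh] at hest
  have hin : ⟪η₀, û⟫ ≤ ‖η₀‖ * (ε₁ * (δ * ‖η₀‖)) := by
    have h1 : ⟪η₀, û⟫ = ⟪η₀, û - uhat N ζ⟫ := by
      rw [inner_sub_right, hu, sub_zero]
    rw [h1]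
    calc ⟪η₀, û - uhat N ζ⟫ ≤ ‖η₀‖ * ‖û - uhat N ζ‖ := real_inner_le_norm _ _
      _ ≤ ‖η₀‖ * (ε₁ * (δ * ‖η₀‖)) := mul_le_mul_of_nonneg_left hest (norm_nonneg _)
  have hdual : N.dual (ζ + δ • η₀) ≤ 1 + ε * δ ^ 2 := by
    rw [← hu2, inner_add_left, inner_smul_left]
    simp only [conj_trivial]
    have h1 : ⟪ζ, û⟫ ≤ 1 := by
      have := N.inner_le ζ û
      rwa [hζ, hu1, one_mul] at this
    have h2 : δ * ⟪η₀, û⟫ ≤ δ * (‖η₀‖ * (ε₁ * (δ * ‖η₀‖))) :=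
      mul_le_mul_of_nonneg_left hin hδ.le
    have h3 : δ * (‖η₀‖ * (ε₁ * (δ * ‖η₀‖))) = (ε₁ * ‖η₀‖ ^ 2) * δ ^ 2 := by ring
    have h4 : ε₁ * ‖η₀‖ ^ 2 ≤ ε := by
      rw [hε₁, div_mul_eq_mul_div, div_le_iff₀ (by positivity)]
      nlinarith [sq_nonneg ‖η₀‖]
    have h5 : (ε₁ * ‖η₀‖ ^ 2) * δ ^ 2 ≤ ε * δ ^ 2 :=
      mul_le_mul_of_nonneg_right h4 (by positivity)
    linarith
  calc ⟪ζ + δ • η₀, y⟫ ≤ N.dual (ζ + δ • η₀) * N y := N.inner_le _ _
    _ ≤ (1 + ε * δ ^ 2) * N y := mul_le_mul_of_nonneg_right hdual (N.nonneg _)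

/-- The line picture of a chord: geometry of the two end points. -/
theorem G6_chord_line (R : RadIso N N') {a b ξ ζ : E} (c : ChordG R a b ξ ζ) :
    0 < N (b - a) ∧ N (cu N a b) = 1 ∧ cu N a b ≠ 0 ∧ b = a + N (b - a) • cu N a b ∧
      ⟪grad N a, cu N a b⟫ < 0 ∧ 0 < ⟪grad N b, cu N a b⟫ ∧
      hits N (cu N a b) (a + (N (b - a) / 2) • cu N a b) ∧
      entryPt N (cu N a b) (a + (N (b - a) / 2) • cu N a b) = a ∧
      exitPt N (cu N a b) (a + (N (b - a) / 2) • cu N a b) = b ∧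
      tm N (cu N a b) (a + (N (b - a) / 2) • cu N a b) = N (b - a) / 2 ∧
      tp N (cu N a b) (a + (N (b - a) / 2) • cu N a b) = N (b - a) / 2 := by
  have hba : b - a ≠ 0 := sub_ne_zero.mpr c.hab.symm
  have hL : 0 < N (b - a) := N.pos _ hba
  set L := N (b - a) with hLdef
  set u := cu N a b with hu
  have hu1 : N u = 1 := by
    rw [hu, cu, N.smul_eq, abs_of_pos (inv_pos.mpr hL), ← hLdef, inv_mul_cancel₀ hL.ne']
  have hu0 : u ≠ 0 := by
    intro h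
    rw [h, NF.map_zero'] at hu1
    norm_num at hu1
  have hb : b = a + L • u := by
    rw [hu, cu, smul_smul, ← hLdef, mul_inv_cancel₀ hL.ne', one_smul]
    abel
  obtain ⟨ha0, -, -, hda, -, -, -⟩ := c.ga
  obtain ⟨hb0, -, -, hdb, -, -, -⟩ := c.gb
  obtain ⟨-, hφa1, hφa2⟩ := N.grad_spec ha0 hda
  obtain ⟨-, hφb1, hφb2⟩ := N.grad_spec hb0 hdb
  rw [c.ha] at hφa2
  rw [c.hb] at hφb2
  have h1 : ⟪grad N a, b⟫ < 1 := c.h1
  have h2 : ⟪grad N b, a⟫ < 1 := c.h2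
  have hua : ⟪grad N a, u⟫ < 0 := by
    rw [hu, cu, inner_smul_right, inner_sub_right, hφa2]
    apply mul_neg_of_pos_of_neg (inv_pos.mpr hL)
    linarith
  have hub : 0 < ⟪grad N b, u⟫ := by
    rw [hu, cu, inner_smul_right, inner_sub_right, hφb2]
    apply mul_pos (inv_pos.mpr hL)
    linarith
  obtain ⟨hha, htma, hea⟩ := entry_of_grad_neg N c.ha hda hua
  have hub' : ⟪grad N b, -u⟫ < 0 := by
    rw [inner_neg_right]; linarith
  obtain ⟨-, htmb, heb⟩ := entry_of_grad_neg N c.hb hdb hub'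
  rw [tm_neg] at htmb
  rw [entryPt_neg] at heb
  have hz : hits N u (a + (L / 2) • u) := (hits_add N u a (L / 2)).mpr hha
  have hbz : b = (a + (L / 2) • u) + (L / 2) • u := by
    rw [hb, add_assoc, ← add_smul]
    congr 2
    ring
  have hexit : exitPt N u (a + (L / 2) • u) = b := by
    have := exitPt_add N hu0 hz (L / 2)
    rw [← hbz, heb] at this
    exact this.symm
  have htp : tp N u (a + (L / 2) • u) = L / 2 := by
    have := tp_add N hu0 hz (L / 2)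
    rw [← hbz, htmb] at this
    linarith
  have hentry : entryPt N u (a + (L / 2) • u) = a := by
    rw [entryPt_add N hu0 hha, hea]
  have htm : tm N u (a + (L / 2) • u) = L / 2 := by
    rw [tm_add N hu0 hha, htma, zero_add]
  exact ⟨hL, hu1, hu0, hb, hua, hub, hz, hentry, hexit, htm, htp⟩

/-- The family of chords parallel to a given chord, near the chord: second order expansions. -/
theorem G6_chord_family (R : RadIso N N') {a b ξ ζ : E} (c : ChordG R a b ξ ζ)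
    (e : E) :
    ∃ (V : ℝ → E) (L : ℝ → ℝ) (Ld C δ : ℝ), 0 < δ ∧ 0 ≤ C ∧
      (∀ s : ℝ, |s| < δ → ‖V s - (R.F b - R.F a) -
        s • (fderiv ℝ R.F b (chordP (grad N b) (cu N a b) e) -
          fderiv ℝ R.F a (chordP (grad N a) (cu N a b) e))‖ ≤ C * s ^ 2) ∧
      (∀ s : ℝ, |s| < δ → |L s - N (b - a) - s * Ld| ≤ C * s ^ 2) ∧
      (∀ s : ℝ, |s| < δ → N' (V s) = L s) := by
  obtain ⟨hL, hu1, hu0, hb, hua, hub, hz, hentry, hexit, htm, htp⟩ := G6_chord_line R c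
  obtain ⟨ha0, -, -, hda, -, hUa, -⟩ := c.ga
  obtain ⟨hb0, -, -, hdb, -, hUb, -⟩ := c.gb
  obtain ⟨Ca, δa, hδa, hsa⟩ := second_order_G R c.ga c.ha
  obtain ⟨Cb, δb, hδb, hsb⟩ := second_order_G R c.gb c.hb
  generalize hL₀ : N (b - a) = L₀ at *
  generalize hu : cu N a b = u at *
  generalize hz₀ : a + (L₀ / 2) • u = z₀ at *
  -- first order control of the two end times
  obtain ⟨C₁, δ₁, hδ₁, h₁⟩ := tm_second N hu0 hz (by rw [hentry]; exact hda) (by rw [hentry]; exact hUa)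
  obtain ⟨C₂, δ₂, hδ₂, h₂⟩ := tp_second N hu0 hz (by rw [hexit]; exact hdb) (by rw [hexit]; exact hUb)
  rw [hentry, htm] at h₁
  rw [hexit, htp] at h₂
  have haz : a = z₀ - (L₀ / 2) • u := by rw [← hz₀]; module
  have hbz : b = z₀ + (L₀ / 2) • u := by rw [← hz₀, hb]; module
  have hz₀ball : N z₀ < 1 := by
    have h3 := (line_iff N hu0 hz 0).mpr (by rw [htm, htp]; constructor <;> linarith)
    simpa using h3
  have hNe : 0 < N e + 1 := by have := N.nonneg e; linarith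
  have hd₁0 : 0 < (1 - N z₀) / (N e + 1) := div_pos (by linarith) hNe
  obtain ⟨δ₃, hδ₃0, hs_ball, hs_1, hs_2⟩ : ∃ δ₃ : ℝ, 0 < δ₃ ∧ (∀ s : ℝ, |s| < δ₃ → N (z₀ + s • e) < 1) ∧
      (∀ s : ℝ, |s| < δ₃ → ‖s • e‖ < δ₁) ∧ (∀ s : ℝ, |s| < δ₃ → ‖s • e‖ < δ₂) := by
    refine ⟨min (min ((1 - N z₀) / (N e + 1)) (δ₁ / (‖e‖ + 1))) (δ₂ / (‖e‖ + 1)), by positivity,
      ?_, ?_, ?_⟩
    · intro s hs
      have h1 : |s| < (1 - N z₀) / (N e + 1) :=
        lt_of_lt_of_le hs ((min_le_left _ _).trans (min_le_left _ _))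
      have h2 : |s| * (N e + 1) < 1 - N z₀ := (lt_div_iff₀ hNe).mp h1
      have h3 := N.add_le z₀ (s • e)
      rw [N.smul_eq] at h3
      nlinarith [abs_nonneg s]
    · intro s hs
      have h1 : |s| < δ₁ / (‖e‖ + 1) :=
        lt_of_lt_of_le hs ((min_le_left _ _).trans (min_le_right _ _))
      have h2 : |s| * (‖e‖ + 1) < δ₁ := (lt_div_iff₀ (by positivity)).mp h1
      rw [norm_smul, Real.norm_eq_abs]
      nlinarith [abs_nonneg s]
    · intro s hs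
      have h1 : |s| < δ₂ / (‖e‖ + 1) := lt_of_lt_of_le hs (min_le_right _ _)
      have h2 : |s| * (‖e‖ + 1) < δ₂ := (lt_div_iff₀ (by positivity)).mp h1
      rw [norm_smul, Real.norm_eq_abs]
      nlinarith [abs_nonneg s]
  have hs_hits : ∀ s : ℝ, |s| < δ₃ → hits N u (z₀ + s • e) := fun s hs =>
    hits_of_mem_ball N (hs_ball s hs)
  refine family_core R (z₀ := z₀) (e := e) (u := u) (L₀ := L₀)
    (α := (⟪grad N a, u⟫)⁻¹ * ⟪grad N a, e⟫) (β := (⟪grad N b, u⟫)⁻¹ * ⟪grad N b, e⟫)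
    (K₁ := |C₁| * ‖e‖ ^ 2) (K₂ := |C₂| * ‖e‖ ^ 2)
    (ta := fun s => tm N u (z₀ + s • e)) (tb := fun s => tp N u (z₀ + s • e))
    haz hbz hu1 hδ₃0 (by positivity) (by positivity) rfl rfl hδa hδb hsa hsb ?_ ?_ ?_ ?_ ?_
  · intro s hs
    exact norm_entryPt N hu0 (hs_hits s hs)
  · intro s hs
    exact norm_exitPt N hu0 (hs_hits s hs)
  · intro s hs
    exact len_pos N hu0 (hs_hits s hs)
  · intro s hs
    have hn : ‖s • e‖ = |s| * ‖e‖ := by rw [norm_smul, Real.norm_eq_abs]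
    have := h₁ (s • e) (hs_1 s hs)
    have he : ⟪grad N a, s • e⟫ / ⟪grad N a, u⟫ = s * ((⟪grad N a, u⟫)⁻¹ * ⟪grad N a, e⟫) := by
      rw [inner_smul_right]
      field_simp
    rw [he, hn] at this
    refine this.trans ?_
    calc C₁ * (|s| * ‖e‖) ^ 2 ≤ |C₁| * (|s| * ‖e‖) ^ 2 :=
          mul_le_mul_of_nonneg_right (le_abs_self _) (by positivity)
      _ = |C₁| * ‖e‖ ^ 2 * s ^ 2 := by rw [mul_pow, sq_abs]; ring
  · intro s hs
    have hn : ‖s • e‖ = |s| * ‖e‖ := by rw [norm_smul, Real.norm_eq_abs]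
    have := h₂ (s • e) (hs_2 s hs)
    have he : ⟪grad N b, s • e⟫ / ⟪grad N b, u⟫ = s * ((⟪grad N b, u⟫)⁻¹ * ⟪grad N b, e⟫) := by
      rw [inner_smul_right]
      field_simp
    rw [he, hn] at this
    refine this.trans ?_
    calc C₂ * (|s| * ‖e‖) ^ 2 ≤ |C₂| * (|s| * ‖e‖) ^ 2 :=
          mul_le_mul_of_nonneg_right (le_abs_self _) (by positivity)
      _ = |C₂| * ‖e‖ ^ 2 * s ^ 2 := by rw [mul_pow, sq_abs]; ring

/-- Lemma S, no strict convexity. -/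
theorem lemma_S_G (R : RadIso N N') {a b ξ ζ : E} (c : ChordG R a b ξ ζ)
    {Q' : E →L[ℝ] E} (hQ' : AlexData N' ζ Q') {η : E} (hη : Q' η = 0) :
    ContinuousLinearMap.adjoint (M1 R a b ξ ζ) η = ContinuousLinearMap.adjoint (M0 R a b ξ ζ) η := by
  obtain ⟨hL, hu1, hu0, hb, hua, hub, -⟩ := G6_chord_line R c
  have hζ0 : ζ ≠ 0 := by
    intro h
    have := c.hζ
    rw [h, NF.map_zero'] at this
    norm_num at this
  set L := N (b - a) with hLdef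
  set u := cu N a b with hu
  set u' := cu' R a b with hu'
  have hiso : N' (R.F b - R.F a) = L := R.iso _ _ c.hb c.ha
  have hu'1 : N' u' = 1 := by
    rw [hu', cu', N'.smul_eq, abs_of_pos (inv_pos.mpr hL), hiso, inv_mul_cancel₀ hL.ne']
  have hζu' : ⟪ζ, u'⟫ = 1 := by
    rw [hu', cu', inner_smul_right, c.hζu, ← hLdef, inv_mul_cancel₀ hL.ne']
  have huhat : u' = uhat N' ζ := uhat_G_unique N' hζ0 hQ'.1 hu'1 (by rw [hζu', c.hζ])
  have hQζ : Q' ζ = 0 := (AlexData_kill hζ0 hQ').1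
  set η₀ : E := η - ⟪η, u'⟫ • ζ with hη₀
  have hQη₀ : Q' η₀ = 0 := by
    rw [hη₀, map_sub, map_smul, hη, hQζ, smul_zero, sub_zero]
  have hη₀u' : ⟪η₀, u'⟫ = 0 := by
    rw [hη₀, inner_sub_left, inner_smul_left, hζu']
    simp
  have hV₀ : R.F b - R.F a = L • u' := by
    rw [hu', cu', smul_smul, ← hLdef, mul_inv_cancel₀ hL.ne', one_smul]
  have hdual := fun (ε : ℝ) (hε : 0 < ε) =>
    G6_dual_second c.hζ hQ' hQη₀ (by rw [← huhat]; exact hη₀u') hε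
  -- the key inequality in all directions
  have hkey : ∀ e : E, ⟪η₀, fderiv ℝ R.F b (chordP (grad N b) u e) -
      fderiv ℝ R.F a (chordP (grad N a) u e)⟫ ≤ 0 := by
    intro e
    obtain ⟨V, Ls, Ld, C, δ, hδ, hC, hV, hLs, hNV⟩ := G6_chord_family R c e
    refine core_ineq N' hδ hC hV hLs hNV c.hζ ?_ ?_ hdual
    · exact c.hζu
    · rw [hV₀, inner_smul_right, hη₀u', mul_zero]
  have hkey0 : ∀ e : E, ⟪η₀, fderiv ℝ R.F b (chordP (grad N b) u e) -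
      fderiv ℝ R.F a (chordP (grad N a) u e)⟫ = 0 := by
    intro e
    apply le_antisymm (hkey e)
    have := hkey (-e)
    simp only [chordP_neg, map_neg, inner_sub_right, inner_neg_right] at this ⊢
    linarith
  -- the algebra
  apply ext_inner_right ℝ
  intro h
  rw [ContinuousLinearMap.adjoint_inner_left, ContinuousLinearMap.adjoint_inner_left]
  have hM : ∀ A : E →L[ℝ] E, ∀ φ : E, ⟪η, Mop A φ u u' ξ ζ h⟫ =
      ⟪η₀, A (chordP φ u h)⟫ + ⟪ξ, h⟫ * ⟪η, u'⟫ := by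
    intro A φ
    rw [Mop_apply', hη₀, inner_add_right, inner_sub_right, inner_sub_left, inner_smul_right,
      inner_smul_right, inner_smul_left]
    simp only [chordP, conj_trivial]
    ring
  have h1 : ⟪η, M1 R a b ξ ζ h⟫ = ⟪η₀, fderiv ℝ R.F b (chordP (grad N b) u h)⟫ + ⟪ξ, h⟫ * ⟪η, u'⟫ :=
    hM _ _
  have h0 : ⟪η, M0 R a b ξ ζ h⟫ = ⟪η₀, fderiv ℝ R.F a (chordP (grad N a) u h)⟫ + ⟪ξ, h⟫ * ⟪η, u'⟫ :=
    hM _ _
  rw [h1, h0]
  have := hkey0 h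
  rw [inner_sub_right] at this
  linarith

end Vale.Agent.Lib.P084T
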