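import Vale.Agent.Lib.P084G.G5
import Vale.Agent.Lib.P084G.G6

set_option linter.unusedSectionVars false

/-! # P084G part G7: general finite dimensional Tingley. See `notes/P084G_blueprint.md`. -/

open MeasureTheory Set Filter Topology
open scoped RealInnerProductSpace ENNReal NNReal

namespace Vale.Agent.Lib.P084T

variable {E : Type*} [NormedAddCommGroup E] [InnerProductSpace ℝ E] [FiniteDimensional ℝ E]
  [CompleteSpace E] [MeasurableSpace E] [BorelSpace E]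
variable {N N' : NF E}

/-- The data of a chord, at either end point. -/
private lemma g7_chord_u (R : RadIso N N') {a b ξ ζ : E} (c : Chord R a b ξ ζ) :
    0 < N (b - a) ∧ ⟪ξ, cu N a b⟫ = 1 ∧ ⟪ζ, cu' R a b⟫ = 1 := by
  have hne : b - a ≠ 0 := sub_ne_zero.mpr c.hab.symm
  have hL : 0 < N (b - a) := N.pos _ hne
  refine ⟨hL, ?_, ?_⟩
  · unfold cu
    rw [inner_smul_right, c.hξu, inv_mul_cancel₀ hL.ne']
  · unfold cu'
    rw [inner_smul_right, c.hζu, inv_mul_cancel₀ hL.ne']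

theorem det_M0_G (R : RadIso N N') {a b ξ ζ : E} (c : ChordG R a b ξ ζ) :
    |(M0 R a b ξ ζ).det| = ell R a b ∧ 0 < ell R a b := by
  obtain ⟨hL, hξ, hζ⟩ := g7_chord_u R c.toChord
  have hga := c.ga
  have ha0 : a ≠ 0 := hga.1
  obtain ⟨-, hφd, hφa⟩ := N.grad_spec ha0 hga.2.2.2.1
  have hFa : N' (R.F a) = 1 := by rw [R.norm_F, c.ha]
  have hFb : N' (R.F b) = 1 := by rw [R.norm_F, c.hb]
  have hFa0 : R.F a ≠ 0 := by
    intro h
    rw [h, N'.map_zero'] at hFa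
    exact zero_ne_one hFa
  have hFab : R.F a ≠ R.F b := by
    intro h
    apply c.hab
    rw [← R.G_F a, h, R.G_F]
  obtain ⟨-, hφd', hφa'⟩ := N'.grad_spec hFa0 hga.2.2.2.2.1
  have hb1 : ⟪grad N a, b⟫ < 1 := c.h1
  have hb1' : ⟪grad N' (R.F a), R.F b⟫ < 1 := c.h3
  have hu : ⟪grad N a, cu N a b⟫ = (N (b - a))⁻¹ * (⟪grad N a, b⟫ - 1) := by
    unfold cu
    rw [inner_smul_right, inner_sub_right, hφa, c.ha]
  have hu' : ⟪grad N' (R.F a), cu' R a b⟫ = (N (b - a))⁻¹ * (⟪grad N' (R.F a), R.F b⟫ - 1) := by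
    unfold cu'
    rw [inner_smul_right, inner_sub_right, hφa', hFa]
  have huneg : ⟪grad N a, cu N a b⟫ ≠ 0 := by
    rw [hu]
    have hne1 : ⟪grad N a, b⟫ - 1 ≠ 0 := by
      intro h; linarith
    exact mul_ne_zero (inv_ne_zero hL.ne') hne1
  have key := det_Mop (A := fderiv ℝ R.F a) (a := a) (a' := R.F a) (φ := grad N a)
    (φ' := grad N' (R.F a)) (u := cu N a b) (u' := cu' R a b) (ξ := ξ) (ζ := ζ)
    (R.good_apply_self hga) (by rw [hφa, c.ha]) (R.good_grad hga) hξ hζ huneg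
  have hpos : 0 < ell R a b := by
    unfold ell
    have h1 : 0 < |(fderiv ℝ R.F a).det| := abs_pos.mpr (R.det_ne_zero hga)
    exact div_pos (mul_pos h1 (by linarith)) (by linarith)
  refine ⟨?_, hpos⟩
  unfold M0 ell
  rw [key, hu, hu', abs_div, abs_mul, abs_mul, abs_mul]
  rw [abs_of_neg (by linarith : ⟪grad N' (R.F a), R.F b⟫ - 1 < 0),
    abs_of_neg (by linarith : ⟪grad N a, b⟫ - 1 < 0), neg_sub, neg_sub]
  have h2 : |(N (b - a))⁻¹| ≠ 0 := abs_ne_zero.mpr (inv_ne_zero hL.ne')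
  have h3 : (1 - ⟪grad N a, b⟫) ≠ 0 := by linarith
  field_simp

theorem det_M1_G (R : RadIso N N') {a b ξ ζ : E} (c : ChordG R a b ξ ζ) :
    |(M1 R a b ξ ζ).det| = ell R b a ∧ 0 < ell R b a := by
  obtain ⟨hL, hξ, hζ⟩ := g7_chord_u R c.toChord
  have hgb := c.gb
  have hb0 : b ≠ 0 := hgb.1
  obtain ⟨-, hφd, hφb⟩ := N.grad_spec hb0 hgb.2.2.2.1
  have hFa : N' (R.F a) = 1 := by rw [R.norm_F, c.ha]
  have hFb : N' (R.F b) = 1 := by rw [R.norm_F, c.hb]
  have hFb0 : R.F b ≠ 0 := by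
    intro h
    rw [h, N'.map_zero'] at hFb
    exact zero_ne_one hFb
  have hFab : R.F b ≠ R.F a := by
    intro h
    apply c.hab
    rw [← R.G_F a, ← h, R.G_F]
  obtain ⟨-, hφd', hφb'⟩ := N'.grad_spec hFb0 hgb.2.2.2.2.1
  have ha1 : ⟪grad N b, a⟫ < 1 := c.h2
  have ha1' : ⟪grad N' (R.F b), R.F a⟫ < 1 := c.h4
  have hu : ⟪grad N b, cu N a b⟫ = (N (b - a))⁻¹ * (1 - ⟪grad N b, a⟫) := by
    unfold cu
    rw [inner_smul_right, inner_sub_right, hφb, c.hb]
  have hu' : ⟪grad N' (R.F b), cu' R a b⟫ = (N (b - a))⁻¹ * (1 - ⟪grad N' (R.F b), R.F a⟫) := by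
    unfold cu'
    rw [inner_smul_right, inner_sub_right, hφb', hFb]
  have huneg : ⟪grad N b, cu N a b⟫ ≠ 0 := by
    rw [hu]
    have hne1 : 1 - ⟪grad N b, a⟫ ≠ 0 := by
      intro h; linarith
    exact mul_ne_zero (inv_ne_zero hL.ne') hne1
  have key := det_Mop (A := fderiv ℝ R.F b) (a := b) (a' := R.F b) (φ := grad N b)
    (φ' := grad N' (R.F b)) (u := cu N a b) (u' := cu' R a b) (ξ := ξ) (ζ := ζ)
    (R.good_apply_self hgb) (by rw [hφb, c.hb]) (R.good_grad hgb) hξ hζ huneg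
  have hpos : 0 < ell R b a := by
    unfold ell
    have h1 : 0 < |(fderiv ℝ R.F b).det| := abs_pos.mpr (R.det_ne_zero hgb)
    exact div_pos (mul_pos h1 (by linarith)) (by linarith)
  refine ⟨?_, hpos⟩
  unfold M1 ell
  rw [key, hu, hu', abs_div, abs_mul, abs_mul, abs_mul]
  rw [abs_of_pos (by linarith : 0 < 1 - ⟪grad N' (R.F b), R.F a⟫),
    abs_of_pos (by linarith : 0 < 1 - ⟪grad N b, a⟫)]
  have h2 : |(N (b - a))⁻¹| ≠ 0 := abs_ne_zero.mpr (inv_ne_zero hL.ne')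
  have h3 : (1 - ⟪grad N b, a⟫) ≠ 0 := by linarith
  field_simp

/-- The pointwise inequality on a typical chord, no strict convexity. -/
theorem pointwise_G (R : RadIso N N') {a b ξ ζ : E} (c : ChordG R a b ξ ζ)
    (hA : AlexG N ξ) (hA' : AlexG N' ζ) {τ : ℝ} (hτ : τ ∈ Icc (0 : ℝ) 1) :
    (ell R a b) ^ (1 - τ) * (ell R b a) ^ τ ≤
      |((1 - τ) • M0 R a b ξ ζ + τ • M1 R a b ξ ζ).det| := by
  obtain ⟨Q, hQdata⟩ := hA
  obtain ⟨Q', hQ'data⟩ := hA'
  have hQs := hQdata.2.1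
  have hQ0 := hQdata.2.2.1
  have hQ's := hQ'data.2.1
  have hQ'0 := hQ'data.2.2.1
  obtain ⟨hd0, hr0⟩ := det_M0_G R c
  obtain ⟨hd1, hr1⟩ := det_M1_G R c
  set A0 := M0 R a b ξ ζ with hA0
  set A1 := M1 R a b ξ ζ with hA1
  have hdet0 : A0.det ≠ 0 := by
    intro h
    rw [h, abs_zero] at hd0
    exact hr0.ne hd0
  have hdet1 : A1.det ≠ 0 := by
    intro h
    rw [h, abs_zero] at hd1
    exact hr1.ne hd1
  -- the inverse of `A0`
  let e0 : E ≃L[ℝ] E := (LinearMap.equivOfDetNeZero (A0 : E →ₗ[ℝ] E) hdet0).toContinuousLinearEquiv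
  have he0 : ∀ x, e0 x = A0 x := fun x => rfl
  let Ainv : E →L[ℝ] E := (e0.symm : E →L[ℝ] E)
  have hinv1 : A0.comp Ainv = ContinuousLinearMap.id ℝ E := by
    ext x
    show A0 (e0.symm x) = x
    rw [← he0]
    exact e0.apply_symm_apply x
  have hinv2 : Ainv.comp A0 = ContinuousLinearMap.id ℝ E := by
    ext x
    show e0.symm (A0 x) = x
    rw [← he0]
    exact e0.symm_apply_apply x
  let P : E →L[ℝ] E := A1.comp Ainv
  let S : E →L[ℝ] E := A0.comp (Q.comp (ContinuousLinearMap.adjoint A0))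
  have hdet_comp : ∀ X Y : E →L[ℝ] E, (X.comp Y).det = X.det * Y.det := fun X Y =>
    LinearMap.det_comp (X : E →ₗ[ℝ] E) (Y : E →ₗ[ℝ] E)
  have hdetinv : Ainv.det * A0.det = 1 := by
    rw [← hdet_comp, hinv2]
    exact LinearMap.det_id
  have hdetP : P.det * A0.det = A1.det := by
    have : P.det = A1.det * Ainv.det := hdet_comp _ _
    rw [this, mul_assoc, hdetinv, mul_one]
  have hPne : P.det ≠ 0 := by
    intro h
    rw [h, zero_mul] at hdetP
    exact hdet1 hdetP.symm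
  have hSv : ∀ v w, ⟪S v, w⟫ = ⟪Q (ContinuousLinearMap.adjoint A0 v), ContinuousLinearMap.adjoint A0 w⟫ := by
    intro v w
    show ⟪A0 (Q (ContinuousLinearMap.adjoint A0 v)), w⟫ = _
    rw [← ContinuousLinearMap.adjoint_inner_right]
  have hSsym : ∀ v w, ⟪S v, w⟫ = ⟪v, S w⟫ := by
    intro v w
    have h1 : ⟪v, S w⟫ = ⟪S w, v⟫ := real_inner_comm _ _
    rw [h1, hSv, hSv, hQs]
    exact real_inner_comm _ _
  have hS0 : ∀ v, 0 ≤ ⟪S v, v⟫ := by
    intro v
    rw [hSv]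
    exact hQ0 _
  have hPS : Q' = P.comp S := by
    have h1 := Q_relation_G R c hQdata hQ'data
    rw [← hA0, ← hA1] at h1
    rw [h1]
    ext x
    show A1 (Q (ContinuousLinearMap.adjoint A0 x)) = A1 (Ainv (A0 (Q (ContinuousLinearMap.adjoint A0 x))))
    have h2 : Ainv (A0 (Q (ContinuousLinearMap.adjoint A0 x))) = Q (ContinuousLinearMap.adjoint A0 x) := by
      have := congrArg (fun f : E →L[ℝ] E => f (Q (ContinuousLinearMap.adjoint A0 x))) hinv2
      simpa using this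
    rw [h2]
  have hker : ∀ η, Q' η = 0 → ContinuousLinearMap.adjoint P η = η := by
    intro η hη
    have h1 := lemma_S_G R c hQ'data hη
    rw [← hA0, ← hA1] at h1
    refine ext_inner_right ℝ fun w => ?_
    rw [ContinuousLinearMap.adjoint_inner_left]
    show ⟪η, A1 (Ainv w)⟫ = ⟪η, w⟫
    rw [← ContinuousLinearMap.adjoint_inner_left, h1, ContinuousLinearMap.adjoint_inner_left]
    congr 1
    have := congrArg (fun f : E →L[ℝ] E => f w) hinv1
    simpa using this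
  have key := la_spectrum hSsym hS0 hQ's hQ'0 hPS hPne hker hτ
  have hfact : (1 - τ) • A0 + τ • A1 = ((1 - τ) • ContinuousLinearMap.id ℝ E + τ • P).comp A0 := by
    ext x
    have h2 : P (A0 x) = A1 x := by
      show A1 (Ainv (A0 x)) = A1 x
      have := congrArg (fun f : E →L[ℝ] E => f x) hinv2
      have h3 : Ainv (A0 x) = x := by simpa using this
      rw [h3]
    simp [h2]
  rw [hfact, hdet_comp, abs_mul]
  have habsP : |P.det| * ell R a b = ell R b a := by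
    rw [← hd0, ← abs_mul, hdetP, hd1]
  have hP0 : 0 < |P.det| := abs_pos.mpr hPne
  have hτ1 : 0 ≤ τ := hτ.1
  calc ell R a b ^ (1 - τ) * ell R b a ^ τ
      = |P.det| ^ τ * ell R a b := by
        rw [← habsP, Real.mul_rpow hP0.le hr0.le, Real.rpow_sub hr0, Real.rpow_one]
        field_simp
    _ ≤ |((1 - τ) • ContinuousLinearMap.id ℝ E + τ • P).det| * |A0.det| := by
        rw [hd0]
        exact mul_le_mul_of_nonneg_right key hr0.le

end Vale.Agent.Lib.P084T
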