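import Vale.Agent.Lib.P084G.L7
import Vale.Agent.Lib.P084_helper82.Bridge

set_option linter.unusedSectionVars false

/-! # P084G part K2: the wrapper. See `notes/P084G_blueprint.md`. -/

open Metric

namespace Vale.Agent.Lib.P084T

open Vale.Agent.Lib.P084_helper82 in
/-- Equal dimensions from bi-Lipschitz radial maps. -/
private theorem k2_finrank_le {X Y : Type*} [NormedAddCommGroup X] [NormedSpace ℝ X]
    [FiniteDimensional ℝ X] [NormedAddCommGroup Y] [NormedSpace ℝ Y] [FiniteDimensional ℝ Y]
    {G : Y → X} {K : NNReal} (hG : LipschitzWith K G) (hs : Function.Surjective G) :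
    Module.finrank ℝ X ≤ Module.finrank ℝ Y := by
  have h1 := hG.dimH_image_le Set.univ
  rw [Set.image_univ, hs.range_eq, Real.dimH_univ_eq_finrank, Real.dimH_univ_eq_finrank] at h1
  exact_mod_cast h1

/-- The norm function on the model space transported from a normed space. -/
private noncomputable def k2_nfOf {X E : Type*} [NormedAddCommGroup X] [NormedSpace ℝ X]
    [NormedAddCommGroup E] [InnerProductSpace ℝ E] (e : E ≃L[ℝ] X) : NF E where
  toFun z := ‖e z‖
  add_le x y := by
    rw [map_add]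
    exact norm_add_le _ _
  smul_eq c x := by
    rw [map_smul, norm_smul, Real.norm_eq_abs]
  pos x hx := by
    rw [norm_pos_iff]
    intro h
    exact hx (by simpa using h)

private theorem k2_k2_nfOf_apply {X E : Type*} [NormedAddCommGroup X] [NormedSpace ℝ X]
    [NormedAddCommGroup E] [InnerProductSpace ℝ E] (e : E ≃L[ℝ] X) (z : E) :
    (k2_nfOf e) z = ‖e z‖ := rfl

open Vale.Agent.Lib.P084_helper82 in
private theorem k2_norm {X Y : Type*} [NormedAddCommGroup X] [NormedSpace ℝ X]
    [NormedAddCommGroup Y] [NormedSpace ℝ Y] {f : X → Y} {g : Y → X} (h : SphIso f g) (z : X) :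
    ‖radial f z‖ = ‖z‖ := by
  by_cases hz : z = 0
  · simp [hz, radial]
  · rw [radial, norm_smul, h.norm_f _ (unit_of_ne hz)]
    simp

open Vale.Agent.Lib.P084_helper82 in
private theorem k2_hom {X Y : Type*} [NormedAddCommGroup X] [NormedSpace ℝ X]
    [NormedAddCommGroup Y] [NormedSpace ℝ Y] (f : X → Y) (t : ℝ) (z : X) (ht : 0 < t) :
    radial f (t • z) = t • radial f z := by
  by_cases hz : z = 0
  · simp [hz, radial]
  · have hn : ‖z‖ ≠ 0 := norm_ne_zero_iff.mpr hz
    have e : ‖t • z‖ = t * ‖z‖ := by rw [norm_smul, Real.norm_eq_abs, abs_of_pos ht]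
    simp only [radial]
    rw [e, smul_smul, mul_inv_rev, mul_assoc, inv_mul_cancel₀ ht.ne', mul_one, smul_smul]

open Vale.Agent.Lib.P084_helper82 in
private theorem k2_iso {X Y : Type*} [NormedAddCommGroup X] [NormedSpace ℝ X]
    [NormedAddCommGroup Y] [NormedSpace ℝ Y] {f : X → Y} {g : Y → X} (h : SphIso f g) (z1 z2 : X) :
    ‖‖z2‖ • radial f z1 - ‖z1‖ • radial f z2‖ = ‖‖z2‖ • z1 - ‖z1‖ • z2‖ := by
  by_cases hz1 : z1 = 0
  · simp [hz1, radial]
  by_cases hz2 : z2 = 0
  · simp [hz2, radial]
  have hn1 : 0 < ‖z1‖ := norm_pos_iff.mpr hz1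
  have hn2 : 0 < ‖z2‖ := norm_pos_iff.mpr hz2
  have e1 : ‖z2‖ • radial f z1 - ‖z1‖ • radial f z2 =
      (‖z1‖ * ‖z2‖) • (f (‖z1‖⁻¹ • z1) - f (‖z2‖⁻¹ • z2)) := by
    simp only [radial, smul_sub, smul_smul]
    rw [mul_comm ‖z2‖ ‖z1‖]
  have e2 : ‖z2‖ • z1 - ‖z1‖ • z2 = (‖z1‖ * ‖z2‖) • (‖z1‖⁻¹ • z1 - ‖z2‖⁻¹ • z2) := by
    simp only [smul_sub, smul_smul]
    congr 2
    · field_simp
    · field_simp
  rw [e1, e2, norm_smul, norm_smul, h.iso _ _ (unit_of_ne hz1) (unit_of_ne hz2)]

open Vale.Agent.Lib.P084_helper82 in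
private theorem k2_lip {X Y : Type*} [NormedAddCommGroup X] [NormedSpace ℝ X]
    [NormedAddCommGroup Y] [NormedSpace ℝ Y] {f : X → Y} {g : Y → X} (h : SphIso f g) :
    LipschitzWith 3 (radial f) := by
  refine LipschitzWith.of_dist_le_mul fun z1 z2 => ?_
  simp only [dist_eq_norm]
  by_cases hz : z2 = 0
  · have h0 : radial f z2 = 0 := by simp [hz, radial]
    rw [h0, hz, sub_zero, sub_zero, k2_norm h]
    have : 0 ≤ ‖z1‖ := norm_nonneg _
    simp only [NNReal.coe_ofNat]
    linarith
  · have hn : 0 < ‖z2‖ := norm_pos_iff.mpr hz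
    have e1 : ‖z2‖ • (radial f z1 - radial f z2) =
        (‖z2‖ • radial f z1 - ‖z1‖ • radial f z2) + (‖z1‖ - ‖z2‖) • radial f z2 := by
      simp only [smul_sub, sub_smul]; abel
    have e2 : ‖z2‖ • z1 - ‖z1‖ • z2 = ‖z2‖ • (z1 - z2) + (‖z2‖ - ‖z1‖) • z2 := by
      simp only [smul_sub, sub_smul]; abel
    have hdiff : |‖z1‖ - ‖z2‖| ≤ ‖z1 - z2‖ := abs_norm_sub_norm_le _ _
    have h1 : ‖‖z2‖ • z1 - ‖z1‖ • z2‖ ≤ 2 * (‖z2‖ * ‖z1 - z2‖) := by
      rw [e2]
      refine (norm_add_le _ _).trans ?_
      rw [norm_smul, norm_smul, Real.norm_eq_abs, Real.norm_eq_abs, abs_of_pos hn, abs_sub_comm]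
      nlinarith [norm_nonneg z2]
    have h2 : ‖z2‖ * ‖radial f z1 - radial f z2‖ ≤ ‖z2‖ * (3 * ‖z1 - z2‖) := by
      have h3 : ‖‖z2‖ • (radial f z1 - radial f z2)‖ = ‖z2‖ * ‖radial f z1 - radial f z2‖ := by
        rw [norm_smul, Real.norm_eq_abs, abs_of_pos hn]
      rw [← h3, e1]
      refine (norm_add_le _ _).trans ?_
      rw [k2_iso h, norm_smul, k2_norm h, Real.norm_eq_abs]
      nlinarith [norm_nonneg z2]
    simp only [NNReal.coe_ofNat]
    exact le_of_mul_le_mul_left h2 hn

/-- Tingley's problem for finite dimensional spaces. -/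
theorem main_general {X Y : Type*} [NormedAddCommGroup X] [NormedSpace ℝ X] [FiniteDimensional ℝ X]
    [NormedAddCommGroup Y] [NormedSpace ℝ Y]
    (f : sphere (0 : X) 1 → sphere (0 : Y) 1)
    (hiso : ∀ x y, ‖(f x : Y) - (f y : Y)‖ = ‖(x : X) - (y : X)‖)
    (hsurj : Function.Surjective f) :
    ∃ L : X ≃ₗᵢ[ℝ] Y, ∀ x, (f x : Y) = L x := by
  classical
  open Vale.Agent.Lib.P084_helper82 in
  by_cases hnt : Nontrivial X
  · have hY : FiniteDimensional ℝ Y := finiteDimensional_target f hiso hsurj
    obtain ⟨f', g', hS, hf'⟩ := exists_sphIso f hiso hsurj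
    have hGF : ∀ z, radial g' (radial f' z) = z := radial_left_inverse hS
    have hFG : ∀ y, radial f' (radial g' y) = y := radial_left_inverse hS.symm
    have hdim : Module.finrank ℝ X = Module.finrank ℝ Y :=
      le_antisymm
        (k2_finrank_le (k2_lip hS.symm) (fun z => ⟨_, hGF z⟩))
        (k2_finrank_le (k2_lip hS) (fun y => ⟨_, hFG y⟩))
    -- the model space
    let n := Module.finrank ℝ X
    let E := EuclideanSpace ℝ (Fin n)
    have hEX : Module.finrank ℝ E = Module.finrank ℝ X := by simp [E, n]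
    have hEY : Module.finrank ℝ E = Module.finrank ℝ Y := by rw [hEX, hdim]
    let eX : E ≃L[ℝ] X := ContinuousLinearEquiv.ofFinrankEq hEX
    let eY : E ≃L[ℝ] Y := ContinuousLinearEquiv.ofFinrankEq hEY
    let N : NF E := k2_nfOf eX
    let N' : NF E := k2_nfOf eY
    let R : Vale.Agent.Lib.P084T.RadIso N N' :=
      { F := fun z => eY.symm (radial f' (eX z))
        G := fun z => eX.symm (radial g' (eY z))
        G_F := by
          intro x
          simp [hGF]
        F_G := by
          intro y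
          simp [hFG]
        norm_F := by
          intro x
          show ‖eY (eY.symm (radial f' (eX x)))‖ = ‖eX x‖
          rw [ContinuousLinearEquiv.apply_symm_apply, k2_norm hS]
        smul_F := by
          intro c x hc
          show eY.symm (radial f' (eX (c • x))) = c • eY.symm (radial f' (eX x))
          rw [map_smul, k2_hom f' c _ hc, map_smul]
        iso := by
          intro x y hx hy
          show ‖eY (eY.symm (radial f' (eX x)) - eY.symm (radial f' (eX y)))‖ = ‖eX (x - y)‖
          have hx' : ‖eX x‖ = 1 := hx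
          have hy' : ‖eX y‖ = 1 := hy
          rw [map_sub, map_sub, ContinuousLinearEquiv.apply_symm_apply,
            ContinuousLinearEquiv.apply_symm_apply, radial_unit _ hx', radial_unit _ hy']
          exact hS.iso _ _ hx' hy' }
    have : Nontrivial E := Module.nontrivial_of_finrank_pos (R := ℝ) (by
      rw [hEX]; exact Module.finrank_pos)
    have hnorm : ∀ u v : X, ‖radial f' u - radial f' v‖ = ‖u - v‖ := by
      intro u v
      have h1 := F_norm_eq R (eX.symm u) (eX.symm v)
      have h2 : R.F (eX.symm u) = eY.symm (radial f' u) := by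
        show eY.symm (radial f' (eX (eX.symm u))) = _
        rw [ContinuousLinearEquiv.apply_symm_apply]
      have h3 : R.F (eX.symm v) = eY.symm (radial f' v) := by
        show eY.symm (radial f' (eX (eX.symm v))) = _
        rw [ContinuousLinearEquiv.apply_symm_apply]
      rw [h2, h3] at h1
      have h4 : ‖eY (eY.symm (radial f' u) - eY.symm (radial f' v))‖ = ‖eX (eX.symm u - eX.symm v)‖ := h1
      rwa [map_sub, map_sub, ContinuousLinearEquiv.apply_symm_apply,
        ContinuousLinearEquiv.apply_symm_apply, ContinuousLinearEquiv.apply_symm_apply,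
        ContinuousLinearEquiv.apply_symm_apply] at h4
    let hI : X ≃ᵢ Y :=
      { toFun := radial f'
        invFun := radial g'
        left_inv := hGF
        right_inv := hFG
        isometry_toFun := Isometry.of_dist_eq (fun u v => by
          rw [dist_eq_norm, dist_eq_norm, hnorm]) }
    have hI0 : hI 0 = 0 := by
      have h5 : ‖radial f' (0 : X)‖ = ‖(0 : X)‖ := k2_norm hS 0
      rw [norm_zero, norm_eq_zero] at h5
      exact h5
    refine ⟨hI.toRealLinearIsometryEquivOfMapZero hI0, fun x => ?_⟩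
    have hx1 : ‖(x : X)‖ = 1 := norm_of_mem x
    show (f x : Y) = radial f' (x : X)
    rw [radial_unit _ hx1, hf']
  · -- the trivial case
    have hXs : Subsingleton X := not_nontrivial_iff_subsingleton.mp hnt
    have hsX : ∀ x : sphere (0 : X) 1, False := by
      intro x
      have h1 : ‖(x : X)‖ = 1 := norm_of_mem x
      rw [Subsingleton.elim (x : X) 0, norm_zero] at h1
      exact zero_ne_one h1
    have hYs : Subsingleton Y := by
      refine ⟨fun a b => ?_⟩
      have hall : ∀ y : Y, y = 0 := by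
        intro y
        by_contra hy
        obtain ⟨x, -⟩ := hsurj ⟨‖y‖⁻¹ • y, mem_of_norm (unit_of_ne hy)⟩
        exact hsX x
      rw [hall a, hall b]
    let L0 : X →ₗᵢ[ℝ] Y :=
      { toLinearMap := 0
        norm_map' := by
          intro z
          rw [Subsingleton.elim z 0]
          simp }
    refine ⟨LinearIsometryEquiv.ofSurjective L0 (fun y => ⟨0, Subsingleton.elim _ _⟩), fun x => ?_⟩
    exact (hsX x).elim

end Vale.Agent.Lib.P084T
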