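import Vale.Agent.Lib.P084G.G10

set_option linter.unusedSectionVars false

/-! # P084G part L1: general finite dimensional Tingley. See `notes/P084G_blueprint.md`. -/

open MeasureTheory Set Filter Topology
open scoped RealInnerProductSpace ENNReal NNReal

namespace Vale.Agent.Lib.P084T

variable {E : Type*} [NormedAddCommGroup E] [InnerProductSpace ℝ E] [FiniteDimensional ℝ E]
  [CompleteSpace E] [MeasurableSpace E] [BorelSpace E]
variable {N N' : NF E}

/-- The integrand of the chord formula for the bad set of chords. -/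
private noncomputable def badH (N : NF E) (Bad : Set (E × E)) (ξ z : E) : ℝ≥0∞ :=
  Bad.indicator (fun _ => (1 : ℝ≥0∞)) (rad N z, exitPt N (uhat N ξ) (rad N z)) *
    ENNReal.ofReal (len N (uhat N ξ) (rad N z)) * ENNReal.ofReal (-⟪grad N z, uhat N ξ⟫)

private theorem measurable_badH (N : NF E) {Bad : Set (E × E)} (mBad : MeasurableSet Bad) :
    Measurable (fun p : E × E => badH N Bad p.1 p.2) := by
  have mu : Measurable (fun p : E × E => uhat N p.1) :=
    (N.dual.measurable_grad).comp measurable_fst
  have mr : Measurable (fun p : E × E => rad N p.2) := N.measurable_rad.comp measurable_snd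
  have m1 : Measurable (fun p : E × E => exitPt N (uhat N p.1) (rad N p.2)) :=
    (measurable_exitPt N).comp (mu.prodMk mr)
  have m2 : Measurable (fun p : E × E => len N (uhat N p.1) (rad N p.2)) :=
    (measurable_len N).comp (mu.prodMk mr)
  have m3 : Measurable (fun p : E × E => grad N p.2) := N.measurable_grad.comp measurable_snd
  have m4 : Measurable (fun p : E × E => ⟪grad N p.2, uhat N p.1⟫) := m3.inner mu
  have m5 : Measurable (fun p : E × E =>
      Bad.indicator (fun _ => (1 : ℝ≥0∞)) (rad N p.2, exitPt N (uhat N p.1) (rad N p.2))) :=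
    (measurable_const.indicator mBad).comp (mr.prodMk m1)
  exact (m5.mul (ENNReal.measurable_ofReal.comp m2)).mul
    (ENNReal.measurable_ofReal.comp m4.neg)

/-- From chords to a relation at almost every point. -/
theorem ae_relation [Nontrivial E] (R : RadIso N N') :
    ∃ r : ℝ, 0 < r ∧ ∀ᵐ z ∂(volume : Measure E), z ∈ N.ball →
      rad N z ∈ Good R ∧ -(rad N z) ∈ Good R ∧
      ∀ᵐ ξ ∂(volume : Measure E), ξ ∈ N.dual.ball → ⟪grad N (rad N z), uhat N ξ⟫ < 0 →
        DifferentiableAt ℝ (N.dual : E → ℝ) (rad N.dual ξ) ∧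
        DifferentiableAt ℝ (N'.dual : E → ℝ) (Tmap R (rad N z) (rad N.dual ξ)) ∧
        |(fderiv ℝ R.F (rad N z)).det| *
            ⟪grad N' (R.F (rad N z)), uhat N' (Tmap R (rad N z) (rad N.dual ξ))⟫ =
          r * ⟪grad N (rad N z), uhat N ξ⟫ := by
  obtain ⟨r, hr, hell⟩ := ae_ell_eq_G R
  refine ⟨r, hr, ?_⟩
  set Bad : Set (E × E) := {p | ell R p.1 p.2 ≠ r} with hBad
  have mBad : MeasurableSet Bad :=
    (measurableSet_eq_fun R.measurable_ell measurable_const).compl
  have mB : MeasurableSet N.ball := (isOpen_lt N.continuous continuous_const).measurableSet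
  have mB' : MeasurableSet N.dual.ball :=
    (isOpen_lt N.dual.continuous continuous_const).measurableSet
  -- the chord formula at a fixed direction
  have step1 : ∀ᵐ ξ ∂(volume : Measure E), ξ ∈ N.dual.ball →
      ∀ᵐ z ∂(volume : Measure E), z ∈ N.ball → badH N Bad ξ z = 0 := by
    filter_upwards [hell, typical_G R] with ξ h1 h2 hξB
    obtain ⟨hξ0, hd, -, -⟩ := h2 hξB
    have h1' := h1 hξB
    set v := uhat N ξ with hv
    have hv0 : v ≠ 0 := by
      intro h
      have := (uhat_G_spec N hξ0 hd).1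
      rw [← hv, h, N.map_zero'] at this
      norm_num at this
    let G : E → ℝ≥0∞ := fun a => Bad.indicator (fun _ => (1 : ℝ≥0∞)) (a, exitPt N v a)
    have mG : Measurable G :=
      (measurable_const.indicator mBad).comp (measurable_id.prodMk
        ((measurable_exitPt N).comp (measurable_const.prodMk measurable_id)))
    have hform := chord_formula N hv0 mG
    have hleft : ∫⁻ z in N.ball, G (entryPt N v z) = 0 := by
      have mE : Measurable (fun z => G (entryPt N v z)) :=
        mG.comp ((measurable_entryPt N).comp (measurable_const.prodMk measurable_id))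
      rw [lintegral_eq_zero_iff mE]
      rw [Filter.EventuallyEq, ae_restrict_iff' mB]
      filter_upwards [h1'] with z hz hzB
      obtain ⟨hz1, -⟩ := hz hzB
      have hh : hits N v z := hits_of_mem_ball N hzB
      have he : exitPt N v (entryPt N v z) = exitPt N v z := by
        have e : entryPt N v z = z + (-tm N v z) • v := by
          unfold entryPt
          rw [neg_smul, sub_eq_add_neg]
        rw [e, exitPt_add N hv0 hh]
      show Bad.indicator (fun _ => (1 : ℝ≥0∞)) (entryPt N v z, exitPt N v (entryPt N v z)) = 0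
      rw [he]
      refine indicator_of_notMem ?_ _
      simpa [hBad] using hz1
    rw [hleft] at hform
    have hn : (Module.finrank ℝ E : ℝ≥0∞) ≠ 0 := by
      have : 0 < Module.finrank ℝ E := Module.finrank_pos
      exact_mod_cast this.ne'
    have hzero : ∫⁻ z in N.ball,
        G (rad N z) * ENNReal.ofReal (len N v (rad N z)) * ENNReal.ofReal (-⟪grad N z, v⟫) = 0 := by
      have := hform.symm
      rw [mul_eq_zero] at this
      exact this.resolve_left hn
    have mI : Measurable (fun z =>
        G (rad N z) * ENNReal.ofReal (len N v (rad N z)) * ENNReal.ofReal (-⟪grad N z, v⟫)) := by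
      have m1 : Measurable (fun z => G (rad N z)) := mG.comp N.measurable_rad
      have m2 : Measurable (fun z => len N v (rad N z)) :=
        (measurable_len N).comp (measurable_const.prodMk N.measurable_rad)
      have m3 : Measurable (fun z => ⟪grad N z, v⟫) :=
        N.measurable_grad.inner measurable_const
      exact (m1.mul (ENNReal.measurable_ofReal.comp m2)).mul
        (ENNReal.measurable_ofReal.comp m3.neg)
    rw [lintegral_eq_zero_iff mI, Filter.EventuallyEq, ae_restrict_iff' mB] at hzero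
    filter_upwards [hzero] with z hz hzB
    exact hz hzB
  -- Tonelli
  have step2 : ∀ᵐ z ∂(volume : Measure E), ∀ᵐ ξ ∂(volume : Measure E),
      ξ ∈ N.dual.ball → z ∈ N.ball → badH N Bad ξ z = 0 := by
    have hm : MeasurableSet {p : E × E | p.1 ∈ N.dual.ball → p.2 ∈ N.ball → badH N Bad p.1 p.2 = 0} := by
      have e : {p : E × E | p.1 ∈ N.dual.ball → p.2 ∈ N.ball → badH N Bad p.1 p.2 = 0} =
          (Prod.fst ⁻¹' N.dual.ball)ᶜ ∪ ((Prod.snd ⁻¹' N.ball)ᶜ ∪
            {p : E × E | badH N Bad p.1 p.2 = 0}) := by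
        ext p
        simp only [Set.mem_ofPred_eq, mem_union, mem_compl_iff, mem_preimage]
        tauto
      rw [e]
      exact ((measurable_fst mB').compl).union (((measurable_snd mB).compl).union
        (measurableSet_eq_fun (measurable_badH N mBad) measurable_const))
    refine (Measure.ae_ae_comm hm).mp ?_
    filter_upwards [step1] with ξ hξ
    by_cases hξB : ξ ∈ N.dual.ball
    · filter_upwards [hξ hξB] with z hz _ hzB
      exact hz hzB
    · exact Eventually.of_forall fun z h => absurd h hξB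
  have hneg : ∀ᵐ z ∂(volume : Measure E), -z ∈ Good R :=
    (Measure.measurePreserving_neg (volume : Measure E)).quasiMeasurePreserving.ae R.ae_good
  -- the non differentiability cone of the second dual norm
  let Z : Set E := {x | DifferentiableAt ℝ (N'.dual : E → ℝ) x}ᶜ
  have mZ : MeasurableSet Z := (measurableSet_of_differentiableAt ℝ (N'.dual : E → ℝ)).compl
  have hZ0 : volume Z = 0 := ae_diff_dual N'
  have hZc : ∀ x ∈ Z, ∀ c : ℝ, 0 < c → c • x ∈ Z := by
    intro x hx c hc h
    exact hx ((N'.dual.differentiableAt_smul_iff hc x).mp h)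
  have hξ0 : ∀ᵐ ξ ∂(volume : Measure E), ξ ≠ 0 := by
    have : volume ({0} : Set E) = 0 := measure_singleton _
    exact compl_mem_ae_iff.mpr this
  filter_upwards [R.ae_good, hneg, step2] with z hzG hzN hz hzB
  have hz0 : z ≠ 0 := hzG.1
  have hc : 0 < (N z)⁻¹ := inv_pos.mpr (N.pos z hz0)
  have ha : rad N z ∈ Good R := R.good_smul hzG hc
  have hma : -(rad N z) ∈ Good R := by
    have : -(rad N z) = (N z)⁻¹ • (-z) := by
      unfold rad
      rw [smul_neg]
    rw [this]
    exact R.good_smul hzN hc
  refine ⟨ha, hma, ?_⟩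
  have ha1 : N (rad N z) = 1 := N.norm_rad hz0
  set a := rad N z with ha_def
  filter_upwards [hz, null_Tmap R ha ha1 mZ hZ0 hZc, ae_diff_dual N, hξ0] with ξ hξH hξT hξd hξne hξB hφ
  have hζ : N.dual ξ ≠ 0 := (N.dual.pos ξ hξne).ne'
  have hc' : 0 < (N.dual ξ)⁻¹ := inv_pos.mpr (N.dual.pos ξ hξne)
  have hd0 : DifferentiableAt ℝ (N.dual : E → ℝ) (rad N.dual ξ) :=
    (N.dual.differentiableAt_smul_iff hc' ξ).mpr hξd
  have hT : DifferentiableAt ℝ (N'.dual : E → ℝ) (Tmap R a (rad N.dual ξ)) := by
    have := hξT hξB hφ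
    by_contra hne
    exact this hne
  refine ⟨hd0, hT, ?_⟩
  have hnξ : N.dual (rad N.dual ξ) = 1 := N.dual.norm_rad hξne
  have hξ00 : rad N.dual ξ ≠ 0 := by
    intro h
    rw [h, N.dual.map_zero'] at hnξ
    norm_num at hnξ
  have hur : uhat N (rad N.dual ξ) = uhat N ξ := uhat_rad N hξne
  obtain ⟨hx1, hx2⟩ := uhat_G_spec N hξ00 hd0
  rw [hur] at hx1 hx2
  rw [hnξ] at hx2
  have hφ' : ⟪grad N a, uhat N (rad N.dual ξ)⟫ < 0 := by rw [hur]; exact hφ
  have hh : hits N.dual (grad N a) (rad N.dual ξ) := hits_of_grad_neg N hnξ hd0 hφ'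
  obtain ⟨hL, hT1, hx'1, hx'2, hx'3, -, -, -⟩ :=
    chord_corr_G R ha ha1 hnξ hx1 hx2 hφ hh
  set x := uhat N ξ with hx_def
  set L := tp N x a with hL_def
  set b := exitPt N x a with hb_def
  set T := Tmap R a (rad N.dual ξ) with hT_def
  set x' := L⁻¹ • (R.F b - R.F a) with hx'_def
  have hT0 : T ≠ 0 := by
    intro h
    rw [h, N'.dual.map_zero'] at hT1
    norm_num at hT1
  have hxu : x' = uhat N' T := uhat_G_unique N' hT0 hT hx'1 (by rw [hx'2, hT1])
  rw [← hxu]
  have hx0 : x ≠ 0 := by
    intro h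
    rw [h, N.map_zero'] at hx1
    norm_num at hx1
  -- the chord is not bad
  have hda : DifferentiableAt ℝ (N : E → ℝ) a := ha.2.2.2.1
  obtain ⟨hhit, -, -⟩ := entry_of_grad_neg N ha1 hda hφ
  have hlen : 0 < len N x a := len_pos N hx0 hhit
  have hgz : grad N z = grad N a := (N.grad_smul hc z).symm
  have hbad := hξH hξB hzB
  have hnotbad : (a, b) ∉ Bad := by
    intro hmem
    unfold badH at hbad
    rw [← ha_def, ← hx_def, ← hb_def, indicator_of_mem hmem, one_mul, hgz, mul_eq_zero] at hbad
    rcases hbad with h | h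
    · rw [ENNReal.ofReal_eq_zero] at h
      linarith
    · rw [ENNReal.ofReal_eq_zero] at h
      linarith
  have hell2 : ell R a b = r := by
    by_contra hne
    exact hnotbad hne
  -- the algebra
  have hFd : DifferentiableAt ℝ (N' : E → ℝ) (R.F a) := ha.2.2.2.2.1
  have hFa1 : N' (R.F a) = 1 := by rw [R.norm_F, ha1]
  have hFa0 : R.F a ≠ 0 := by
    intro h
    rw [h, N'.map_zero'] at hFa1
    norm_num at hFa1
  have hφa : ⟪grad N a, a⟫ = 1 := by
    rw [(N.grad_spec ha.1 hda).2.2, ha1]
  have hφ'a : ⟪grad N' (R.F a), R.F a⟫ = 1 := by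
    rw [(N'.grad_spec hFa0 hFd).2.2, hFa1]
  have hb_eq : b = a + L • x := rfl
  have h1 : 1 - ⟪grad N a, b⟫ = -(L * ⟪grad N a, x⟫) := by
    rw [hb_eq, inner_add_right, inner_smul_right, hφa]
    ring
  have hFb : R.F b - R.F a = L • x' := by
    rw [hx'_def, smul_smul, mul_inv_cancel₀ hL.ne', one_smul]
  have h2 : 1 - ⟪grad N' (R.F a), R.F b⟫ = -(L * ⟪grad N' (R.F a), x'⟫) := by
    have : R.F b = R.F a + L • x' := by rw [← hFb]; abel
    rw [this, inner_add_right, inner_smul_right, hφ'a]
    ring
  unfold ell at hell2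
  rw [h1, h2] at hell2
  have hne : -(L * ⟪grad N a, x⟫) ≠ 0 := by
    have : L * ⟪grad N a, x⟫ < 0 := mul_neg_of_pos_of_neg hL hφ
    linarith
  rw [div_eq_iff hne] at hell2
  have hL' : L ≠ 0 := hL.ne'
  have : L * (|(fderiv ℝ R.F a).det| * ⟪grad N' (R.F a), x'⟫) = L * (r * ⟪grad N a, x⟫) := by
    linear_combination -hell2
  exact mul_left_cancel₀ hL' this

end Vale.Agent.Lib.P084T
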