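import Vale.Agent.Lib.P084G.G3

set_option linter.unusedSectionVars false

/-! # P084G part L2: general finite dimensional Tingley. See `notes/P084G_blueprint.md`. -/

open MeasureTheory Set Filter Topology
open scoped RealInnerProductSpace ENNReal NNReal

namespace Vale.Agent.Lib.P084T

variable {E : Type*} [NormedAddCommGroup E] [InnerProductSpace ℝ E] [FiniteDimensional ℝ E]
  [CompleteSpace E] [MeasurableSpace E] [BorelSpace E]
variable {N N' : NF E}

/-- One dimensional Euler lemma: a Lipschitz function with `t W' = W` almost everywhere is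
linear through the origin on the half open interval. -/
private lemma euler_one_dim {W : ℝ → ℝ} {K : ℝ≥0} (hW : LipschitzOnWith K W (Icc 0 1))
    (h : ∀ᵐ t : ℝ, t ∈ Ioo (0 : ℝ) 1 → ∃ c, HasDerivAt W c t ∧ t * c = W t) :
    ∀ t ∈ Ioc (0 : ℝ) 1, W t = t * W 1 := by
  intro s hs
  have hs0 : 0 < s := hs.1
  have hs1 : s ≤ 1 := hs.2
  have hU : uIcc s 1 = Icc s 1 := uIcc_of_le hs1
  have hW1 : AbsolutelyContinuousOnInterval W s 1 := by
    apply LipschitzOnWith.absolutelyContinuousOnInterval (K := K)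
    rw [hU]
    exact hW.mono (Icc_subset_Icc_left hs0.le)
  have hinv : AbsolutelyContinuousOnInterval (fun t : ℝ => t⁻¹) s 1 := by
    apply ContDiffOn.absolutelyContinuousOnInterval
    rw [hU]
    refine ContDiffOn.inv contDiffOn_id ?_
    intro x hx
    have : 0 < x := lt_of_lt_of_le hs0 hx.1
    exact this.ne'
  have hg : AbsolutelyContinuousOnInterval (W * fun t : ℝ => t⁻¹) s 1 := hW1.mul hinv
  have hne : ∀ᵐ x : ℝ, x ≠ s ∧ x ≠ 1 := by
    have h1 : ∀ᵐ x : ℝ, x ≠ s := by simp [ae_iff]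
    have h2 : ∀ᵐ x : ℝ, x ≠ (1 : ℝ) := by simp [ae_iff]
    filter_upwards [h1, h2] with x h1 h2 using ⟨h1, h2⟩
  have hder : ∀ᵐ x : ℝ, x ∈ uIcc s 1 → HasDerivAt (W * fun t : ℝ => t⁻¹) 0 x := by
    filter_upwards [h, hne] with x hx hxne hmem
    rw [hU] at hmem
    have hx0 : 0 < x := lt_of_lt_of_le hs0 hmem.1
    have hx1 : x < 1 := lt_of_le_of_ne hmem.2 hxne.2
    obtain ⟨c, hc, hcx⟩ := hx ⟨hx0, hx1⟩
    have hi : HasDerivAt (fun t : ℝ => t⁻¹) (-(x ^ 2)⁻¹) x := hasDerivAt_inv hx0.ne'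
    have e : c * x⁻¹ + W x * (-(x ^ 2)⁻¹) = 0 := by
      rw [← hcx]
      field_simp
      ring
    have h3 := hc.mul hi
    rw [e] at h3
    exact h3
  obtain ⟨C, hC⟩ := hg.const_of_ae_hasDerivAt_zero hder
  have hs_mem : s ∈ uIcc s 1 := left_mem_uIcc
  have h1_mem : (1 : ℝ) ∈ uIcc s 1 := right_mem_uIcc
  have e1 := hC s hs_mem
  have e2 := hC 1 h1_mem
  simp only [Pi.mul_apply, inv_one, mul_one] at e1 e2
  rw [← e2] at e1
  field_simp at e1
  linarith

/-- Convexity of the open unit ball. -/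
private lemma conv_lt (M : NF E) {x y : E} (hx : M x < 1) (hy : M y < 1) {a b : ℝ} (ha : 0 ≤ a)
    (hb : 0 ≤ b) (hab : a + b = 1) : M (a • x + b • y) < 1 := by
  have h1 := M.add_le (a • x) (b • y)
  rw [M.smul_eq, M.smul_eq, abs_of_nonneg ha, abs_of_nonneg hb] at h1
  rcases ha.eq_or_lt with rfl | ha'
  · have : b = 1 := by linarith
    subst this
    simp only [zero_mul, one_mul, zero_add] at h1
    linarith
  · have h2 : a * M x < a * 1 := mul_lt_mul_of_pos_left hx ha'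
    have h3 : b * M y ≤ b * 1 := mul_le_mul_of_nonneg_left hy.le hb
    linarith

private lemma convex_hits (M : NF E) (v : E) : Convex ℝ {w | hits M v w} := by
  intro x hx y hy a b ha hb hab
  obtain ⟨s, hs⟩ := hx
  obtain ⟨t, ht⟩ := hy
  refine ⟨a * s + b * t, ?_⟩
  have := conv_lt M hs ht ha hb hab
  convert this using 2
  simp only [smul_add, add_smul, mul_smul]
  abel

private lemma isOpen_hits (M : NF E) (v : E) : IsOpen {w | hits M v w} := by
  have : {w | hits M v w} = ⋃ t : ℝ, {w | M (w + t • v) < 1} := by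
    ext w
    simp [hits]
  rw [this]
  refine isOpen_iUnion fun t => ?_
  exact isOpen_lt (M.continuous.comp (continuous_id.add continuous_const)) continuous_const

private lemma tm_concave (M : NF E) {v : E} (hv : v ≠ 0) :
    ConcaveOn ℝ {w | hits M v w} (tm M v) := by
  refine ⟨convex_hits M v, ?_⟩
  intro x hx y hy a b ha hb hab
  simp only [smul_eq_mul]
  have hxy : hits M v (a • x + b • y) := convex_hits M v hx hy ha hb hab
  refine le_of_forall_pos_le_add fun ε hε => ?_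
  have hlx := len_pos M hv hx
  have hly := len_pos M hv hy
  set δ := min ε (min (len M v x / 2) (len M v y / 2)) with hδ
  have hδ0 : 0 < δ := by
    simp only [hδ, lt_min_iff]
    exact ⟨hε, by linarith, by linarith⟩
  have hδε : δ ≤ ε := min_le_left _ _
  have hδx : δ ≤ len M v x / 2 := (min_le_right _ _).trans (min_le_left _ _)
  have hδy : δ ≤ len M v y / 2 := (min_le_right _ _).trans (min_le_right _ _)
  have h1 : M (x + (-tm M v x + δ) • v) < 1 := by
    rw [line_iff M hv hx]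
    constructor
    · linarith
    · unfold len at hδx hlx
      linarith
  have h2 : M (y + (-tm M v y + δ) • v) < 1 := by
    rw [line_iff M hv hy]
    constructor
    · linarith
    · unfold len at hδy hly
      linarith
  have h3 := conv_lt M h1 h2 ha hb hab
  have h4 : a • (x + (-tm M v x + δ) • v) + b • (y + (-tm M v y + δ) • v) =
      (a • x + b • y) + (-(a * tm M v x + b * tm M v y) + δ) • v := by
    have : -(a * tm M v x + b * tm M v y) + δ =
        a * (-tm M v x + δ) + b * (-tm M v y + δ) := by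
      have hb' : b = 1 - a := by linarith
      subst hb'
      ring
    rw [this]
    simp only [smul_add, add_smul, mul_smul]
    abel
  rw [h4, line_iff M hv hxy] at h3
  linarith [h3.1]

private lemma hits_zero (M : NF E) (v : E) : hits M v 0 :=
  ⟨0, by simp [M.map_zero']⟩

private lemma hits_smul (M : NF E) {v ξ : E} (h : hits M v ξ) {t : ℝ} (ht : t ∈ Icc (0 : ℝ) 1) :
    hits M v (t • ξ) := by
  have := convex_hits M v (hits_zero M v) h (sub_nonneg.mpr ht.2) ht.1 (by ring)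
  simpa using this

/-- Along a segment through a hitting point the backward time is Lipschitz. -/
private lemma tm_path_lipschitz (M : NF E) {v ξ : E} (hv : v ≠ 0) (h : hits M v ξ) :
    ∃ K : ℝ≥0, LipschitzOnWith K (fun s : ℝ => tm M v (s • ξ)) (Icc 0 1) := by
  let L : ℝ →ₗ[ℝ] E := LinearMap.toSpanSingleton ℝ E ξ
  have hL : ∀ s, L s = s • ξ := fun s => by simp [L]
  have hc : ConcaveOn ℝ (L ⁻¹' {w | hits M v w}) (tm M v ∘ L) :=
    (tm_concave M hv).comp_linearMap L
  have hLcont : Continuous L := L.continuous_of_finiteDimensional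
  have hop : IsOpen (L ⁻¹' {w | hits M v w}) := (isOpen_hits M v).preimage hLcont
  have hloc := hc.locallyLipschitzOn hop
  have hsub : Icc (0 : ℝ) 1 ⊆ L ⁻¹' {w | hits M v w} := by
    intro t ht
    show hits M v (L t)
    rw [hL]
    exact hits_smul M h ht
  obtain ⟨K, hK⟩ := (hloc.mono hsub).exists_lipschitzOnWith_of_compact isCompact_Icc
  refine ⟨K, ?_⟩
  have : (fun s : ℝ => tm M v (s • ξ)) = tm M v ∘ L := by
    funext s
    simp [hL]
  rw [this]
  exact hK

/-- The backward time at the origin. -/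
private lemma tm_zero (M : NF E) {v : E} (hv : M v = 1) : tm M v 0 = 1 := by
  have : {t : ℝ | M ((0 : E) - t • v) < 1} = Ioo (-1) 1 := by
    ext t
    simp only [mem_setOf_eq, mem_Ioo, zero_sub, M.map_neg', M.smul_eq, hv, mul_one, abs_lt]
  unfold tm
  rw [this, csSup_Ioo (by norm_num)]

/-- Derivative along a ray. -/
private lemma tm_path_deriv (M : NF E) {v ξ : E} {t : ℝ} (hv : v ≠ 0) (h : hits M v (t • ξ))
    (hd : DifferentiableAt ℝ (M : E → ℝ) (entryPt M v (t • ξ))) :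
    ∃ c, HasDerivAt (fun s : ℝ => tm M v (s • ξ)) c t ∧
      t * c = tm M v (t • ξ) + (⟪grad M (entryPt M v (t • ξ)), v⟫)⁻¹ := by
  obtain ⟨hsign, hF⟩ := hasFDerivAt_tm M hv h hd
  have hline : HasDerivAt (fun s : ℝ => s • ξ) ξ t := by
    simpa using (hasDerivAt_id t).smul_const ξ
  have hc := hF.comp_hasDerivAt t hline
  refine ⟨_, hc, ?_⟩
  set e := entryPt M v (t • ξ) with he
  set g := grad M e with hg
  set d := ⟪g, v⟫ with hdd
  have hNe : M e = 1 := norm_entryPt M hv h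
  have he0 : e ≠ 0 := by
    intro h0
    rw [h0, M.map_zero'] at hNe
    exact zero_ne_one hNe
  obtain ⟨-, -, h3⟩ := M.grad_spec he0 hd
  have h4 : t • ξ = e + tm M v (t • ξ) • v := by
    simp [he, entryPt]
  have h5 : t * ⟪g, ξ⟫ = 1 + tm M v (t • ξ) * d := by
    have h6 : ⟪g, t • ξ⟫ = t * ⟪g, ξ⟫ := inner_smul_right _ _ _
    rw [← h6]
    have h3' : ⟪g, e⟫ = 1 := h3.trans hNe
    conv_lhs => rw [h4]
    rw [inner_add_right, inner_smul_right, h3']
  have hd0 : d ≠ 0 := hsign.ne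
  simp only [ContinuousLinearMap.smul_apply, innerSL_apply_apply, smul_eq_mul]
  calc t * (d⁻¹ * ⟪g, ξ⟫) = d⁻¹ * (t * ⟪g, ξ⟫) := by ring
    _ = tm M v (t • ξ) + d⁻¹ := by
        rw [h5]
        field_simp
        ring

private lemma continuousAt_tm_comp (M : NF E) {v : E} (hv : v ≠ 0) {f : E → E} {x : E}
    (hf : ContinuousAt f x) (h : hits M v (f x)) :
    ContinuousAt (fun y => tm M v (f y)) x :=
  ContinuousAt.comp (g := fun p : E × E => tm M p.1 p.2) (f := fun y => (v, f y))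
    (continuousAt_tm M hv h) (continuousAt_const.prodMk hf)

/-- The main statement: Euler homogeneity and the Jacobian value. -/
theorem euler_homog (R : RadIso N N') {a : E} (ha : a ∈ Good R) (ha1 : N a = 1) {r : ℝ}
    (hr : 0 < r)
    (hrel : ∀ᵐ ξ ∂(volume : Measure E), ξ ∈ N.dual.ball → ⟪grad N a, uhat N ξ⟫ < 0 →
        DifferentiableAt ℝ (N.dual : E → ℝ) (rad N.dual ξ) ∧
        DifferentiableAt ℝ (N'.dual : E → ℝ) (Tmap R a (rad N.dual ξ)) ∧
        |(fderiv ℝ R.F a).det| * ⟪grad N' (R.F a), uhat N' (Tmap R a (rad N.dual ξ))⟫ =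
          r * ⟪grad N a, uhat N ξ⟫) :
    |(fderiv ℝ R.F a).det| = r ∧ ∀ ξ, hits N.dual (grad N a) ξ → ∀ t ∈ Ioc (0 : ℝ) 1,
      tm N.dual (grad N a) (t • ξ) - tm N'.dual (grad N' (R.F a)) (t • Xi R a ξ) =
        t * (tm N.dual (grad N a) ξ - tm N'.dual (grad N' (R.F a)) (Xi R a ξ)) := by
  classical
  set φ := grad N a with hφdef
  set φ' := grad N' (R.F a) with hφ'def
  set Ξ := Xi R a with hΞ
  set ρ := |(fderiv ℝ R.F a).det| with hρdef
  have ha0 : a ≠ 0 := ha.1
  have hFa0 : R.F a ≠ 0 := by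
    intro h
    have h1 := R.norm_F a
    rw [h, N'.map_zero'] at h1
    exact (N.pos a ha0).ne h1
  obtain ⟨-, hφ1, -⟩ := N.grad_spec ha0 ha.2.2.2.1
  obtain ⟨-, hφ'1, -⟩ := N'.grad_spec hFa0 ha.2.2.2.2.1
  have hφ0 : φ ≠ 0 := by
    intro h0
    rw [← hφdef, h0, N.dual.map_zero'] at hφ1
    exact zero_ne_one hφ1
  have hφ'0 : φ' ≠ 0 := by
    intro h0
    rw [← hφ'def, h0, N'.dual.map_zero'] at hφ'1
    exact zero_ne_one hφ'1
  have hρ0 : 0 < ρ := abs_pos.mpr (R.det_ne_zero ha)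
  -- the exceptional cone
  let A : Set E := {x | x ≠ 0 ∧ (¬ DifferentiableAt ℝ (N.dual : E → ℝ) x ∨
    (⟪φ, uhat N x⟫ < 0 ∧ ¬ (DifferentiableAt ℝ (N'.dual : E → ℝ) (Tmap R a (rad N.dual x)) ∧
      ρ * ⟪φ', uhat N' (Tmap R a (rad N.dual x))⟫ = r * ⟪φ, uhat N x⟫)))}
  have hAcone : ∀ x ∈ A, ∀ c : ℝ, 0 < c → c • x ∈ A := by
    rintro x ⟨hx0, hx⟩ c hc
    refine ⟨smul_ne_zero hc.ne' hx0, ?_⟩
    rw [N.dual.differentiableAt_smul_iff hc, uhat_smul N hc, N.dual.rad_smul hc]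
    exact hx
  have hAball : volume (A ∩ N.dual.ball) = 0 := by
    rw [measure_eq_zero_iff_ae_notMem]
    filter_upwards [hrel, ae_diff_dual N] with ξ h1 h2
    rintro ⟨⟨-, h3⟩, h4⟩
    rcases h3 with h3 | ⟨h3, h5⟩
    · exact h3 h2
    · obtain ⟨-, h6, h7⟩ := h1 h4 h3
      exact h5 ⟨h6, h7⟩
  have hAnull : volume A = 0 := by
    have hsub : A ⊆ ⋃ k : ℕ, (fun x : E => (((2 : ℝ) ^ k)⁻¹ : ℝ) • x) ⁻¹' (A ∩ N.dual.ball) := by
      intro x hx
      obtain ⟨k, hk⟩ := pow_unbounded_of_one_lt (N.dual x) (one_lt_two : (1 : ℝ) < 2)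
      have hk0 : (0 : ℝ) < 2 ^ k := by positivity
      refine mem_iUnion.mpr ⟨k, ?_, ?_⟩
      · exact hAcone x hx _ (inv_pos.mpr hk0)
      · show N.dual _ < 1
        rw [N.dual.smul_eq, abs_of_pos (inv_pos.mpr hk0)]
        rw [inv_mul_lt_iff₀ hk0]
        simpa using hk
    refine measure_mono_null hsub (measure_iUnion_null fun k => ?_)
    have hk0 : ((2 : ℝ) ^ k)⁻¹ ≠ 0 := by positivity
    rw [Measure.addHaar_preimage_smul volume hk0, hAball, mul_zero]
  have hE := ae_entry_exit_not_mem N.dual hφ0 hAnull hAcone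
  -- the exceptional set on the open set of hitting lines
  let T : Set E := {z | z ∈ N.dual.ball ∧ entryPt N.dual φ z ∈ A}
  have hT : volume T = 0 := by
    rw [measure_eq_zero_iff_ae_notMem]
    filter_upwards [hE] with z hz
    rintro ⟨h1, h2⟩
    exact (hz h1).1 h2
  let B : Set E := {ξ | hits N.dual φ ξ ∧ entryPt N.dual φ ξ ∈ A}
  have hB : volume B = 0 := by
    have hsub : B ⊆ ⋃ s : ℚ, (fun ξ : E => ξ + (s : ℝ) • φ) ⁻¹' T := by
      rintro ξ ⟨⟨t, ht⟩, h2⟩
      have hop : IsOpen {s : ℝ | N.dual (ξ + s • φ) < 1} :=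
        isOpen_lt (N.dual.continuous.comp (continuous_const.add
          (continuous_id.smul continuous_const))) continuous_const
      obtain ⟨s, hs⟩ := Rat.denseRange_cast.exists_mem_open hop ⟨t, ht⟩
      refine mem_iUnion.mpr ⟨s, hs, ?_⟩
      show entryPt N.dual φ (ξ + (s : ℝ) • φ) ∈ A
      rw [entryPt_add N.dual hφ0 ⟨t, ht⟩]
      exact h2
    refine measure_mono_null hsub (measure_iUnion_null fun s => ?_)
    rw [measure_preimage_add_right]
    exact hT
  let B₀ : Set E := toMeasurable volume B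
  have hB₀m : MeasurableSet B₀ := measurableSet_toMeasurable _ _
  have hB₀0 : volume B₀ = 0 := by rw [measure_toMeasurable]; exact hB
  have hBB₀ : B ⊆ B₀ := subset_toMeasurable _ _
  -- Tonelli along rays
  have hTon : ∀ᵐ ξ ∂(volume : Measure E), ∀ᵐ t ∂(volume : Measure ℝ), t ∈ Ioo (0 : ℝ) 1 →
      t • ξ ∉ B₀ := by
    have hm : MeasurableSet {x : E × ℝ | x.2 ∈ Ioo (0 : ℝ) 1 → x.2 • x.1 ∉ B₀} := by
      have h1 : Measurable (fun x : E × ℝ => x.2 • x.1) :=
        (continuous_snd.smul continuous_fst).measurable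
      have h2 : MeasurableSet {x : E × ℝ | x.2 ∈ Ioo (0 : ℝ) 1} :=
        measurable_snd measurableSet_Ioo
      have h3 : MeasurableSet {x : E × ℝ | x.2 • x.1 ∈ B₀} := h1 hB₀m
      have : {x : E × ℝ | x.2 ∈ Ioo (0 : ℝ) 1 → x.2 • x.1 ∉ B₀} =
          {x : E × ℝ | x.2 ∈ Ioo (0 : ℝ) 1}ᶜ ∪ {x : E × ℝ | x.2 • x.1 ∈ B₀}ᶜ := by
        ext x
        simp only [mem_setOf_eq, mem_union, mem_compl_iff]
        tauto
      rw [this]
      exact h2.compl.union h3.compl
    rw [Measure.ae_ae_comm hm]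
    refine Eventually.of_forall fun t => ?_
    by_cases ht : t ∈ Ioo (0 : ℝ) 1
    · have ht0 : t ≠ 0 := ht.1.ne'
      have h0 : volume ((fun x : E => t • x) ⁻¹' B₀) = 0 := by
        rw [Measure.addHaar_preimage_smul volume ht0, hB₀0, mul_zero]
      have := measure_eq_zero_iff_ae_notMem.mp h0
      filter_upwards [this] with ξ hξ _ using hξ
    · exact Eventually.of_forall fun ξ h => absurd h ht
  -- the constant
  let C : ℝ := r / ρ
  have hC0 : 0 < C := div_pos hr hρ0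
  -- the one dimensional argument on a fixed ray
  have hray : ∀ ξ, hits N.dual φ ξ → (∀ᵐ t ∂(volume : Measure ℝ), t ∈ Ioo (0 : ℝ) 1 → t • ξ ∉ B₀) →
      C = 1 ∧ ∀ t ∈ Ioc (0 : ℝ) 1,
        tm N.dual φ (t • ξ) - C * tm N'.dual φ' (t • Ξ ξ) =
          t * (tm N.dual φ ξ - C * tm N'.dual φ' (Ξ ξ)) := by
    intro ξ hξ hae
    have hξ' : hits N'.dual φ' (Ξ ξ) := (hits_Xi R ha).2 hξ
    obtain ⟨K₁, hK₁⟩ := tm_path_lipschitz N.dual hφ0 hξ
    obtain ⟨K₂, hK₂⟩ := tm_path_lipschitz N'.dual hφ'0 hξ'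
    let W : ℝ → ℝ := fun s => tm N.dual φ (s • ξ) - C * tm N'.dual φ' (s • Ξ ξ)
    have hWlip : LipschitzOnWith (K₁ + ⟨C, hC0.le⟩ * K₂) W (Icc 0 1) := by
      apply LipschitzOnWith.of_dist_le_mul
      intro x hx y hy
      have h1 := hK₁.dist_le_mul x hx y hy
      have h2 := hK₂.dist_le_mul x hx y hy
      simp only [W, Real.dist_eq] at h1 h2 ⊢
      have e : tm N.dual φ (x • ξ) - C * tm N'.dual φ' (x • Ξ ξ) -
          (tm N.dual φ (y • ξ) - C * tm N'.dual φ' (y • Ξ ξ)) =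
          (tm N.dual φ (x • ξ) - tm N.dual φ (y • ξ)) -
            C * (tm N'.dual φ' (x • Ξ ξ) - tm N'.dual φ' (y • Ξ ξ)) := by ring
      rw [e]
      refine (abs_sub _ _).trans ?_
      rw [abs_mul, abs_of_pos hC0]
      have h3 : C * |tm N'.dual φ' (x • Ξ ξ) - tm N'.dual φ' (y • Ξ ξ)| ≤
          C * ((K₂ : ℝ) * |x - y|) := mul_le_mul_of_nonneg_left h2 hC0.le
      have e2 : ((K₁ + ⟨C, hC0.le⟩ * K₂ : ℝ≥0) : ℝ) * |x - y| =
          (K₁ : ℝ) * |x - y| + C * ((K₂ : ℝ) * |x - y|) := by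
        have e3 : ((K₁ + ⟨C, hC0.le⟩ * K₂ : ℝ≥0) : ℝ) = (K₁ : ℝ) + C * (K₂ : ℝ) := rfl
        rw [e3]
        ring
      rw [e2]
      linarith
    have hder : ∀ᵐ t : ℝ, t ∈ Ioo (0 : ℝ) 1 → ∃ c, HasDerivAt W c t ∧ t * c = W t := by
      filter_upwards [hae] with t ht hmem
      have hh : hits N.dual φ (t • ξ) := hits_smul N.dual hξ ⟨hmem.1.le, hmem.2.le⟩
      have hnot : entryPt N.dual φ (t • ξ) ∉ A := fun hA => ht hmem (hBB₀ ⟨hh, hA⟩)
      set e := entryPt N.dual φ (t • ξ) with he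
      have hNe : N.dual e = 1 := norm_entryPt N.dual hφ0 hh
      have he0 : e ≠ 0 := by
        intro h0
        rw [h0, N.dual.map_zero'] at hNe
        exact zero_ne_one hNe
      have hnot' : DifferentiableAt ℝ (N.dual : E → ℝ) e ∧
          (⟪φ, uhat N e⟫ < 0 → DifferentiableAt ℝ (N'.dual : E → ℝ) (Tmap R a (rad N.dual e)) ∧
            ρ * ⟪φ', uhat N' (Tmap R a (rad N.dual e))⟫ = r * ⟪φ, uhat N e⟫) := by
        have h1 := not_or.mp (fun hh => hnot ⟨he0, hh⟩)
        exact ⟨not_not.mp h1.1, fun hs => by_contra fun hX => h1.2 ⟨hs, hX⟩⟩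
      obtain ⟨hd, hrest⟩ := hnot'
      have hsign : ⟪grad N.dual e, φ⟫ < 0 := (hasFDerivAt_tm N.dual hφ0 hh hd).1
      have hsign' : ⟪φ, uhat N e⟫ < 0 := by
        rw [real_inner_comm]
        exact hsign
      have hrade : rad N.dual e = e := by
        simp [rad, hNe]
      obtain ⟨hd2, hrl⟩ := hrest hsign'
      rw [hrade] at hd2 hrl
      have hT1 : Tmap R a e = entryPt N'.dual φ' (t • Ξ ξ) := by
        rw [he, Tmap_entry R ha hh, map_smul]
      rw [hT1] at hd2 hrl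
      have hh' : hits N'.dual φ' (t • Ξ ξ) := hits_smul N'.dual hξ' ⟨hmem.1.le, hmem.2.le⟩
      obtain ⟨c₁, hc₁, hc₁'⟩ := tm_path_deriv N.dual (ξ := ξ) hφ0 hh hd
      obtain ⟨c₂, hc₂, hc₂'⟩ := tm_path_deriv N'.dual (ξ := Ξ ξ) hφ'0 hh' hd2
      refine ⟨c₁ - C * c₂, hc₁.sub (hc₂.const_mul C), ?_⟩
      set e' := entryPt N'.dual φ' (t • Ξ ξ) with he'
      have hsign2 : ⟪grad N'.dual e', φ'⟫ < 0 := (hasFDerivAt_tm N'.dual hφ'0 hh' hd2).1
      set d := ⟪grad N.dual e, φ⟫ with hdd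
      set d' := ⟪grad N'.dual e', φ'⟫ with hdd'
      have hrl' : ρ * d' = r * d := by
        have e1 : ⟪φ', uhat N' e'⟫ = d' := real_inner_comm _ _
        have e2 : ⟪φ, uhat N e⟫ = d := real_inner_comm _ _
        rw [e1, e2] at hrl
        exact hrl
      have hd0 : d ≠ 0 := hsign.ne
      have hd'0 : d' ≠ 0 := hsign2.ne
      have key : C * d'⁻¹ = d⁻¹ := by
        simp only [C]
        field_simp
        linarith
      simp only [W]
      have e1 : t * (c₁ - C * c₂) = t * c₁ - C * (t * c₂) := by ring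
      rw [e1, hc₁', hc₂', mul_add, key]
      ring
    have hlin := euler_one_dim hWlip hder
    -- value at zero
    have hW0 : W 0 = 1 - C := by
      simp only [W, zero_smul]
      rw [tm_zero N.dual hφ1, tm_zero N'.dual hφ'1]
      ring
    have hW00 : W 0 = 0 := by
      have hIcc : Icc (0 : ℝ) 1 ∈ 𝓝[>] (0 : ℝ) :=
        mem_of_superset (Ioc_mem_nhdsGT zero_lt_one) Ioc_subset_Icc_self
      have h1 : Tendsto W (𝓝[>] (0 : ℝ)) (𝓝 (W 0)) :=
        (hWlip.continuousOn 0 (left_mem_Icc.mpr zero_le_one)).tendsto.mono_left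
          (nhdsWithin_le_of_mem hIcc)
      have h2 : Tendsto (fun t : ℝ => t * W 1) (𝓝[>] (0 : ℝ)) (𝓝 0) := by
        have h3 : Tendsto (fun t : ℝ => t) (𝓝[>] (0 : ℝ)) (𝓝 0) :=
          tendsto_id.mono_left nhdsWithin_le_nhds
        simpa using h3.mul_const (W 1)
      have heq : (fun t : ℝ => t * W 1) =ᶠ[𝓝[>] (0 : ℝ)] W := by
        filter_upwards [Ioc_mem_nhdsGT (zero_lt_one : (0 : ℝ) < 1)] with t ht
        exact (hlin t ht).symm
      exact tendsto_nhds_unique h1 (h2.congr' heq)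
    refine ⟨by linarith, fun t ht => ?_⟩
    have := hlin t ht
    simpa only [W, one_smul] using this
  -- there is a ray
  have hdense := Measure.dense_of_ae hTon
  have hH0 : ({ξ | hits N.dual φ ξ} : Set E).Nonempty := ⟨0, hits_zero _ _⟩
  obtain ⟨ξ₀, hξ₀1, hξ₀2⟩ := hdense.inter_open_nonempty _ (isOpen_hits _ _) hH0
  have hC1 : C = 1 := (hray ξ₀ hξ₀1 hξ₀2).1
  have hρr : ρ = r := by
    have : r / ρ = 1 := hC1
    field_simp at this
    linarith
  refine ⟨hρr, ?_⟩
  intro ξ hξ t ht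
  have ht' : t ∈ Icc (0 : ℝ) 1 := Ioc_subset_Icc_self ht
  have hξ' : hits N'.dual φ' (Ξ ξ) := (hits_Xi R ha).2 hξ
  let LHS : E → ℝ := fun x => tm N.dual φ (t • x) - tm N'.dual φ' (t • Ξ x) -
    t * (tm N.dual φ x - tm N'.dual φ' (Ξ x))
  have hΞc : Continuous Ξ := Ξ.continuous
  have hcontL : ContinuousAt LHS ξ := by
    have c1 : ContinuousAt (fun x => tm N.dual φ (t • x)) ξ :=
      continuousAt_tm_comp N.dual hφ0 (continuous_const.smul continuous_id).continuousAt
        (hits_smul N.dual hξ ht')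
    have c2 : ContinuousAt (fun x => tm N'.dual φ' (t • Ξ x)) ξ :=
      continuousAt_tm_comp N'.dual hφ'0 (continuous_const.smul hΞc).continuousAt
        (hits_smul N'.dual hξ' ht')
    have c3 : ContinuousAt (fun x => tm N.dual φ x) ξ :=
      continuousAt_tm_comp N.dual hφ0 continuous_id.continuousAt hξ
    have c4 : ContinuousAt (fun x => tm N'.dual φ' (Ξ x)) ξ :=
      continuousAt_tm_comp N'.dual hφ'0 hΞc.continuousAt hξ'
    exact (c1.sub c2).sub (continuousAt_const.mul (c3.sub c4))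
  have hnear : ∀ᶠ x in 𝓝 ξ, hits N.dual φ x := (isOpen_hits N.dual φ).mem_nhds hξ
  have hfreq : ∃ᶠ x in 𝓝 ξ, LHS x = 0 := by
    have h1 := mem_closure_iff_frequently.mp (hdense ξ)
    refine (h1.and_eventually hnear).mono ?_
    rintro x ⟨hx1, hx2⟩
    obtain ⟨hC, hl⟩ := hray x hx2 hx1
    have := hl t ht
    simp only [hC, one_mul] at this
    simp only [LHS, this, sub_self]
  have hzero : LHS ξ = 0 :=
    tendsto_nhds_unique_of_frequently_eq hcontL.tendsto tendsto_const_nhds hfreq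
  simp only [LHS] at hzero
  linarith

end Vale.Agent.Lib.P084T
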