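import Vale.Agent.Lib.P084G.G0

set_option linter.unusedSectionVars false

/-! # P084G part L3: general finite dimensional Tingley. See `notes/P084G_blueprint.md`. -/

open MeasureTheory Set Filter Topology
open scoped RealInnerProductSpace ENNReal NNReal

namespace Vale.Agent.Lib.P084T

variable {E : Type*} [NormedAddCommGroup E] [InnerProductSpace ℝ E] [FiniteDimensional ℝ E]
  [CompleteSpace E] [MeasurableSpace E] [BorelSpace E]
variable {N N' : NF E}

/-- The support function of the face of the unit ball exposed by `-φ`. -/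
noncomputable def hG (N : NF E) (φ ξ : E) : ℝ :=
  sSup ((fun x => ⟪ξ, x⟫) '' {x | N x = 1 ∧ ⟪φ, x⟫ = -1})

/-- The tangent cone of the lower sheet at the south pole. -/
theorem tm_tangent (N : NF E) {φ ξ : E} (hφ : N.dual φ = 1) :
    Tendsto (fun t : ℝ => (tm N.dual φ (t • ξ) - 1) / t) (𝓝[>] 0) (𝓝 (-hG N φ ξ)) := by
  have hφ0 : φ ≠ 0 := by
    rintro rfl
    rw [NF.map_zero'] at hφ
    exact zero_ne_one hφ
  -- the value at the origin
  have hp0 : tm N.dual φ (0 : E) = 1 := by
    have hset : {t : ℝ | N.dual ((0 : E) - t • φ) < 1} = Ioo (-1) 1 := by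
      ext t
      have h1 : N.dual ((0 : E) - t • φ) = |t| := by
        rw [zero_sub, NF.map_neg', N.dual.smul_eq, hφ, mul_one]
      simp only [mem_ofPred_eq, mem_Ioo, h1, abs_lt]
    unfold tm
    rw [hset]
    exact csSup_Ioo (by norm_num)
  have h0ball : (0 : E) ∈ N.dual.ball := by
    change N.dual 0 < 1
    rw [NF.map_zero']
    exact one_pos
  have hh0 : hits N.dual φ (0 : E) := hits_of_mem_ball N.dual h0ball
  -- continuity of the lower sheet at the origin
  have hcontp : Tendsto (fun t : ℝ => tm N.dual φ (t • ξ)) (𝓝[>] 0) (𝓝 1) := by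
    have h1 : ContinuousAt (fun p : E × E => tm N.dual p.1 p.2) (φ, (0 : E)) :=
      continuousAt_tm N.dual hφ0 hh0
    have h2 : Tendsto (fun t : ℝ => ((φ, t • ξ) : E × E)) (𝓝 0) (𝓝 (φ, (0 : E))) := by
      have : Continuous (fun t : ℝ => ((φ, t • ξ) : E × E)) := by fun_prop
      simpa using this.tendsto 0
    have h3 := h1.tendsto.comp h2
    have h4 : Tendsto (fun t : ℝ => tm N.dual φ (t • ξ)) (𝓝 0) (𝓝 1) := by
      have := h3
      simpa [Function.comp_def, hp0] using this
    exact h4.mono_left nhdsWithin_le_nhds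
  -- small times are inside the ball
  have hball : ∀ᶠ t : ℝ in 𝓝[>] 0, t • ξ ∈ N.dual.ball := by
    have hc : Continuous (fun t : ℝ => N.dual (t • ξ)) :=
      N.dual.continuous.comp (by fun_prop)
    have : Tendsto (fun t : ℝ => N.dual (t • ξ)) (𝓝 0) (𝓝 0) := by
      simpa [NF.map_zero'] using hc.tendsto 0
    exact (this.mono_left nhdsWithin_le_nhds).eventually (gt_mem_nhds one_pos)
  have hsmall : ∀ᶠ t : ℝ in 𝓝[>] 0, 0 < t := eventually_mem_nhdsWithin
  -- the face
  have hGne : ((fun x => ⟪ξ, x⟫) '' {x | N x = 1 ∧ ⟪φ, x⟫ = -1}).Nonempty := by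
    obtain ⟨x, hx, hx2⟩ := N.exists_norming_vec (ξ := -φ) (neg_ne_zero.mpr hφ0)
    refine ⟨_, x, ⟨hx, ?_⟩, rfl⟩
    rw [NF.map_neg', hφ, inner_neg_left] at hx2
    linarith
  have hGbdd : BddAbove ((fun x => ⟪ξ, x⟫) '' {x | N x = 1 ∧ ⟪φ, x⟫ = -1}) := by
    refine ⟨N.dual ξ, ?_⟩
    rintro _ ⟨x, ⟨hx, -⟩, rfl⟩
    have := N.inner_le ξ x
    simpa [hx] using this
  have hmemG : ∀ x, N x = 1 → ⟪φ, x⟫ = -1 → ⟪ξ, x⟫ ≤ hG N φ ξ := fun x hx hx2 =>
    le_csSup hGbdd ⟨x, ⟨hx, hx2⟩, rfl⟩
  -- the upper bound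
  have hup : ∀ᶠ t : ℝ in 𝓝[>] 0, (tm N.dual φ (t • ξ) - 1) / t ≤ -hG N φ ξ := by
    filter_upwards [hball, hsmall] with t htb ht
    have hh : hits N.dual φ (t • ξ) := hits_of_mem_ball N.dual htb
    have hen : N.dual (t • ξ - tm N.dual φ (t • ξ) • φ) = 1 := norm_entryPt N.dual hφ0 hh
    rw [div_le_iff₀ ht]
    have hkey : hG N φ ξ ≤ -((tm N.dual φ (t • ξ) - 1) / t) := by
      refine csSup_le hGne ?_
      rintro _ ⟨x, ⟨hx, hx2⟩, rfl⟩
      have h1 := N.inner_le (t • ξ - tm N.dual φ (t • ξ) • φ) x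
      rw [hen, hx, one_mul, inner_sub_left, inner_smul_left, inner_smul_left, hx2] at h1
      simp only [conj_trivial] at h1
      have h2 : (tm N.dual φ (t • ξ) - 1) / t ≤ - ⟪ξ, x⟫ := by
        rw [div_le_iff₀ ht]
        nlinarith
      simp only
      linarith
    have h3 : (tm N.dual φ (t • ξ) - 1) / t ≤ - hG N φ ξ := by linarith
    rwa [div_le_iff₀ ht] at h3
  -- the lower bound
  have hlow : ∀ ε > 0, ∀ᶠ t : ℝ in 𝓝[>] 0, -hG N φ ξ - ε ≤ (tm N.dual φ (t • ξ) - 1) / t := by
    intro ε hε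
    -- the compact set of unit vectors far from the face
    let A : Set E := {x | N x = 1 ∧ hG N φ ξ + ε ≤ ⟪ξ, x⟫}
    have hAc : IsCompact A := by
      obtain ⟨C, hC, h⟩ := N.exists_bounds
      have hA : A = {x | N x = 1} ∩ {x | hG N φ ξ + ε ≤ ⟪ξ, x⟫} := by
        ext x
        simp [A]
      have hcl : IsClosed A := by
        rw [hA]
        exact (isClosed_eq N.continuous continuous_const).inter
          (isClosed_le continuous_const (continuous_const.inner continuous_id))
      refine (ProperSpace.isCompact_closedBall (0 : E) C).of_isClosed_subset hcl (fun x hx => ?_)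
      rw [mem_closedBall_zero_iff]
      have := (h x).2
      rw [hx.1] at this
      linarith
    -- a gap `γ` on this set
    obtain ⟨γ, hγ, hgap⟩ : ∃ γ > 0, ∀ x ∈ A, ⟪-φ, x⟫ ≤ 1 - γ := by
      by_cases hne : A.Nonempty
      · obtain ⟨x₀, hx₀, hmax⟩ := hAc.exists_isMaxOn hne
          (f := fun x => ⟪-φ, x⟫) (continuous_const.inner continuous_id).continuousOn
        have hlt : ⟪-φ, x₀⟫ < 1 := by
          have hle : ⟪-φ, x₀⟫ ≤ 1 := by
            have := N.inner_le (-φ) x₀
            rwa [NF.map_neg', hφ, hx₀.1, one_mul] at this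
          refine lt_of_le_of_ne hle (fun heq => ?_)
          have h1 : ⟪φ, x₀⟫ = -1 := by
            rw [inner_neg_left] at heq
            linarith
          have h2 := hmemG x₀ hx₀.1 h1
          have h3 := hx₀.2
          linarith
        refine ⟨1 - ⟪-φ, x₀⟫, by linarith, fun x hx => ?_⟩
        have := hmax hx
        simp only [mem_ofPred_eq] at this
        linarith
      · refine ⟨1, one_pos, fun x hx => (hne ⟨x, hx⟩).elim⟩
    -- the entry points converge to `-φ`
    have hclose : ∀ᶠ t : ℝ in 𝓝[>] 0,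
        N.dual ((t • ξ - tm N.dual φ (t • ξ) • φ) + φ) < γ := by
      have h1 : Tendsto (fun t : ℝ => t • ξ - (tm N.dual φ (t • ξ) - 1) • φ) (𝓝[>] 0) (𝓝 0) := by
        have h2 : Tendsto (fun t : ℝ => t • ξ) (𝓝[>] 0) (𝓝 0) := by
          have : Continuous (fun t : ℝ => t • ξ) := by fun_prop
          have h3 := this.tendsto 0
          simp only [zero_smul] at h3
          exact h3.mono_left nhdsWithin_le_nhds
        have h4 : Tendsto (fun t : ℝ => (tm N.dual φ (t • ξ) - 1) • φ) (𝓝[>] 0) (𝓝 0) := by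
          have h5 : Tendsto (fun t : ℝ => tm N.dual φ (t • ξ) - 1) (𝓝[>] 0) (𝓝 0) := by
            simpa using hcontp.sub_const 1
          simpa using h5.smul_const φ
        simpa using h2.sub h4
      have h6 : Tendsto (fun t : ℝ => N.dual (t • ξ - (tm N.dual φ (t • ξ) - 1) • φ)) (𝓝[>] 0)
          (𝓝 0) := by
        have := N.dual.continuous.tendsto (0 : E)
        rw [NF.map_zero'] at this
        exact this.comp h1
      filter_upwards [h6.eventually (gt_mem_nhds hγ)] with t ht
      have h7 : (t • ξ - tm N.dual φ (t • ξ) • φ) + φ = t • ξ - (tm N.dual φ (t • ξ) - 1) • φ := by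
        rw [sub_smul, one_smul]
        abel
      rw [h7]
      exact ht
    filter_upwards [hball, hsmall, hclose] with t htb ht hcl
    have hh : hits N.dual φ (t • ξ) := hits_of_mem_ball N.dual htb
    have hen : N.dual (t • ξ - tm N.dual φ (t • ξ) • φ) = 1 := norm_entryPt N.dual hφ0 hh
    have hptpos : 0 < tm N.dual φ (t • ξ) := tm_pos N.dual hφ0 htb
    have he0 : t • ξ - tm N.dual φ (t • ξ) • φ ≠ 0 := by
      intro h0
      rw [h0, NF.map_zero'] at hen
      exact zero_ne_one hen
    obtain ⟨x, hx, hx2⟩ := N.exists_norming_vec he0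
    rw [hen] at hx2
    -- the norming vector is not in `A`
    have hnotA : x ∉ A := by
      intro hxA
      have h1 := hgap x hxA
      have h2 := N.inner_le ((t • ξ - tm N.dual φ (t • ξ) • φ) + φ) x
      rw [hx, mul_one, inner_add_left, hx2] at h2
      rw [inner_neg_left] at h1
      linarith
    have hxlt : ⟪ξ, x⟫ < hG N φ ξ + ε := by
      by_contra hcon
      exact hnotA ⟨hx, not_lt.mp hcon⟩
    -- `⟪φ, x⟫ ≥ -1`
    have hφx : -1 ≤ ⟪φ, x⟫ := by
      have := N.inner_le (-φ) x
      rw [NF.map_neg', hφ, hx, one_mul, inner_neg_left] at this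
      linarith
    have hexp : t * ⟪ξ, x⟫ - tm N.dual φ (t • ξ) * ⟪φ, x⟫ = 1 := by
      rw [inner_sub_left, inner_smul_left, inner_smul_left] at hx2
      simpa using hx2
    rw [le_div_iff₀ ht]
    nlinarith
  -- conclusion
  refine tendsto_order.2 ⟨fun a ha => ?_, fun a ha => ?_⟩
  · have hε : 0 < (-hG N φ ξ - a) / 2 := by linarith
    filter_upwards [hlow _ hε] with t ht
    linarith
  · filter_upwards [hup] with t ht
    linarith

end Vale.Agent.Lib.P084T
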