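import Vale.Agent.Lib.P084G.G0

set_option linter.unusedSectionVars false

/-! # P084G part L4: general finite dimensional Tingley. See `notes/P084G_blueprint.md`. -/

open MeasureTheory Set Filter Topology
open scoped RealInnerProductSpace ENNReal NNReal

namespace Vale.Agent.Lib.P084T

variable {E : Type*} [NormedAddCommGroup E] [InnerProductSpace ℝ E] [FiniteDimensional ℝ E]
  [CompleteSpace E] [MeasurableSpace E] [BorelSpace E]
variable {N N' : NF E}

/-- Exposed face at a differentiability point, in terms of the norm only. -/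
private lemma face_iff (N : NF E) {c y : E} (hc : N c = 1)
    (hd : DifferentiableAt ℝ (N : E → ℝ) c) (hy : N y = 1) :
    ⟪grad N c, y⟫ = 1 ↔ N (y + c) = 2 := by
  have hc0 : c ≠ 0 := by
    rintro rfl
    rw [N.map_zero'] at hc
    norm_num at hc
  obtain ⟨-, hdual, hself⟩ := N.grad_spec hc0 hd
  have hup : N (y + c) ≤ 2 := by
    have := N.add_le y c
    rw [hy, hc] at this
    linarith
  constructor
  · intro h
    apply le_antisymm hup
    have h1 := N.inner_le (grad N c) (y + c)
    rw [hdual, one_mul, inner_add_right, h, hself, hc] at h1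
    linarith
  · intro h
    have hyc : y + c ≠ 0 := by
      intro h0
      rw [h0, N.map_zero'] at h
      norm_num at h
    obtain ⟨η, hη1, hη2⟩ := N.exists_norming_fun hyc
    rw [h, inner_add_right] at hη2
    have h1 := N.inner_le η y
    have h2 := N.inner_le η c
    rw [hη1, one_mul, hy] at h1
    rw [hη1, one_mul, hc] at h2
    have h3 : ⟪η, c⟫ = N c := by rw [hc]; linarith
    have h4 : η = grad N c := N.grad_unique hc0 hd hη1.le h3
    rw [← h4]
    linarith

private lemma diff_neg (N : NF E) {x : E} (hd : DifferentiableAt ℝ (N : E → ℝ) x) :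
    DifferentiableAt ℝ (N : E → ℝ) (-x) := by
  have h1 : (N : E → ℝ) = fun y => (N : E → ℝ) (-y) := by
    funext y
    exact (N.map_neg' y).symm
  rw [h1]
  have h2 : DifferentiableAt ℝ (N : E → ℝ) (- -x) := by rwa [neg_neg]
  exact h2.comp (-x) differentiableAt_id.neg

/-- Exposed faces correspond at a good point whose antipode is good (no oddness needed). -/
theorem faces_corr (R : RadIso N N') {a : E} (ha : a ∈ Good R) (ha1 : N a = 1)
    (hma : -a ∈ Good R) :
    R.F '' {y | N y = 1 ∧ ⟪grad N a, y⟫ = 1} = {y' | N' y' = 1 ∧ ⟪grad N' (R.F a), y'⟫ = 1} := by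
  obtain ⟨ha0, -, -, hda, hdFa, -, -⟩ := ha
  obtain ⟨-, -, -, -, hdFma, -, -⟩ := hma
  have hma1 : N (-a) = 1 := by rw [N.map_neg', ha1]
  have hFa1 : N' (R.F a) = 1 := by rw [R.norm_F, ha1]
  have hFma1 : N' (R.F (-a)) = 1 := by rw [R.norm_F, hma1]
  set c' : E := -R.F (-a) with hc'
  have hc'1 : N' c' = 1 := by rw [hc', N'.map_neg', hFma1]
  have hdc' : DifferentiableAt ℝ (N' : E → ℝ) c' := diff_neg N' hdFma
  have hiso : ∀ y, N y = 1 → N' (R.F y + c') = N (y + a) := by
    intro y hy
    have h := R.iso y (-a) hy hma1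
    rw [hc', ← sub_eq_add_neg, h, sub_neg_eq_add]
  have key : ∀ y, N y = 1 → (⟪grad N a, y⟫ = 1 ↔ ⟪grad N' c', R.F y⟫ = 1) := by
    intro y hy
    rw [face_iff N ha1 hda hy, face_iff N' hc'1 hdc' (by rw [R.norm_F, hy]), hiso y hy]
  have hgrad : grad N' c' = grad N' (R.F a) := by
    have hFa0 : R.F a ≠ 0 := by
      intro h
      rw [h, N'.map_zero'] at hFa1
      norm_num at hFa1
    have hc'0 : c' ≠ 0 := by
      intro h
      rw [h, N'.map_zero'] at hc'1
      norm_num at hc'1
    have h1 : ⟪grad N' c', R.F a⟫ = 1 := by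
      rw [← key a ha1]
      have := (N.grad_spec ha0 hda).2.2
      rw [this, ha1]
    have h2 := (N'.grad_spec hc'0 hdc').2.1
    exact N'.grad_unique hFa0 hdFa h2.le (by rw [h1, hFa1])
  ext y'
  constructor
  · rintro ⟨y, ⟨hy1, hy2⟩, rfl⟩
    refine ⟨by rw [R.norm_F, hy1], ?_⟩
    rw [← hgrad, ← key y hy1]
    exact hy2
  · rintro ⟨hy1, hy2⟩
    have hGy : N (R.G y') = 1 := by
      have := R.norm_F (R.G y')
      rw [R.F_G] at this
      rw [← this, hy1]
    refine ⟨R.G y', ⟨hGy, ?_⟩, R.F_G y'⟩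
    rw [key _ hGy, R.F_G, hgrad]
    exact hy2

end Vale.Agent.Lib.P084T
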