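import Vale.Agent.Lib.P084T.Basic
import Vale.Agent.Lib.P084.Mank

set_option linter.unusedSectionVars false

/-! # P084G part L5a: Mankiewicz theorem for norm functions. See `notes/P084G_blueprint.md`. -/

open MeasureTheory Set Filter Topology
open scoped RealInnerProductSpace ENNReal NNReal

namespace Vale.Agent.Lib.P084T

variable {W W' : Type*} [NormedAddCommGroup W] [InnerProductSpace ℝ W] [FiniteDimensional ℝ W]
  [NormedAddCommGroup W'] [InnerProductSpace ℝ W'] [FiniteDimensional ℝ W']

/-- Type synonym of `W` which carries the norm given by the norm function `M`. -/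
def NF.Sp (_M : NF W) : Type _ := W

instance NF.Sp.instAddCommGroup (M : NF W) : AddCommGroup (NF.Sp M) :=
  inferInstanceAs (AddCommGroup W)

instance NF.Sp.instModule (M : NF W) : Module ℝ (NF.Sp M) :=
  inferInstanceAs (Module ℝ W)

/-- The additive group norm of a norm function. -/
noncomputable def NF.toAddGroupNorm (M : NF W) : AddGroupNorm (NF.Sp M) where
  toFun := fun x => M (show W from x)
  map_zero' := M.map_zero'
  add_le' := fun x y => M.add_le x y
  neg' := fun x => M.map_neg' x
  eq_zero_of_map_eq_zero' := fun x hx => by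
    by_contra h
    exact (M.pos x h).ne' hx

noncomputable instance NF.Sp.instNormedAddCommGroup (M : NF W) : NormedAddCommGroup (NF.Sp M) :=
  AddGroupNorm.toNormedAddCommGroup (NF.toAddGroupNorm M)

theorem NF.Sp.norm_eq (M : NF W) (x : NF.Sp M) : ‖x‖ = M (show W from x) := rfl

noncomputable instance NF.Sp.instNormedSpace (M : NF W) : NormedSpace ℝ (NF.Sp M) where
  norm_smul_le := fun c x => by
    rw [NF.Sp.norm_eq, NF.Sp.norm_eq]
    have := M.smul_eq c (show W from x)
    rw [Real.norm_eq_abs]
    exact this.le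

instance NF.Sp.instFiniteDimensional (M : NF W) : FiniteDimensional ℝ (NF.Sp M) :=
  inferInstanceAs (FiniteDimensional ℝ W)

/-- Mankiewicz: a surjective isometry between convex sets is affine, for norm functions
(wrapper of `Vale.Agent.Lib.P084.mankiewicz`). -/
theorem mankiewicz_NF (M : NF W) (M' : NF W') {Q : Set W} (hQ : Convex ℝ Q) {f : W → W'}
    (hiso : ∀ x ∈ Q, ∀ y ∈ Q, M' (f x - f y) = M (x - y)) (hK : Convex ℝ (f '' Q)) {x y : W}
    (hx : x ∈ Q) (hy : y ∈ Q) {t : ℝ} (ht0 : 0 ≤ t) (ht1 : t ≤ 1) :
    f ((1 - t) • x + t • y) = (1 - t) • f x + t • f y := by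
  exact Vale.Agent.Lib.P084.mankiewicz (X := NF.Sp M) (Y := NF.Sp M') Q hQ f
    (fun a ha b hb => hiso a ha b hb) hK hx hy ht0 ht1

end Vale.Agent.Lib.P084T
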