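import Vale.Agent.Lib.P084G.L4
import Vale.Agent.Lib.P084G.L5a

set_option linter.unusedSectionVars false

/-! # P084G part L5b: general finite dimensional Tingley. See `notes/P084G_blueprint.md`. -/

open MeasureTheory Set Filter Topology
open scoped RealInnerProductSpace ENNReal NNReal

namespace Vale.Agent.Lib.P084T

variable {E : Type*} [NormedAddCommGroup E] [InnerProductSpace ℝ E] [FiniteDimensional ℝ E]
  [CompleteSpace E] [MeasurableSpace E] [BorelSpace E]
variable {N N' : NF E}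

/-- The exposed face as a convex set: for a functional of dual norm at most one. -/
private lemma convex_face (N : NF E) {φ : E} (hφ : N.dual φ ≤ 1) :
    Convex ℝ {y | N y = 1 ∧ ⟪φ, y⟫ = 1} := by
  intro x hx y hy s t hs ht hst
  obtain ⟨hx1, hx2⟩ := hx
  obtain ⟨hy1, hy2⟩ := hy
  have hin : ⟪φ, s • x + t • y⟫ = 1 := by
    rw [inner_add_right, inner_smul_right, inner_smul_right, hx2, hy2]
    linarith
  refine ⟨?_, hin⟩
  apply le_antisymm
  · calc N (s • x + t • y) ≤ N (s • x) + N (t • y) := N.add_le _ _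
      _ = 1 := by
        rw [N.smul_eq, N.smul_eq, hx1, hy1, abs_of_nonneg hs, abs_of_nonneg ht]
        linarith
  · have h := N.inner_le φ (s • x + t • y)
    rw [hin] at h
    have h0 := N.nonneg (s • x + t • y)
    nlinarith

/-- The derivative at a good point is straight on the exposed face. -/
theorem straight_on_face (R : RadIso N N') {a y : E} (ha : a ∈ Good R) (ha1 : N a = 1)
    (hma : -a ∈ Good R) (hy : N y = 1) (hy1 : ⟪grad N a, y⟫ = 1) :
    fderiv ℝ R.F a (y - a) = R.F y - R.F a := by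
  have hg := ha
  obtain ⟨ha0, hdF, -, hda, hdFa, -, -⟩ := hg
  have hFa1 : N' (R.F a) = 1 := by rw [R.norm_F, ha1]
  have hFa0 : R.F a ≠ 0 := by
    intro h
    rw [h, N'.map_zero'] at hFa1
    norm_num at hFa1
  have hφ := (N.grad_spec ha0 hda).2
  have hφ' := (N'.grad_spec hFa0 hdFa).2
  have hQ := convex_face N hφ.1.le
  have hQ' := convex_face N' hφ'.1.le
  have hfaces := faces_corr R ha ha1 hma
  have hK : Convex ℝ (R.F '' {y | N y = 1 ∧ ⟪grad N a, y⟫ = 1}) := by
    rw [hfaces]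
    exact hQ'
  have hiso : ∀ x ∈ {y | N y = 1 ∧ ⟪grad N a, y⟫ = 1}, ∀ z ∈ {y | N y = 1 ∧ ⟪grad N a, y⟫ = 1},
      N' (R.F x - R.F z) = N (x - z) := fun x hx z hz => R.iso x z hx.1 hz.1
  have ham : a ∈ {y | N y = 1 ∧ ⟪grad N a, y⟫ = 1} := ⟨ha1, by rw [hφ.2, ha1]⟩
  have hym : y ∈ {y | N y = 1 ∧ ⟪grad N a, y⟫ = 1} := ⟨hy, hy1⟩
  have hline : ∀ t : ℝ, 0 ≤ t → t ≤ 1 → R.F (a + t • (y - a)) = R.F a + t • (R.F y - R.F a) := by
    intro t h0 h1
    have := mankiewicz_NF N N' hQ hiso hK ham hym h0 h1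
    have e1 : (1 - t) • a + t • y = a + t • (y - a) := by
      rw [smul_sub, sub_smul, one_smul]
      abel
    have e2 : (1 - t) • R.F a + t • R.F y = R.F a + t • (R.F y - R.F a) := by
      rw [smul_sub, sub_smul, one_smul]
      abel
    rwa [e1, e2] at this
  have hder : HasDerivAt (fun t : ℝ => R.F (a + t • (y - a))) (fderiv ℝ R.F a (y - a)) 0 := by
    have h1 : HasDerivAt (fun t : ℝ => a + t • (y - a)) (y - a) 0 := by
      have := ((hasDerivAt_id (0 : ℝ)).smul_const (y - a)).const_add a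
      simpa using this
    have h2 : HasFDerivAt R.F (fderiv ℝ R.F a) (a + (0 : ℝ) • (y - a)) := by
      simpa using hdF.hasFDerivAt
    exact h2.comp_hasDerivAt (0 : ℝ) h1
  have hwithin : HasDerivWithinAt (fun t : ℝ => R.F (a + t • (y - a))) (R.F y - R.F a) (Ico 0 1) 0 := by
    have h1 : HasDerivAt (fun t : ℝ => R.F a + t • (R.F y - R.F a)) (R.F y - R.F a) 0 := by
      have := ((hasDerivAt_id (0 : ℝ)).smul_const (R.F y - R.F a)).const_add (R.F a)
      simpa using this
    refine h1.hasDerivWithinAt.congr ?_ ?_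
    · intro t ht
      exact hline t ht.1 ht.2.le
    · simp
  have hu : UniqueDiffWithinAt ℝ (Ico (0 : ℝ) 1) 0 :=
    (uniqueDiffOn_Ico (0 : ℝ) 1) 0 (by simp)
  exact hu.eq_deriv _ (hder.hasDerivWithinAt) hwithin

end Vale.Agent.Lib.P084T
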