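import Vale.Agent.Lib.P084G.L2
import Vale.Agent.Lib.P084G.L3
import Vale.Agent.Lib.P084G.L5b

set_option linter.unusedSectionVars false

/-! # P084G part L6: general finite dimensional Tingley. See `notes/P084G_blueprint.md`. -/

open MeasureTheory Set Filter Topology
open scoped RealInnerProductSpace ENNReal NNReal

namespace Vale.Agent.Lib.P084T

variable {E : Type*} [NormedAddCommGroup E] [InnerProductSpace ℝ E] [FiniteDimensional ℝ E]
  [CompleteSpace E] [MeasurableSpace E] [BorelSpace E]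
variable {N N' : NF E}

private theorem L6_Xi_inner (R : RadIso N N') (a ξ y : E) :
    ⟪Xi R a ξ, y⟫ = ⟪ξ, fderiv ℝ R.G (R.F a) y⟫ := by
  simp only [Xi]
  rw [ContinuousLinearMap.adjoint_inner_left]

/-- On the exposed face the derivative agrees with `F`. -/
private theorem L6_deriv_face (R : RadIso N N') {a y : E} (ha : a ∈ Good R) (ha1 : N a = 1)
    (hma : -a ∈ Good R) (hy : N y = 1) (hy1 : ⟪grad N a, y⟫ = 1) :
    fderiv ℝ R.F a y = R.F y := by
  have h := straight_on_face R ha ha1 hma hy hy1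
  rw [map_sub, R.good_apply_self ha] at h
  exact sub_left_injective h

/-- The support functions of the two opposite faces correspond. -/
private theorem L6_hG_Xi (R : RadIso N N') {a : E} (ha : a ∈ Good R) (ha1 : N a = 1)
    (hma : -a ∈ Good R) (ξ : E) :
    hG N' (grad N' (R.F a)) (Xi R a ξ) = hG N (grad N a) ξ := by
  unfold hG
  congr 1
  ext r
  constructor
  · rintro ⟨x', ⟨hx'1, hx'2⟩, rfl⟩
    have hmem : -x' ∈ {y' | N' y' = 1 ∧ ⟪grad N' (R.F a), y'⟫ = 1} :=
      ⟨by rw [N'.map_neg']; exact hx'1, by rw [inner_neg_right, hx'2]; norm_num⟩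
    rw [← faces_corr R ha ha1 hma] at hmem
    obtain ⟨y, ⟨hy1, hy2⟩, hy⟩ := hmem
    refine ⟨-y, ⟨by rw [N.map_neg']; exact hy1, by rw [inner_neg_right, hy2]⟩, ?_⟩
    have e : x' = fderiv ℝ R.F a (-y) := by
      rw [map_neg, L6_deriv_face R ha ha1 hma hy1 hy2, hy, neg_neg]
    show ⟪ξ, -y⟫ = ⟪Xi R a ξ, x'⟫
    rw [e, Xi_apply R ha]
  · rintro ⟨x, ⟨hx1, hx2⟩, rfl⟩
    have hx1' : N (-x) = 1 := by rw [N.map_neg']; exact hx1
    have hx2' : ⟪grad N a, -x⟫ = 1 := by rw [inner_neg_right, hx2]; norm_num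
    have hmem : R.F (-x) ∈ {y' | N' y' = 1 ∧ ⟪grad N' (R.F a), y'⟫ = 1} := by
      rw [← faces_corr R ha ha1 hma]
      exact mem_image_of_mem _ ⟨hx1', hx2'⟩
    have e : fderiv ℝ R.F a x = -R.F (-x) := by
      rw [← L6_deriv_face R ha ha1 hma hx1' hx2', map_neg, neg_neg]
    refine ⟨fderiv ℝ R.F a x, ⟨?_, ?_⟩, Xi_apply R ha ξ x⟩
    · rw [e, N'.map_neg']; exact hmem.1
    · rw [e, inner_neg_right, hmem.2]

/-- At a good point with the relation of `ae_relation`, the dual balls have the same lower sheet. -/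
theorem tm_Xi_eq (R : RadIso N N') {a : E} (ha : a ∈ Good R) (ha1 : N a = 1) (hma : -a ∈ Good R)
    (hhom : ∀ ξ, hits N.dual (grad N a) ξ → ∀ t ∈ Ioc (0 : ℝ) 1,
      tm N.dual (grad N a) (t • ξ) - tm N'.dual (grad N' (R.F a)) (t • Xi R a ξ) =
        t * (tm N.dual (grad N a) ξ - tm N'.dual (grad N' (R.F a)) (Xi R a ξ)))
    {ξ : E} (hξ : hits N.dual (grad N a) ξ) :
    tm N.dual (grad N a) ξ = tm N'.dual (grad N' (R.F a)) (Xi R a ξ) := by
  have hφ : N.dual (grad N a) = 1 := (N.grad_spec ha.1 ha.2.2.2.1).2.1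
  have hFa : R.F a ≠ 0 := by
    intro h
    have h1 := R.norm_F a
    rw [h, N'.map_zero', ha1] at h1
    norm_num at h1
  have hφ' : N'.dual (grad N' (R.F a)) = 1 := (N'.grad_spec hFa ha.2.2.2.2.1).2.1
  have T1 := tm_tangent N (ξ := ξ) hφ
  have T2 := tm_tangent N' (ξ := Xi R a ξ) hφ'
  rw [L6_hG_Xi R ha ha1 hma ξ] at T2
  have T3 := T1.sub T2
  rw [sub_self] at T3
  have hev : ∀ᶠ t in 𝓝[>] (0 : ℝ),
      tm N.dual (grad N a) ξ - tm N'.dual (grad N' (R.F a)) (Xi R a ξ) =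
      (tm N.dual (grad N a) (t • ξ) - 1) / t
        - (tm N'.dual (grad N' (R.F a)) (t • Xi R a ξ) - 1) / t := by
    have h1 : ∀ᶠ t in 𝓝[>] (0 : ℝ), t ∈ Ioc (0 : ℝ) 1 := Ioc_mem_nhdsGT one_pos
    filter_upwards [h1] with t ht
    have h2 := hhom ξ hξ t ht
    have ht0 : t ≠ 0 := ht.1.ne'
    rw [← sub_div]
    field_simp
    linarith
  have T4 : Tendsto (fun _ : ℝ =>
      tm N.dual (grad N a) ξ - tm N'.dual (grad N' (R.F a)) (Xi R a ξ)) (𝓝[>] 0) (𝓝 0) :=
    T3.congr' (hev.mono fun t ht => ht.symm)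
  have := tendsto_nhds_unique T4 tendsto_const_nhds
  linarith

private theorem L6_tp_eq (N : NF E) (v w : E) : tp N v w = tm N v (-w) := by
  unfold tp tm
  congr 1
  ext t
  have : -w - t • v = -(w + t • v) := by abel
  simp only [mem_ofPred_eq, this, N.map_neg']

private theorem L6_hits_neg (N : NF E) {v w : E} (h : hits N v w) : hits N v (-w) := by
  obtain ⟨t, ht⟩ := h
  refine ⟨-t, ?_⟩
  have : -w + (-t) • v = -(w + t • v) := by
    rw [neg_smul]; abel
  rwa [this, N.map_neg']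

private theorem L6_lt_one_iff (N : NF E) {v w : E} (hv : v ≠ 0) (h : hits N v w) :
    N w < 1 ↔ 0 < tm N v w ∧ 0 < tm N v (-w) := by
  have := line_iff N hv h 0
  rw [zero_smul, add_zero] at this
  rw [this, L6_tp_eq]
  constructor
  · rintro ⟨h1, h2⟩
    exact ⟨by linarith, h2⟩
  · rintro ⟨h1, h2⟩
    exact ⟨by linarith, h2⟩

/-- Same lower sheets force the derivative to be an isometry. -/
theorem good_isometry (R : RadIso N N') {a : E} (ha : a ∈ Good R)
    (htm : ∀ ξ, hits N.dual (grad N a) ξ →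
      tm N.dual (grad N a) ξ = tm N'.dual (grad N' (R.F a)) (Xi R a ξ)) (h : E) :
    N' (fderiv ℝ R.F a h) = N h := by
  have ha0 : a ≠ 0 := ha.1
  have hFa : R.F a ≠ 0 := by
    intro h0
    have h1 := R.norm_F a
    rw [h0, N'.map_zero'] at h1
    exact (N.pos a ha0).ne h1
  have hφ : N.dual (grad N a) = 1 := (N.grad_spec ha0 ha.2.2.2.1).2.1
  have hφ' : N'.dual (grad N' (R.F a)) = 1 := (N'.grad_spec hFa ha.2.2.2.2.1).2.1
  have hφ0 : grad N a ≠ 0 := by
    intro h0
    rw [h0, N.dual.map_zero'] at hφ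
    norm_num at hφ
  have hφ'0 : grad N' (R.F a) ≠ 0 := by
    intro h0
    rw [h0, N'.dual.map_zero'] at hφ'
    norm_num at hφ'
  -- the unit balls correspond
  have hball : ∀ ξ, N.dual ξ < 1 ↔ N'.dual (Xi R a ξ) < 1 := by
    intro ξ
    by_cases hh : hits N.dual (grad N a) ξ
    · have hh' : hits N'.dual (grad N' (R.F a)) (Xi R a ξ) := (hits_Xi R ha).2 hh
      rw [L6_lt_one_iff N.dual hφ0 hh, L6_lt_one_iff N'.dual hφ'0 hh', htm ξ hh,
        htm (-ξ) (L6_hits_neg N.dual hh), map_neg]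
    · constructor
      · intro h1
        exact absurd ⟨0, by simpa using h1⟩ hh
      · intro h1
        exact absurd ((hits_Xi R ha).1 ⟨0, by simpa using h1⟩) hh
  -- the dual norms correspond
  have hdual : ∀ ξ, N'.dual (Xi R a ξ) = N.dual ξ := by
    intro ξ
    apply le_antisymm
    · by_contra hlt
      have hlt' : N.dual ξ < N'.dual (Xi R a ξ) := not_le.mp hlt
      have hc : 0 < N'.dual (Xi R a ξ) := lt_of_le_of_lt (N.dual.nonneg ξ) hlt'
      have h1 : N.dual ((N'.dual (Xi R a ξ))⁻¹ • ξ) < 1 := by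
        rw [N.dual.smul_eq, abs_of_pos (inv_pos.mpr hc), inv_mul_lt_iff₀ hc]
        linarith
      have h2 := (hball _).1 h1
      rw [map_smul, N'.dual.smul_eq, abs_of_pos (inv_pos.mpr hc), inv_mul_cancel₀ hc.ne'] at h2
      exact lt_irrefl _ h2
    · by_contra hlt
      have hlt' : N'.dual (Xi R a ξ) < N.dual ξ := not_le.mp hlt
      have hc : 0 < N.dual ξ := lt_of_le_of_lt (N'.dual.nonneg _) hlt'
      have h1 : N'.dual (Xi R a ((N.dual ξ)⁻¹ • ξ)) < 1 := by
        rw [map_smul, N'.dual.smul_eq, abs_of_pos (inv_pos.mpr hc), inv_mul_lt_iff₀ hc]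
        linarith
      have h2 := (hball _).2 h1
      rw [N.dual.smul_eq, abs_of_pos (inv_pos.mpr hc), inv_mul_cancel₀ hc.ne'] at h2
      exact lt_irrefl _ h2
  -- surjectivity
  have hsurj : ∀ ζ, ∃ ξ, Xi R a ξ = ζ := by
    intro ζ
    refine ⟨ContinuousLinearMap.adjoint (fderiv ℝ R.F a) ζ, ?_⟩
    apply ext_inner_right ℝ
    intro y
    rw [L6_Xi_inner, ContinuousLinearMap.adjoint_inner_left]
    have h2 := (R.good_inverse ha).2
    have := congrArg (fun L : E →L[ℝ] E => L y) h2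
    have e : fderiv ℝ R.F a (fderiv ℝ R.G (R.F a) y) = y := by simpa using this
    rw [e]
  apply le_antisymm
  · by_cases h0 : fderiv ℝ R.F a h = 0
    · rw [h0, N'.map_zero']
      exact N.nonneg h
    · obtain ⟨ζ, hζ1, hζ2⟩ := N'.exists_norming_fun h0
      obtain ⟨ξ, rfl⟩ := hsurj ζ
      rw [← hζ2, Xi_apply R ha]
      have h1 := N.inner_le ξ h
      rw [← hdual ξ, hζ1, one_mul] at h1
      exact h1
  · by_cases h0 : h = 0
    · rw [h0, N.map_zero', map_zero, N'.map_zero']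
    · obtain ⟨ξ, hξ1, hξ2⟩ := N.exists_norming_fun h0
      rw [← hξ2, ← Xi_apply R ha]
      have h1 := N'.inner_le (Xi R a ξ) (fderiv ℝ R.F a h)
      rw [hdual ξ, hξ1, one_mul] at h1
      exact h1

end Vale.Agent.Lib.P084T
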