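import Vale.Agent.Lib.P084G.L1
import Vale.Agent.Lib.P084G.L6

set_option linter.unusedSectionVars false

/-! # P084G part L7: general finite dimensional Tingley. See `notes/P084G_blueprint.md`. -/

open MeasureTheory Set Filter Topology
open scoped RealInnerProductSpace ENNReal NNReal Pointwise

namespace Vale.Agent.Lib.P084T

variable {E : Type*} [NormedAddCommGroup E] [InnerProductSpace ℝ E] [FiniteDimensional ℝ E]
  [CompleteSpace E] [MeasurableSpace E] [BorelSpace E]
variable {N N' : NF E}

/-- Almost every line in a fixed direction meets a null set in a null set. -/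
private theorem ae_ae_line {Z : Set E} (hZ : volume Z = 0) (h : E) :
    ∀ᵐ w ∂(volume : Measure E), ∀ᵐ t ∂(volume : Measure ℝ), w + t • h ∉ Z := by
  obtain ⟨Z₀, hZZ₀, mZ₀, hZ₀⟩ := exists_measurable_superset_of_null hZ
  have hmeas : MeasurableSet {p : ℝ × E | p.2 + p.1 • h ∉ Z₀} := by
    have hc : Measurable fun p : ℝ × E => p.2 + p.1 • h := by fun_prop
    exact (hc mZ₀).compl
  have h1 : ∀ᵐ t ∂(volume : Measure ℝ), ∀ᵐ w ∂(volume : Measure E), w + t • h ∉ Z₀ := by
    refine Eventually.of_forall fun t => ?_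
    have : (fun w : E => w + t • h) ⁻¹' Z₀ = (fun w : E => w + t • h) ⁻¹' Z₀ := rfl
    have h2 : volume ((fun w : E => w + t • h) ⁻¹' Z₀) = 0 := by
      rw [measure_preimage_add_right]
      exact hZ₀
    exact measure_eq_zero_iff_ae_notMem.mp h2
  have h3 := (Measure.ae_ae_comm (μ := (volume : Measure ℝ)) (ν := (volume : Measure E))
    (p := fun t w => w + t • h ∉ Z₀) hmeas).mp h1
  exact h3.mono fun w hw => hw.mono fun t ht hmem => ht (hZZ₀ hmem)

/-- A Lipschitz map whose derivative is a.e. isometric is 1-Lipschitz. -/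
theorem norm_le_of_ae_isometry (R : RadIso N N')
    (hae : ∀ᵐ z ∂(volume : Measure E), ∀ h, N' (fderiv ℝ R.F z h) = N h) (x y : E) :
    N' (R.F x - R.F y) ≤ N (x - y) := by
  obtain ⟨K, hK⟩ := R.lipschitz_F
  by_cases hne : R.F x - R.F y = 0
  · rw [hne, N'.map_zero']
    exact N.nonneg _
  obtain ⟨ζ, hζ1, hζ⟩ := N'.exists_norming_fun hne
  set h : E := x - y with hh
  -- the good set
  have hdiff : ∀ᵐ z ∂(volume : Measure E), DifferentiableAt ℝ R.F z := hK.ae_differentiableAt
  have hgood : ∀ᵐ z ∂(volume : Measure E),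
      DifferentiableAt ℝ R.F z ∧ N' (fderiv ℝ R.F z h) = N h := by
    filter_upwards [hdiff, hae] with z hz1 hz2 using ⟨hz1, hz2 h⟩
  have hlines := ae_ae_line (Z := {z | ¬ (DifferentiableAt ℝ R.F z ∧ N' (fderiv ℝ R.F z h) = N h)})
    hgood h
  -- on a.e. line the increment is at most `N h`
  have hline : ∀ᵐ w ∂(volume : Measure E), ⟪ζ, R.F (w + h) - R.F w⟫ ≤ N h := by
    filter_upwards [hlines] with w hw
    let g : ℝ → ℝ := fun t => ⟪ζ, R.F (w + t • h)⟫
    have hgLip : LipschitzWith ((‖ζ‖₊ * K) * ‖h‖₊) g := by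
      have h1 : LipschitzWith ‖ζ‖₊ (fun v : E => ⟪ζ, v⟫) := by
        refine LipschitzWith.of_dist_le_mul fun a b => ?_
        simp only [dist_eq_norm, ← inner_sub_right, Real.norm_eq_abs, coe_nnnorm]
        exact abs_real_inner_le_norm _ _
      have h2 : LipschitzWith ‖h‖₊ (fun t : ℝ => w + t • h) := by
        refine LipschitzWith.of_dist_le_mul fun a b => ?_
        simp only [dist_eq_norm, add_sub_add_left_eq_sub, ← sub_smul, norm_smul, Real.norm_eq_abs,
          coe_nnnorm]
        rw [mul_comm]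
      exact (h1.comp hK).comp h2
    have hAC : AbsolutelyContinuousOnInterval g 0 1 :=
      (hgLip.lipschitzOnWith (s := uIcc 0 1)).absolutelyContinuousOnInterval
    have hFTC := hAC.integral_deriv_eq_sub
    have hderiv : ∀ᵐ t ∂(volume : Measure ℝ), deriv g t ≤ N h := by
      filter_upwards [hw] with t ht
      have ht' : DifferentiableAt ℝ R.F (w + t • h) ∧
          N' (fderiv ℝ R.F (w + t • h) h) = N h := by
        by_contra hcon
        exact ht hcon
      have hline' : HasDerivAt (fun s : ℝ => w + s • h) h t := by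
        have : HasDerivAt (fun s : ℝ => s • h) ((1 : ℝ) • h) t := (hasDerivAt_id t).smul_const h
        simpa using this.const_add w
      have h1 : HasDerivAt (fun s : ℝ => R.F (w + s • h)) (fderiv ℝ R.F (w + t • h) h) t :=
        ht'.1.hasFDerivAt.comp_hasDerivAt t hline'
      have h2 : HasDerivAt g ⟪ζ, fderiv ℝ R.F (w + t • h) h⟫ t :=
        (innerSL ℝ ζ).hasFDerivAt.comp_hasDerivAt t h1
      rw [h2.deriv]
      have h3 := N'.inner_le ζ (fderiv ℝ R.F (w + t • h) h)
      rw [hζ1, one_mul, ht'.2] at h3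
      exact h3
    have hint : IntervalIntegrable (deriv g) volume 0 1 := hAC.intervalIntegrable_deriv
    have hle : ∫ t in (0 : ℝ)..1, deriv g t ≤ ∫ t in (0 : ℝ)..1, N h := by
      refine intervalIntegral.integral_mono_ae (by norm_num) hint (by simp) ?_
      exact hderiv
    rw [hFTC] at hle
    simp only [intervalIntegral.integral_const, sub_zero, one_smul] at hle
    simp only [g, one_smul, zero_smul, add_zero] at hle
    rw [inner_sub_right]
    exact hle
  -- by continuity, on every line
  have hdense := Measure.dense_of_ae (μ := (volume : Measure E)) hline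
  have hclosed : IsClosed {w : E | ⟪ζ, R.F (w + h) - R.F w⟫ ≤ N h} := by
    refine isClosed_le ?_ continuous_const
    have := R.continuous_F
    fun_prop
  have hall : ∀ w, ⟪ζ, R.F (w + h) - R.F w⟫ ≤ N h := fun w => by
    have : w ∈ closure {w : E | ⟪ζ, R.F (w + h) - R.F w⟫ ≤ N h} := hdense w
    rw [hclosed.closure_eq] at this
    exact this
  have := hall y
  rw [hh, add_sub_cancel, hζ] at this
  exact this

/-- The one sided inequality for all radial isometries. -/
private theorem F_norm_le [Nontrivial E] (R : RadIso N N') (x y : E) :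
    N' (R.F x - R.F y) ≤ N (x - y) := by
  refine norm_le_of_ae_isometry R ?_ x y
  obtain ⟨r, hr, hrel⟩ := ae_relation R
  -- the bad set, a cone
  let W : Set E := {z | ¬ ∀ h, N' (fderiv ℝ R.F z h) = N h}
  have hWcone : ∀ (c : ℝ), 0 < c → ∀ z, c • z ∈ W ↔ z ∈ W := by
    intro c hc z
    show (¬ ∀ h, N' (fderiv ℝ R.F (c • z) h) = N h) ↔ (¬ ∀ h, N' (fderiv ℝ R.F z h) = N h)
    rw [R.fderiv_smul hc]
  have h0 : ∀ᵐ z ∂(volume : Measure E), z ≠ 0 := by
    have : volume ({0} : Set E) = 0 := measure_singleton 0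
    exact measure_eq_zero_iff_ae_notMem.mp this
  -- on the ball the bad set is null
  have hball : volume (W ∩ N.ball) = 0 := by
    have hW : ∀ᵐ z ∂(volume : Measure E), z ∉ W ∩ N.ball := by
      filter_upwards [hrel, h0] with z hz hz0 hmem
      obtain ⟨hzW, hzB⟩ := hmem
      obtain ⟨ha, hma, hξ⟩ := hz hzB
      have ha1 : N (rad N z) = 1 := N.norm_rad hz0
      obtain ⟨-, hhom⟩ := euler_homog R ha ha1 hr hξ
      have htm := fun ξ (hξ' : hits N.dual (grad N (rad N z)) ξ) =>
        tm_Xi_eq R ha ha1 hma hhom hξ'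
      apply hzW
      intro h
      have hz' : z = N z • rad N z := by
        simp only [rad, smul_smul]
        rw [mul_inv_cancel₀ (N.pos z hz0).ne', one_smul]
      rw [hz', R.fderiv_smul (N.pos z hz0)]
      exact good_isometry R ha htm h
    exact measure_eq_zero_iff_ae_notMem.mpr hW
  -- scaling
  have hWnull : volume W = 0 := by
    have hcover : W ⊆ ⋃ k : ℕ, (((k : ℝ) + 1)) • (W ∩ N.ball) := by
      intro z hz
      obtain ⟨k, hk⟩ := exists_nat_gt (N z)
      refine mem_iUnion.mpr ⟨k, ?_⟩
      have hpos : (0 : ℝ) < (k : ℝ) + 1 := by positivity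
      refine ⟨((k : ℝ) + 1)⁻¹ • z, ⟨(hWcone _ (inv_pos.mpr hpos) z).mpr hz, ?_⟩, ?_⟩
      · show N _ < 1
        rw [N.smul_eq, abs_of_pos (inv_pos.mpr hpos), inv_mul_lt_iff₀ hpos]
        linarith
      · show ((k : ℝ) + 1) • ((k : ℝ) + 1)⁻¹ • z = z
        rw [smul_smul, mul_inv_cancel₀ hpos.ne', one_smul]
    refine measure_mono_null hcover ((measure_iUnion_null_iff).mpr fun k => ?_)
    rw [Measure.addHaar_smul, hball, mul_zero]
  exact measure_eq_zero_iff_ae_notMem.mp hWnull |>.mono fun z hz => by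
    by_contra hcon
    exact hz hcon

/-- The radial isometry is an isometry of the whole space. -/
theorem F_norm_eq [Nontrivial E] (R : RadIso N N') (x y : E) : N' (R.F x - R.F y) = N (x - y) := by
  apply le_antisymm (F_norm_le R x y)
  have := F_norm_le R.swap (R.F x) (R.F y)
  simpa [R.G_F] using this

end Vale.Agent.Lib.P084T
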